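import Vale.Agent.P328.U.Defs

/-!
# P328, unary margins, module ROW: the two-row inequality in the full table space
-/

namespace Vale.P328U
open Finset BigOperators

universe u v

namespace ROW

section
variable {ι : Type u} [Fintype ι] [DecidableEq ι] {κ : Type v} [Fintype κ] [DecidableEq κ]

lemma mem_B {s : κ → ℕ} {t : ℕ} {w : κ → ℕ} : w ∈ B s t ↔ (∀ j, w j ≤ s j) ∧ ∑ j, w j = t := by
  unfold B
  rw [mem_filter, Fintype.mem_piFinset]
  constructor
  · rintro ⟨h1, h2⟩
    exact ⟨fun j => Nat.lt_succ_iff.1 (mem_range.1 (h1 j)), h2⟩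
  · rintro ⟨h1, h2⟩
    exact ⟨fun j => mem_range.2 (Nat.lt_succ_of_le (h1 j)), h2⟩

lemma mem_Om {r : ι → ℕ} {c : κ → ℕ} {X : ι → κ → ℕ} :
    X ∈ Om r c ↔ (∀ i, ∑ j, X i j = r i) ∧ ∀ j, ∑ i, X i j ≤ c j := by
  unfold Om
  rw [mem_filter]
  constructor
  · exact fun h => h.2
  · intro h
    refine ⟨?_, h⟩
    rw [Fintype.mem_piFinset]
    intro k
    rw [Fintype.mem_piFinset]
    intro j
    rw [mem_range]
    have h1 := h.2 j
    have h2 : X k j ≤ ∑ k, X k j :=
      Finset.single_le_sum (f := fun k => X k j) (fun _ _ => Nat.zero_le _) (mem_univ k)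
    omega

omit [Fintype ι] [Fintype κ] in
lemma upd_sub (Y : ι → κ → ℕ) (k : ι) (w : κ → ℕ) (j : κ) :
    Function.update Y k w - E k j = Function.update Y k (w - e j) := by
  funext i l
  by_cases h : i = k
  · subst h
    simp [E]
  · simp [E, h]

lemma VV_upd (F : (ι → κ → ℕ) → ℝ) (Y : ι → κ → ℕ) (k : ι) (w : κ → ℕ) (j : κ) :
    VV F k j (Function.update Y k w) = V (fun x => F (Function.update Y k x)) j w := by
  unfold VV V
  simp only [Function.update_self, upd_sub]

lemma QQ_upd (F : (ι → κ → ℕ) → ℝ) (Y : ι → κ → ℕ) (k : ι) (w : κ → ℕ) :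
    QQ F k (Function.update Y k w) = Q (fun x => F (Function.update Y k x)) w := by
  unfold QQ Q
  simp only [upd_sub, VV_upd]

omit [Fintype κ] [DecidableEq κ] in
lemma sum_upd (Y : ι → κ → ℕ) (k : ι) (w : κ → ℕ) (j : κ) (hY : Y k j = 0) :
    ∑ i, (Function.update Y k w) i j = ∑ i, Y i j + w j := by
  rw [← Finset.add_sum_erase univ (fun i => (Function.update Y k w) i j) (mem_univ k),
    ← Finset.add_sum_erase univ (fun i => Y i j) (mem_univ k)]
  rw [Function.update_self, hY]
  have : ∑ i ∈ univ.erase k, (Function.update Y k w) i j = ∑ i ∈ univ.erase k, Y i j := by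
    apply Finset.sum_congr rfl
    intro i hi
    rw [Function.update_of_ne (ne_of_mem_erase hi)]
  rw [this]
  omega

/-- fibres over the rows other than `k` -/
lemma fiber (r : ι → ℕ) (c : κ → ℕ) (k : ι) (t : ℕ) (g : (ι → κ → ℕ) → ℝ) :
    ∑ W ∈ Om (Function.update r k t) c, g W =
      ∑ Y ∈ Om (Function.update r k 0) c, ∑ w ∈ B (fun j => c j - ∑ i, Y i j) t,
        g (Function.update Y k w) := by
  rw [Finset.sum_sigma']
  refine Finset.sum_bij' (fun W _ => ⟨Function.update W k 0, W k⟩)
    (fun q _ => Function.update q.1 k q.2) ?_ ?_ ?_ ?_ ?_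
  · intro W hW
    rw [mem_Om] at hW
    have hs : ∀ j, ∑ i, W i j = ∑ i, (Function.update W k 0 : ι → κ → ℕ) i j + W k j := by
      intro j
      have := sum_upd (Function.update W k 0) k (W k) j (by simp)
      rw [← this]
      simp
    rw [mem_sigma]
    refine ⟨?_, ?_⟩
    · simp only
      rw [mem_Om]
      refine ⟨?_, ?_⟩
      · intro i
        by_cases hi : i = k
        · subst hi
          simp
        · rw [Function.update_of_ne hi, Function.update_of_ne hi]
          have := hW.1 i
          rw [Function.update_of_ne hi] at this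
          exact this
      · intro j
        have h1 := hs j
        have h2 := hW.2 j
        omega
    · simp only
      rw [mem_B]
      refine ⟨?_, ?_⟩
      · intro j
        have h1 := hs j
        have h2 := hW.2 j
        change W k j ≤ c j - ∑ i, (Function.update W k 0 : ι → κ → ℕ) i j
        omega
      · have := hW.1 k
        rw [Function.update_self] at this
        exact this
  · rintro ⟨Y, w⟩ hq
    rw [mem_sigma] at hq
    obtain ⟨hY, hw⟩ := hq
    simp only at hY hw
    rw [mem_Om] at hY
    rw [mem_B] at hw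
    have hYk : ∀ j, Y k j = 0 := by
      intro j
      have h1 := hY.1 k
      rw [Function.update_self] at h1
      exact (Finset.sum_eq_zero_iff.1 h1) j (mem_univ j)
    simp only
    rw [mem_Om]
    refine ⟨?_, ?_⟩
    · intro i
      by_cases hi : i = k
      · subst hi
        rw [Function.update_self, Function.update_self]
        exact hw.2
      · rw [Function.update_of_ne hi, Function.update_of_ne hi]
        have := hY.1 i
        rw [Function.update_of_ne hi] at this
        exact this
    · intro j
      rw [sum_upd Y k w j (hYk j)]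
      have h1 : w j ≤ c j - ∑ i, Y i j := hw.1 j
      have h2 := hY.2 j
      omega
  · intro W _
    simp
  · rintro ⟨Y, w⟩ hq
    rw [mem_sigma] at hq
    obtain ⟨hY, _⟩ := hq
    simp only at hY
    rw [mem_Om] at hY
    have hYk : Y k = 0 := by
      funext j
      have h1 := hY.1 k
      rw [Function.update_self] at h1
      exact (Finset.sum_eq_zero_iff.1 h1) j (mem_univ j)
    have h2 : Function.update Y k 0 = Y := by
      conv_rhs => rw [← Function.update_eq_self k Y, hYk]
    simp [h2]
  · intro W _
    simp

end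

theorem thm (hT : StmtTWOR.{v}) : StmtROW.{u, v} := by
  intro ι _ _ κ _ _ r c F k hrc
  have e1 : r + Pi.single k 1 = Function.update r k (r k + 1) := by
    funext i
    by_cases h : i = k
    · subst h
      simp
    · simp [h]
  have e2 : r + Pi.single k 2 = Function.update r k (r k + 2) := by
    funext i
    by_cases h : i = k
    · subst h
      simp
    · simp [h]
  rw [e1, e2, fiber r c k (r k + 1), fiber r c k (r k + 2), Finset.mul_sum]
  apply Finset.sum_le_sum
  intro Y hY
  rw [mem_Om] at hY
  simp only [VV_upd, QQ_upd]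
  apply hT
  have h1 : ∑ j, (c j - ∑ i, Y i j) + ∑ j, ∑ i, Y i j = ∑ j, c j := by
    rw [← Finset.sum_add_distrib]
    apply Finset.sum_congr rfl
    intro j _
    have := hY.2 j
    omega
  have h2 : ∑ j, ∑ i, Y i j = ∑ i, (Function.update r k 0) i := by
    rw [Finset.sum_comm]
    exact Finset.sum_congr rfl fun i _ => hY.1 i
  have h3 : ∑ i, (Function.update r k 0) i + r k = ∑ i, r i := by
    rw [← Finset.add_sum_erase univ (Function.update r k 0) (mem_univ k),
      ← Finset.add_sum_erase univ r (mem_univ k), Function.update_self]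
    have : ∑ i ∈ univ.erase k, (Function.update r k 0) i = ∑ i ∈ univ.erase k, r i := by
      apply Finset.sum_congr rfl
      intro i hi
      rw [Function.update_of_ne (ne_of_mem_erase hi)]
    rw [this]
    omega
  omega

end ROW

end Vale.P328U
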