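import Vale.Agent.P328.U.Defs

/-!
# P328, unary margins, module POI: the Poincare inequality from the Bochner inequality
-/

namespace Vale.P328U.POI

open Finset BigOperators

universe u v

set_option linter.unusedSectionVars false

variable {ι : Type u} [Fintype ι] [DecidableEq ι] {κ : Type v} [Fintype κ] [DecidableEq κ]

/-- extension by zero -/
noncomputable def ex (r : ι → ℕ) (c : κ → ℕ) (g : {X // X ∈ Om r c} → ℝ) :
    (ι → κ → ℕ) → ℝ :=
  fun X => if h : X ∈ Om r c then g ⟨X, h⟩ else 0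

lemma ex_mem (r : ι → ℕ) (c : κ → ℕ) (g : {X // X ∈ Om r c} → ℝ) (X : {X // X ∈ Om r c}) :
    ex r c g X.1 = g X := by
  unfold ex
  rw [dif_pos X.2]

lemma ex_add (r : ι → ℕ) (c : κ → ℕ) (g h : {X // X ∈ Om r c} → ℝ) (X : ι → κ → ℕ) :
    ex r c (g + h) X = ex r c g X + ex r c h X := by
  unfold ex
  split_ifs <;> simp

lemma ex_smul (r : ι → ℕ) (c : κ → ℕ) (a : ℝ) (g : {X // X ∈ Om r c} → ℝ) (X : ι → κ → ℕ) :
    ex r c (a • g) X = a * ex r c g X := by
  unfold ex
  split_ifs <;> simp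

lemma VV_add (F G H : (ι → κ → ℕ) → ℝ) (hH : ∀ X, H X = F X + G X) (k : ι) (j : κ)
    (W : ι → κ → ℕ) : VV H k j W = VV F k j W + VV G k j W := by
  unfold VV
  simp only [hH, Finset.mul_sum]
  rw [← Finset.sum_add_distrib]
  apply Finset.sum_congr rfl
  intro l _
  ring

lemma VV_smul (a : ℝ) (F H : (ι → κ → ℕ) → ℝ) (hH : ∀ X, H X = a * F X) (k : ι) (j : κ)
    (W : ι → κ → ℕ) : VV H k j W = a * VV F k j W := by
  unfold VV
  simp only [hH, Finset.mul_sum]
  apply Finset.sum_congr rfl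
  intro l _
  ring

lemma LL_add (c : κ → ℕ) (F G H : (ι → κ → ℕ) → ℝ) (hH : ∀ X, H X = F X + G X) (k : ι)
    (X : ι → κ → ℕ) : LL c H k X = LL c F k X + LL c G k X := by
  unfold LL
  rw [← neg_add, ← Finset.sum_add_distrib, neg_inj]
  apply Finset.sum_congr rfl
  intro j _
  split_ifs
  · exact VV_add F G H hH k j _
  · simp

lemma LL_smul (c : κ → ℕ) (a : ℝ) (F H : (ι → κ → ℕ) → ℝ) (hH : ∀ X, H X = a * F X) (k : ι)
    (X : ι → κ → ℕ) : LL c H k X = a * LL c F k X := by
  unfold LL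
  rw [mul_neg, Finset.mul_sum, neg_inj]
  apply Finset.sum_congr rfl
  intro j _
  split_ifs
  · exact VV_smul a F H hH k j _
  · simp

/-- the generator on functions on `Om` -/
noncomputable def T (r : ι → ℕ) (c : κ → ℕ) :
    ({X // X ∈ Om r c} → ℝ) →ₗ[ℝ] ({X // X ∈ Om r c} → ℝ) where
  toFun g := fun X => ∑ k, LL c (ex r c g) k X.1
  map_add' g h := by
    funext X
    simp only [Pi.add_apply]
    rw [← Finset.sum_add_distrib]
    refine Finset.sum_congr rfl fun k _ => ?_
    exact LL_add c _ _ _ (ex_add r c g h) k X.1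
  map_smul' a g := by
    funext X
    simp only [Pi.smul_apply, smul_eq_mul, RingHom.id_apply]
    rw [Finset.mul_sum]
    refine Finset.sum_congr rfl fun k _ => ?_
    exact LL_smul c a _ _ (ex_smul r c a g) k X.1

/-- mean zero functions -/
def W0 (r : ι → ℕ) (c : κ → ℕ) : Submodule ℝ ({X // X ∈ Om r c} → ℝ) where
  carrier := {g | ∑ X, g X = 0}
  add_mem' {g h} hg hh := by
    change ∑ X, (g X + h X) = 0
    have hg' : ∑ X, g X = 0 := hg
    have hh' : ∑ X, h X = 0 := hh
    rw [Finset.sum_add_distrib, hg', hh', add_zero]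
  zero_mem' := by
    change ∑ X : {X // X ∈ Om r c}, (0 : ℝ) = 0
    simp
  smul_mem' a g hg := by
    change ∑ X, (a * g X) = 0
    have hg' : ∑ X, g X = 0 := hg
    rw [← Finset.mul_sum, hg', mul_zero]

lemma sum_sub (r : ι → ℕ) (c : κ → ℕ) (F : (ι → κ → ℕ) → ℝ) :
    ∑ X : {X // X ∈ Om r c}, F X.1 = ∑ X ∈ Om r c, F X :=
  Finset.sum_coe_sort (Om r c) F

/-- `∑ ∑ G LL F = - ∑ DD` -/
lemma dir1 (hDIR : StmtDIR.{u, v}) (r : ι → ℕ) (c : κ → ℕ) (F G : (ι → κ → ℕ) → ℝ) :
    ∑ X ∈ Om r c, G X * ∑ k, LL c F k X = - ∑ k, DD r c F G k := by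
  have h : ∀ k, ∑ X ∈ Om r c, G X * LL c F k X = - DD r c F G k := by
    intro k
    have := (hDIR ι κ r c F G k).1
    rw [← this, ← Finset.sum_neg_distrib]
    refine Finset.sum_congr rfl fun X _ => ?_
    ring
  simp only [Finset.mul_sum]
  rw [Finset.sum_comm, Finset.sum_congr rfl fun k _ => h k, Finset.sum_neg_distrib]

lemma DD_one (r : ι → ℕ) (c : κ → ℕ) (F : (ι → κ → ℕ) → ℝ) (k : ι) :
    DD r c F (fun _ => 1) k = 0 := by
  unfold DD
  simp

lemma DD_nonneg (r : ι → ℕ) (c : κ → ℕ) (F : (ι → κ → ℕ) → ℝ) (k : ι) :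
    0 ≤ DD r c F F k := by
  unfold DD
  refine mul_nonneg (by norm_num) (Finset.sum_nonneg fun W _ => Finset.sum_nonneg fun j _ =>
    Finset.sum_nonneg fun l _ => ?_)
  exact mul_nonneg (by positivity) (mul_self_nonneg _)

/-- zero Dirichlet form: invariance under the moves -/
lemma inv_of_zero (r : ι → ℕ) (c : κ → ℕ) (F : (ι → κ → ℕ) → ℝ)
    (h : ∀ k, DD r c F F k = 0) :
    ∀ X ∈ Om r c, ∀ k j l, 1 ≤ X k l → ∑ i, X i j < c j →
      F (X + E k j - E k l) = F X := by
  intro X hX k j l hl hj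
  have h0 := h k
  unfold DD at h0
  have h1 : ∑ W ∈ Om (r + Pi.single k 1) c, ∑ j, ∑ l,
      (W k j : ℝ) * (W k l : ℝ) *
        ((F (W - E k j) - F (W - E k l)) * (F (W - E k j) - F (W - E k l))) = 0 := by
    linarith
  have hnn : ∀ W : ι → κ → ℕ, ∀ j l, 0 ≤ (W k j : ℝ) * (W k l : ℝ) *
        ((F (W - E k j) - F (W - E k l)) * (F (W - E k j) - F (W - E k l))) := by
    intro W j l
    exact mul_nonneg (by positivity) (mul_self_nonneg _)
  have hmem : X + E k j ∈ Om (r + Pi.single k 1) c := by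
    unfold Om at hX ⊢
    simp only [Finset.mem_filter, Fintype.mem_piFinset, Finset.mem_range] at hX ⊢
    obtain ⟨hX1, hX2, hX3⟩ := hX
    have hE : ∀ i a, E k j i a = if i = k ∧ a = j then 1 else 0 := by
      intro i a
      unfold E e
      by_cases hi : i = k
      · subst hi
        by_cases ha : a = j
        · subst ha; simp
        · simp [ha]
      · simp [hi]
    have hs : ∀ a, ∑ i, (X + E k j) i a = ∑ i, X i a + if a = j then 1 else 0 := by
      intro a
      simp only [Pi.add_apply, hE]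
      rw [Finset.sum_add_distrib]
      congr 1
      by_cases ha : a = j
      · simp [ha]
      · simp [ha]
    have hle : ∀ a, ∑ i, (X + E k j) i a ≤ c a := by
      intro a
      rw [hs]
      by_cases ha : a = j
      · subst ha
        simp only [if_true]
        omega
      · simp only [ha, if_false, add_zero]
        exact hX3 a
    refine ⟨?_, ?_, hle⟩
    · intro i a
      have h1 : (X + E k j) i a ≤ ∑ i, (X + E k j) i a :=
        Finset.single_le_sum (f := fun i => (X + E k j) i a) (fun _ _ => Nat.zero_le _)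
          (Finset.mem_univ i)
      exact Nat.lt_succ_of_le (h1.trans (hle a))
    · intro i
      simp only [Pi.add_apply, hE]
      rw [Finset.sum_add_distrib, hX2 i]
      congr 1
      by_cases hi : i = k
      · subst hi; simp
      · simp [hi]
  have h2 := (Finset.sum_eq_zero_iff_of_nonneg (fun W _ => Finset.sum_nonneg fun j _ =>
    Finset.sum_nonneg fun l _ => hnn W j l)).mp h1 _ hmem
  have h3 := (Finset.sum_eq_zero_iff_of_nonneg (fun j _ =>
    Finset.sum_nonneg fun l _ => hnn _ j l)).mp h2 j (Finset.mem_univ j)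
  have h4 := (Finset.sum_eq_zero_iff_of_nonneg (fun l _ => hnn _ j l)).mp h3 l
    (Finset.mem_univ l)
  have e1 : X + E k j - E k j = X := by
    funext i a
    simp
  rw [e1] at h4
  have p1 : (0 : ℝ) < (((X + E k j) k j : ℕ) : ℝ) := by
    have : 0 < (X + E k j) k j := by
      simp [E, e]
    exact_mod_cast this
  have p2 : (0 : ℝ) < (((X + E k j) k l : ℕ) : ℝ) := by
    have : 0 < (X + E k j) k l := by
      simp only [Pi.add_apply]
      omega
    exact_mod_cast this
  have h5 : (F X - F (X + E k j - E k l)) * (F X - F (X + E k j - E k l)) = 0 := by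
    rcases mul_eq_zero.mp h4 with h6 | h6
    · exact absurd h6 (mul_pos p1 p2).ne'
    · exact h6
  have h6 := mul_self_eq_zero.mp h5
  linarith

/-- mean zero functions are in the range of the generator -/
lemma solv (hDIR : StmtDIR.{u, v}) (hCON : StmtCON.{u, v}) (r : ι → ℕ) (c : κ → ℕ)
    (f : (ι → κ → ℕ) → ℝ) (hlt : ∑ i, r i + 1 ≤ ∑ j, c j) (hf : ∑ X ∈ Om r c, f X = 0) :
    ∃ G : (ι → κ → ℕ) → ℝ, ∀ X ∈ Om r c, ∑ k, LL c G k X = f X := by
  have hmap : ∀ g ∈ W0 r c, T r c g ∈ W0 r c := by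
    intro g _
    change ∑ X : {X // X ∈ Om r c}, ∑ k, LL c (ex r c g) k X.1 = 0
    rw [sum_sub r c (fun X => ∑ k, LL c (ex r c g) k X)]
    have := dir1 hDIR r c (ex r c g) (fun _ => 1)
    simp only [one_mul, DD_one, Finset.sum_const_zero, neg_zero] at this
    exact this
  let S : W0 r c →ₗ[ℝ] W0 r c := (T r c).restrict hmap
  have hinj : Function.Injective S := by
    rw [← LinearMap.ker_eq_bot, LinearMap.ker_eq_bot']
    intro g hg
    have hT : T r c g.1 = 0 := by
      have := congrArg Subtype.val hg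
      simpa [S, LinearMap.restrict_apply] using this
    have hL : ∀ X ∈ Om r c, ∑ k, LL c (ex r c g.1) k X = 0 := by
      intro X hX
      exact congrFun hT ⟨X, hX⟩
    have hD : ∑ k, DD r c (ex r c g.1) (ex r c g.1) k = 0 := by
      have := dir1 hDIR r c (ex r c g.1) (ex r c g.1)
      rw [Finset.sum_eq_zero (fun X hX => by rw [hL X hX, mul_zero])] at this
      linarith
    have hD' : ∀ k, DD r c (ex r c g.1) (ex r c g.1) k = 0 := by
      intro k
      exact (Finset.sum_eq_zero_iff_of_nonneg (fun k _ => DD_nonneg r c _ k)).mp hD k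
        (Finset.mem_univ k)
    have hconst := hCON ι κ r c (ex r c g.1) hlt (inv_of_zero r c _ hD')
    have hg0 : ∑ X, g.1 X = 0 := g.2
    apply Subtype.ext
    funext X
    have hsum : ∑ Y : {X // X ∈ Om r c}, g.1 Y = ∑ Y : {X // X ∈ Om r c}, g.1 X := by
      refine Finset.sum_congr rfl fun Y _ => ?_
      rw [← ex_mem r c g.1 Y, ← ex_mem r c g.1 X]
      exact hconst Y.1 Y.2 X.1 X.2
    rw [hg0, Finset.sum_const, nsmul_eq_mul] at hsum
    have hcard : (0 : ℝ) < ((Finset.univ : Finset {X // X ∈ Om r c}).card : ℝ) := by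
      have : 0 < (Finset.univ : Finset {X // X ∈ Om r c}).card :=
        Finset.card_pos.mpr ⟨X, Finset.mem_univ X⟩
      exact_mod_cast this
    have := (mul_eq_zero.mp hsum.symm).resolve_left hcard.ne'
    simpa using this
  have hsurj : Function.Surjective S := LinearMap.injective_iff_surjective.mp hinj
  have hfW : (fun X : {X // X ∈ Om r c} => f X.1) ∈ W0 r c := by
    change ∑ X : {X // X ∈ Om r c}, f X.1 = 0
    rw [sum_sub r c f, hf]
  obtain ⟨g, hg⟩ := hsurj ⟨_, hfW⟩
  refine ⟨ex r c g.1, fun X hX => ?_⟩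
  have h1 := congrArg Subtype.val hg
  exact congrFun h1 ⟨X, hX⟩

/-- Cauchy-Schwarz for the Dirichlet forms -/
lemma cs (r : ι → ℕ) (c : κ → ℕ) (F G : (ι → κ → ℕ) → ℝ) :
    (∑ k, DD r c F G k) ^ 2 ≤ (∑ k, DD r c F F k) * (∑ k, DD r c G G k) := by
  have hq : ∀ t : ℝ, 0 ≤ (∑ k, DD r c G G k) * (t * t) + (2 * ∑ k, DD r c F G k) * t +
      ∑ k, DD r c F F k := by
    intro t
    have h0 : 0 ≤ ∑ k, DD r c (fun X => F X + t * G X) (fun X => F X + t * G X) k :=
      Finset.sum_nonneg fun k _ => DD_nonneg r c _ k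
    refine h0.trans (le_of_eq ?_)
    rw [Finset.mul_sum, Finset.sum_mul, Finset.sum_mul, ← Finset.sum_add_distrib,
      ← Finset.sum_add_distrib]
    refine Finset.sum_congr rfl fun k _ => ?_
    unfold DD
    simp only [Finset.mul_sum, Finset.sum_mul, ← Finset.sum_add_distrib]
    refine Finset.sum_congr rfl fun W _ => Finset.sum_congr rfl fun j _ =>
      Finset.sum_congr rfl fun l _ => ?_
    ring
  have := discrim_le_zero hq
  unfold discrim at this
  nlinarith

theorem thm (hROW : StmtROW.{u, v}) (hBOC : StmtBOC.{u, v}) (hDIR : StmtDIR.{u, v})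
    (hCON : StmtCON.{u, v}) : StmtPOI.{u, v} := by
  intro ι _ _ κ _ _ r c R F hR hc hlt hF
  obtain ⟨G, hG⟩ := solv hDIR hCON r c F hlt hF
  set D : ℝ := ∑ k, DD r c F F k with hD
  set S : ℝ := ∑ X ∈ Om r c, F X ^ 2 with hS
  set C : ℝ := 6 * (Fintype.card κ : ℝ) ^ 4 * ((R : ℝ) + 2) ^ 4 with hC
  have hC0 : 0 ≤ C := by positivity
  have hS0 : 0 ≤ S := Finset.sum_nonneg fun _ _ => sq_nonneg _
  have hD0 : 0 ≤ D := Finset.sum_nonneg fun k _ => DD_nonneg r c F k
  have h1 : S = - ∑ k, DD r c G F k := by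
    rw [← dir1 hDIR r c G F, hS]
    refine Finset.sum_congr rfl fun X hX => ?_
    rw [hG X hX]
    ring
  have h2 : S ^ 2 ≤ (∑ k, DD r c G G k) * D := by
    have := cs r c G F
    rw [h1, neg_sq]
    exact this
  have h3 : ∑ k, DD r c G G k ≤ C * S := by
    have e1 : ∀ k, DD r c G G k ≤ C * ∑ Z ∈ Om (r + Pi.single k 2) c, QQ G k Z := by
      intro k
      have hs := ((hDIR ι κ r c G G k).2).trans (hROW ι κ r c G k (hc k))
      rcases Nat.eq_zero_or_pos (Fintype.card κ) with hk0 | hkpos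
      · have : (0 : ℝ) = (Fintype.card κ : ℝ) := by rw [hk0]; simp
        rw [← this] at hs
        rw [hC, ← this]
        simpa using hs
      · have hkp : (0 : ℝ) < (Fintype.card κ : ℝ) := by exact_mod_cast hkpos
        have hr : 0 < 6 * (Fintype.card κ : ℝ) ^ 4 * ((r k : ℝ) + 2) ^ 4 := by positivity
        have hB0 : 0 ≤ ∑ Z ∈ Om (r + Pi.single k 2) c, QQ G k Z := by
          have hL0 := DD_nonneg r c G k
          by_contra hneg
          push Not at hneg
          have := mul_neg_of_pos_of_neg hr hneg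
          linarith
        refine hs.trans (mul_le_mul_of_nonneg_right ?_ hB0)
        have hk : (r k : ℝ) ≤ R := by exact_mod_cast hR k
        have hk0 : (0 : ℝ) ≤ r k := Nat.cast_nonneg _
        rw [hC]
        gcongr
    calc ∑ k, DD r c G G k
        ≤ ∑ k, C * ∑ Z ∈ Om (r + Pi.single k 2) c, QQ G k Z :=
          Finset.sum_le_sum fun k _ => e1 k
      _ = C * ∑ k, ∑ Z ∈ Om (r + Pi.single k 2) c, QQ G k Z := by
          rw [Finset.mul_sum]
      _ ≤ C * ∑ X ∈ Om r c, (∑ k, LL c G k X) ^ 2 :=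
          mul_le_mul_of_nonneg_left (hBOC ι κ r c G) hC0
      _ = C * S := by
          rw [hS]
          congr 1
          refine Finset.sum_congr rfl fun X hX => ?_
          rw [hG X hX]
  rcases hS0.eq_or_lt with h0 | h0
  · rw [← h0]
    positivity
  · have h4 : S * S ≤ (C * D) * S := by
      calc S * S = S ^ 2 := by ring
        _ ≤ (∑ k, DD r c G G k) * D := h2
        _ ≤ (C * S) * D := mul_le_mul_of_nonneg_right h3 hD0
        _ = (C * D) * S := by ring
    exact le_of_mul_le_mul_right h4 h0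

end Vale.P328U.POI
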