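import Vale.Agent.P328.U.Defs

/-!
# P328, unary margins, module BOC (helper3)

Bochner inequality: `∑_k ∑_Z QQ F k Z ≤ ∑_X (∑_k LL c F k X)²`.
-/

namespace Vale.P328U
namespace BOC
open Finset BigOperators

universe u v
variable {ι : Type u} [Fintype ι] [DecidableEq ι] {κ : Type v} [Fintype κ] [DecidableEq κ]

theorem mem_Om {r : ι → ℕ} {c : κ → ℕ} {X : ι → κ → ℕ} :
    X ∈ Om r c ↔ (∀ i, ∑ j, X i j = r i) ∧ ∀ j, ∑ i, X i j ≤ c j := by
  unfold Om
  rw [mem_filter, Fintype.mem_piFinset]
  constructor
  · exact fun h => h.2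
  · intro h
    refine ⟨fun i => ?_, h⟩
    rw [Fintype.mem_piFinset]
    intro j
    rw [mem_range]
    have h1 : X i j ≤ ∑ i, X i j :=
      single_le_sum (f := fun i => X i j) (fun _ _ => Nat.zero_le _) (mem_univ i)
    have h2 := h.2 j
    omega

omit [Fintype ι] [Fintype κ] in
theorem E_apply (k : ι) (j : κ) (i : ι) (a : κ) :
    E k j i a = if i = k ∧ a = j then 1 else 0 := by
  unfold E e
  by_cases hi : i = k
  · subst hi
    by_cases ha : a = j
    · subst ha
      simp
    · simp [ha]
  · simp [hi]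

theorem E_row (k : ι) (j : κ) (i : ι) : ∑ a, E k j i a = if i = k then 1 else 0 := by
  simp only [E_apply]
  by_cases hi : i = k
  · simp [hi]
  · simp [hi]

theorem E_col (k : ι) (j : κ) (a : κ) : ∑ i, E k j i a = if a = j then 1 else 0 := by
  simp only [E_apply]
  by_cases ha : a = j
  · simp [ha]
  · simp [ha]

/-- the hub has enough units in the columns `j` and `j'` -/
def ok (c : κ → ℕ) (X : ι → κ → ℕ) (j j' : κ) : Prop :=
  ∀ a, ∑ i, X i a + (if a = j then 1 else 0) + (if a = j' then 1 else 0) ≤ c a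

instance (c : κ → ℕ) (X : ι → κ → ℕ) (j j' : κ) : Decidable (ok c X j j') := by
  unfold ok; infer_instance

theorem add_mem {r : ι → ℕ} {c : κ → ℕ} {X : ι → κ → ℕ} (hX : X ∈ Om r c) {j j' : κ}
    (h : ok c X j j') (k l : ι) :
    X + (E k j + E l j') ∈ Om (r + Pi.single k 1 + Pi.single l 1) c := by
  rw [mem_Om] at hX ⊢
  constructor
  · intro i
    simp only [Pi.add_apply, sum_add_distrib, E_row, hX.1 i, Pi.single_apply]
    ring
  · intro a
    simp only [Pi.add_apply, sum_add_distrib, E_col]
    have := h a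
    omega

theorem sub_mem {r : ι → ℕ} {c : κ → ℕ} {k l : ι} {Z : ι → κ → ℕ}
    (hZ : Z ∈ Om (r + Pi.single k 1 + Pi.single l 1) c) {j j' : κ} (h : E k j + E l j' ≤ Z) :
    Z - (E k j + E l j') ∈ Om r c ∧ ok c (Z - (E k j + E l j')) j j' := by
  obtain ⟨Y, hY⟩ : ∃ Y, Z = Y + (E k j + E l j') :=
    ⟨Z - (E k j + E l j'), (tsub_add_cancel_of_le h).symm⟩
  subst hY
  rw [add_tsub_cancel_right]
  rw [mem_Om] at hZ
  have h1 : ∀ i, ∑ a, Y i a = r i := by
    intro i
    have := hZ.1 i
    simp only [Pi.add_apply, sum_add_distrib, E_row, Pi.single_apply] at this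
    omega
  have h2 : ok c Y j j' := by
    intro a
    have := hZ.2 a
    simp only [Pi.add_apply, sum_add_distrib, E_col] at this
    omega
  refine ⟨mem_Om.2 ⟨h1, fun a => ?_⟩, h2⟩
  have := h2 a
  omega

/-- the product of two fluxes vanishes unless `E k j + E l j' ≤ Z` -/
theorem vanish (F : (ι → κ → ℕ) → ℝ) (k l : ι) (j j' : κ) (Z : ι → κ → ℕ)
    (h : ¬ E k j + E l j' ≤ Z) :
    VV F k j (Z - E l j') * VV F l j' (Z - E k j) = 0 := by
  by_contra hne
  apply h
  have h1 : (Z - E l j') k j ≠ 0 := by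
    intro h0
    apply hne
    unfold VV
    rw [h0]
    simp
  have h2 : (Z - E k j) l j' ≠ 0 := by
    intro h0
    apply hne
    unfold VV
    rw [h0]
    simp
  simp only [Pi.sub_apply, E_apply] at h1 h2
  intro i a
  simp only [Pi.add_apply, E_apply]
  by_cases hA : i = k ∧ a = j
  · obtain ⟨rfl, rfl⟩ := hA
    by_cases hB : i = l ∧ a = j'
    · obtain ⟨rfl, rfl⟩ := hB
      simp at h1 ⊢
      omega
    · rw [if_neg hB] at h1
      rw [if_neg hB]
      simp
      omega
  · rw [if_neg hA]
    by_cases hB : i = l ∧ a = j'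
    · obtain ⟨rfl, rfl⟩ := hB
      rw [if_neg hA] at h2
      simp
      omega
    · rw [if_neg hB]
      simp

theorem reindex (r : ι → ℕ) (c : κ → ℕ) (F : (ι → κ → ℕ) → ℝ) (k l : ι) (j j' : κ) :
    ∑ X ∈ Om r c, (if ok c X j j' then VV F k j (X + E k j) * VV F l j' (X + E l j') else 0) =
      ∑ Z ∈ Om (r + Pi.single k 1 + Pi.single l 1) c,
        VV F k j (Z - E l j') * VV F l j' (Z - E k j) := by
  classical
  rw [← sum_filter]
  rw [← sum_filter_of_ne (s := Om (r + Pi.single k 1 + Pi.single l 1) c)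
    (p := fun Z => E k j + E l j' ≤ Z)
    (fun Z _ hne => by
      by_contra hc
      exact hne (vanish F k l j j' Z hc))]
  refine sum_nbij' (fun X => X + (E k j + E l j')) (fun Z => Z - (E k j + E l j')) ?_ ?_ ?_ ?_ ?_
  · intro X hX
    rw [mem_filter] at hX ⊢
    exact ⟨add_mem hX.1 hX.2 k l, le_add_self⟩
  · intro Z hZ
    rw [mem_filter] at hZ ⊢
    exact sub_mem hZ.1 hZ.2
  · intro X hX
    exact add_tsub_cancel_right _ _
  · intro Z hZ
    rw [mem_filter] at hZ
    exact tsub_add_cancel_of_le hZ.2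
  · intro X hX
    have e1 : X + (E k j + E l j') - E l j' = X + E k j := by
      rw [← add_assoc, add_tsub_cancel_right]
    have e2 : X + (E k j + E l j') - E k j = X + E l j' := by
      rw [add_comm (E k j) (E l j'), ← add_assoc, add_tsub_cancel_right]
    rw [e1, e2]

/-- pointwise: the square dominates the joint part -/
theorem pointwise (c : κ → ℕ) (F : (ι → κ → ℕ) → ℝ) (X : ι → κ → ℕ)
    (hX : ∀ j, ∑ i, X i j ≤ c j) :
    ∑ k, ∑ l, ∑ j, ∑ j', (if ok c X j j' then
      VV F k j (X + E k j) * VV F l j' (X + E l j') else 0) ≤ (∑ k, LL c F k X) ^ 2 := by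
  set S : κ → ℝ := fun j => ∑ k, VV F k j (X + E k j) with hS
  set A : κ → ℝ := fun j => if ∑ i, X i j < c j then S j else 0 with hA
  have h1 : ∑ k, LL c F k X = - ∑ j, A j := by
    unfold LL
    rw [sum_neg_distrib, sum_comm]
    congr 1
    refine sum_congr rfl fun j _ => ?_
    rw [hA, hS]
    by_cases h : ∑ i, X i j < c j
    · simp [h]
    · simp [h]
  have h2 : ∑ k, ∑ l, ∑ j, ∑ j', (if ok c X j j' then
      VV F k j (X + E k j) * VV F l j' (X + E l j') else 0) =
      ∑ j, ∑ j', (if ok c X j j' then S j * S j' else 0) := by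
    calc _ = ∑ k, ∑ j, ∑ l, ∑ j', (if ok c X j j' then
        VV F k j (X + E k j) * VV F l j' (X + E l j') else 0) :=
          sum_congr rfl fun k _ => sum_comm
      _ = ∑ k, ∑ j, ∑ j', ∑ l, (if ok c X j j' then
        VV F k j (X + E k j) * VV F l j' (X + E l j') else 0) :=
          sum_congr rfl fun k _ => sum_congr rfl fun j _ => sum_comm
      _ = ∑ j, ∑ k, ∑ j', ∑ l, (if ok c X j j' then
        VV F k j (X + E k j) * VV F l j' (X + E l j') else 0) := sum_comm
      _ = ∑ j, ∑ j', ∑ k, ∑ l, (if ok c X j j' then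
        VV F k j (X + E k j) * VV F l j' (X + E l j') else 0) :=
          sum_congr rfl fun j _ => sum_comm
      _ = _ := by
          refine sum_congr rfl fun j _ => sum_congr rfl fun j' _ => ?_
          by_cases h : ok c X j j'
          · simp only [if_pos h, hS]
            rw [sum_mul_sum]
          · simp only [if_neg h, sum_const_zero]
  rw [h1, h2, neg_sq, sq, sum_mul_sum]
  refine sum_le_sum fun j _ => sum_le_sum fun j' _ => ?_
  by_cases hjj : j = j'
  · subst hjj
    by_cases h : ok c X j j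
    · rw [if_pos h]
      have := h j
      simp only [if_true] at this
      have h3 : ∑ i, X i j < c j := by omega
      simp only [hA, if_pos h3]
      exact le_refl _
    · rw [if_neg h]
      exact mul_self_nonneg _
  · by_cases h : ok c X j j'
    · rw [if_pos h]
      have h3 : ∑ i, X i j < c j := by
        have := h j
        simp only [if_true] at this
        omega
      have h4 : ∑ i, X i j' < c j' := by
        have := h j'
        simp only [if_true] at this
        omega
      simp only [hA, if_pos h3, if_pos h4]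
      exact le_refl _
    · rw [if_neg h]
      have : A j * A j' = 0 := by
        by_contra hne
        apply h
        have h3 : ∑ i, X i j < c j := by
          by_contra h3
          apply hne
          simp [hA, h3]
        have h4 : ∑ i, X i j' < c j' := by
          by_contra h4
          apply hne
          simp [hA, h4]
        intro a
        by_cases ha : a = j
        · subst ha
          rw [if_pos rfl, if_neg hjj]
          omega
        · rw [if_neg ha]
          by_cases hb : a = j'
          · subst hb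
            rw [if_pos rfl]
            omega
          · rw [if_neg hb]
            have := hX a
            omega
      rw [this]

theorem thm (hC : StmtCRS.{u, v}) : StmtBOC.{u, v} := by
  intro ι _ _ κ _ _ r c F
  have h1 : ∑ X ∈ Om r c, ∑ k, ∑ l, ∑ j, ∑ j', (if ok c X j j' then
      VV F k j (X + E k j) * VV F l j' (X + E l j') else 0) ≤
      ∑ X ∈ Om r c, (∑ k, LL c F k X) ^ 2 :=
    sum_le_sum fun X hX => pointwise c F X (mem_Om.1 hX).2
  refine le_trans ?_ h1
  have h2 : ∑ X ∈ Om r c, ∑ k, ∑ l, ∑ j, ∑ j', (if ok c X j j' then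
      VV F k j (X + E k j) * VV F l j' (X + E l j') else 0) =
      ∑ k, ∑ l, ∑ Z ∈ Om (r + Pi.single k 1 + Pi.single l 1) c, ∑ j, ∑ j',
        VV F k j (Z - E l j') * VV F l j' (Z - E k j) := by
    rw [sum_comm]
    refine sum_congr rfl fun k _ => ?_
    rw [sum_comm]
    refine sum_congr rfl fun l _ => ?_
    rw [sum_comm]
    conv_rhs => rw [sum_comm]
    refine sum_congr rfl fun j _ => ?_
    rw [sum_comm]
    conv_rhs => rw [sum_comm]
    refine sum_congr rfl fun j' _ => ?_
    exact reindex r c F k l j j'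
  rw [h2]
  refine sum_le_sum fun k _ => ?_
  have h3 : ∑ Z ∈ Om (r + Pi.single k 2) c, QQ F k Z =
      ∑ Z ∈ Om (r + Pi.single k 1 + Pi.single k 1) c, ∑ j, ∑ j',
        VV F k j (Z - E k j') * VV F k j' (Z - E k j) := by
    have : r + Pi.single k 2 = r + Pi.single k 1 + Pi.single k 1 := by
      rw [add_assoc, ← Pi.single_add]
    rw [this]
    rfl
  rw [h3]
  set T : ι → ℝ := fun l => ∑ Z ∈ Om (r + Pi.single k 1 + Pi.single l 1) c,
    ∑ j, ∑ j', VV F k j (Z - E l j') * VV F l j' (Z - E k j) with hT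
  have h4 : T k + ∑ l ∈ univ.erase k, T l = ∑ l, T l := add_sum_erase univ T (mem_univ k)
  have h5 : 0 ≤ ∑ l ∈ univ.erase k, T l := sum_nonneg fun l hl => sum_nonneg fun Z _ =>
    hC ι κ F k l Z (ne_of_mem_erase hl).symm
  have h6 : T k ≤ ∑ l, T l := by linarith
  exact h6

end BOC
end Vale.P328U
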