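import Vale.Agent.P328.U.Defs

/-!
# P328, module CON: the star switches connect all tables
-/

namespace Vale.P328U.CON
open Finset BigOperators

universe u v

variable {ι : Type u} [Fintype ι] [DecidableEq ι] {κ : Type v} [Fintype κ] [DecidableEq κ]

theorem E_apply (k i : ι) (j a : κ) :
    (E k j : ι → κ → ℕ) i a = if i = k ∧ a = j then 1 else 0 := by
  unfold E e
  by_cases h : i = k
  · subst h
    rw [Pi.single_eq_same]
    by_cases h2 : a = j
    · subst h2
      simp
    · rw [Pi.single_eq_of_ne h2]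
      simp [h2]
  · rw [Pi.single_eq_of_ne h]
    simp [h]

theorem mem_Om {r : ι → ℕ} {c : κ → ℕ} {X : ι → κ → ℕ} :
    X ∈ Om r c ↔ (∀ i, ∑ j, X i j = r i) ∧ ∀ j, ∑ i, X i j ≤ c j := by
  unfold Om
  rw [mem_filter]
  refine ⟨fun h => h.2, fun h => ⟨?_, h⟩⟩
  rw [Fintype.mem_piFinset]
  intro i
  rw [Fintype.mem_piFinset]
  intro j
  rw [mem_range]
  have h1 : X i j ≤ ∑ i, X i j := single_le_sum (f := fun i => X i j) (fun _ _ => Nat.zero_le _)
    (mem_univ i)
  have := h.2 j
  omega

theorem row_E (k i : ι) (j : κ) : ∑ a, (E k j : ι → κ → ℕ) i a = if i = k then 1 else 0 := by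
  simp_rw [E_apply]
  by_cases h : i = k
  · simp [h]
  · simp [h]

theorem col_E (k : ι) (j a : κ) : ∑ i, (E k j : ι → κ → ℕ) i a = if a = j then 1 else 0 := by
  simp_rw [E_apply]
  by_cases h : a = j
  · simp [h]
  · simp [h]

theorem mvp {X : ι → κ → ℕ} {k : ι} {j l : κ} (h : 1 ≤ X k l) (i : ι) (a : κ) :
    (X + E k j - E k l) i a + (E k l : ι → κ → ℕ) i a = X i a + (E k j : ι → κ → ℕ) i a := by
  simp only [Pi.add_apply, Pi.sub_apply, E_apply]
  by_cases ha : i = k ∧ a = l
  · have h2 : 1 ≤ X i a := by rw [ha.1, ha.2]; exact h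
    rw [if_pos ha]
    omega
  · rw [if_neg ha]
    omega

theorem row_mv {X : ι → κ → ℕ} {k : ι} {j l : κ} (h : 1 ≤ X k l) (i : ι) :
    ∑ a, (X + E k j - E k l) i a = ∑ a, X i a := by
  have h1 : ∑ a, ((X + E k j - E k l) i a + (E k l : ι → κ → ℕ) i a) =
      ∑ a, (X i a + (E k j : ι → κ → ℕ) i a) := sum_congr rfl fun a _ => mvp h i a
  rw [sum_add_distrib, sum_add_distrib, row_E, row_E] at h1
  omega

theorem col_mv {X : ι → κ → ℕ} {k : ι} {j l : κ} (h : 1 ≤ X k l) (a : κ) :
    ∑ i, (X + E k j - E k l) i a + (if a = l then 1 else 0) =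
      ∑ i, X i a + (if a = j then 1 else 0) := by
  have h1 : ∑ i, ((X + E k j - E k l) i a + (E k l : ι → κ → ℕ) i a) =
      ∑ i, (X i a + (E k j : ι → κ → ℕ) i a) := sum_congr rfl fun i _ => mvp h i a
  rwa [sum_add_distrib, sum_add_distrib, col_E, col_E] at h1

theorem mv_mem {r : ι → ℕ} {c : κ → ℕ} {X : ι → κ → ℕ} (hX : X ∈ Om r c) {k : ι} {j l : κ}
    (h : 1 ≤ X k l) (hj : ∑ i, X i j < c j) : X + E k j - E k l ∈ Om r c := by
  rw [mem_Om] at hX ⊢
  constructor
  · intro i
    rw [row_mv h]
    exact hX.1 i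
  · intro a
    have h2 := col_mv (j := j) h a
    have := hX.2 a
    by_cases ha : a = j
    · subst ha
      rw [if_pos rfl] at h2
      omega
    · rw [if_neg ha] at h2
      omega

/-- distance at one cell -/
def dc (X Y : ι → κ → ℕ) (p : ι × κ) : ℕ := (X p.1 p.2 - Y p.1 p.2) + (Y p.1 p.2 - X p.1 p.2)

/-- distance -/
def ds (X Y : ι → κ → ℕ) : ℕ := ∑ p : ι × κ, dc X Y p

theorem sum_one (f : ι × κ → ℕ) (q : ι × κ) :
    ∑ p, (f p + if p = q then 1 else 0) = (∑ p, f p) + 1 := by
  rw [sum_add_distrib]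
  congr 1
  simp

theorem mv_val {X : ι → κ → ℕ} {k : ι} {j l : κ} (hjl : j ≠ l) (h : 1 ≤ X k l) (i : ι) (a : κ) :
    (X + E k j - E k l) i a = if i = k ∧ a = l then X i a - 1 else
      if i = k ∧ a = j then X i a + 1 else X i a := by
  have h1 := mvp (j := j) h i a
  rw [E_apply, E_apply] at h1
  by_cases h2 : i = k ∧ a = l
  · have h3 : ¬ (i = k ∧ a = j) := fun h3 => hjl (h3.2.symm.trans h2.2)
    rw [if_pos h2, if_neg h3] at h1
    rw [if_pos h2]
    omega
  · rw [if_neg h2] at h1
    rw [if_neg h2]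
    by_cases h3 : i = k ∧ a = j
    · rw [if_pos h3] at h1
      rw [if_pos h3]
      omega
    · rw [if_neg h3] at h1
      rw [if_neg h3]
      omega

theorem ds_le {X Y : ι → κ → ℕ} {k : ι} {j l : κ} (hjl : j ≠ l) (h : Y k l < X k l) :
    ds (X + E k j - E k l) Y ≤ ds X Y := by
  have key : ∀ p : ι × κ, dc (X + E k j - E k l) Y p + (if p = (k, l) then 1 else 0) ≤
      dc X Y p + (if p = (k, j) then 1 else 0) := by
    rintro ⟨i, a⟩
    unfold dc
    simp only [Prod.mk.injEq]
    rw [mv_val hjl (by omega)]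
    by_cases h1 : i = k ∧ a = l
    · have h2 : ¬ (i = k ∧ a = j) := fun h2 => hjl (h2.2.symm.trans h1.2)
      rw [if_pos h1, if_pos h1, if_neg h2]
      obtain ⟨rfl, rfl⟩ := h1
      omega
    · rw [if_neg h1, if_neg h1]
      by_cases h2 : i = k ∧ a = j
      · rw [if_pos h2, if_pos h2]
        omega
      · rw [if_neg h2, if_neg h2]
  have h3 := sum_le_sum (s := (univ : Finset (ι × κ))) (fun p _ => key p)
  rw [sum_one, sum_one] at h3
  unfold ds
  omega

theorem ds_lt {X Y : ι → κ → ℕ} {k : ι} {j l : κ} (h : Y k l < X k l) (h' : X k j < Y k j) :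
    ds (X + E k j - E k l) Y < ds X Y := by
  have hjl : j ≠ l := by
    rintro rfl
    omega
  have key : ∀ p : ι × κ, dc (X + E k j - E k l) Y p + (if p = (k, l) then 1 else 0) ≤
      dc X Y p := by
    rintro ⟨i, a⟩
    unfold dc
    simp only [Prod.mk.injEq]
    rw [mv_val hjl (by omega)]
    by_cases h1 : i = k ∧ a = l
    · rw [if_pos h1, if_pos h1]
      obtain ⟨rfl, rfl⟩ := h1
      omega
    · rw [if_neg h1, if_neg h1]
      by_cases h2 : i = k ∧ a = j
      · rw [if_pos h2]
        obtain ⟨rfl, rfl⟩ := h2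
        omega
      · rw [if_neg h2]
        omega
  have h3 := sum_le_sum (s := (univ : Finset (ι × κ))) (fun p _ => key p)
  rw [sum_one] at h3
  unfold ds
  omega

/-- in a finite sum comparison, a deficit forces an excess -/
theorem exists_gt {α : Type*} [Fintype α] {f g : α → ℕ} (h : ∑ a, g a ≤ ∑ a, f a) {b : α}
    (hb : f b < g b) : ∃ a, g a < f a := by
  by_contra hcon
  push Not at hcon
  have := sum_lt_sum (s := univ) (fun a _ => hcon a) ⟨b, mem_univ b, hb⟩
  omega

theorem thm : StmtCON := by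
  intro ι _ _ κ _ _ r c F htot hF
  have main : ∀ d : ℕ, ∀ X ∈ Om r c, ∀ Y ∈ Om r c, ds X Y ≤ d → F X = F Y := by
    intro d
    induction d using Nat.strong_induction_on with
    | _ d ih =>
      intro X hX Y hY hd
      have hXm := mem_Om.mp hX
      have hYm := mem_Om.mp hY
      by_cases hA : ∃ k j, X k j < Y k j ∧ ∑ i, X i j < c j
      · obtain ⟨k, j, h1, h2⟩ := hA
        obtain ⟨l, hl⟩ := exists_gt (f := X k) (g := Y k) (by rw [hXm.1 k, hYm.1 k]) h1
        have h3 := ds_lt hl h1
        have h4 := mv_mem hX (by omega : 1 ≤ X k l) h2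
        rw [← hF X hX k j l (by omega) h2]
        exact ih (ds (X + E k j - E k l) Y) (by omega) _ h4 Y hY le_rfl
      by_cases hA' : ∃ k j, Y k j < X k j ∧ ∑ i, Y i j < c j
      · obtain ⟨k, j, h1, h2⟩ := hA'
        obtain ⟨l, hl⟩ := exists_gt (f := Y k) (g := X k) (by rw [hXm.1 k, hYm.1 k]) h1
        have h3 := ds_lt hl h1
        have h4 := mv_mem hY (by omega : 1 ≤ Y k l) h2
        rw [← hF Y hY k j l (by omega) h2]
        have h5 : ∀ A B : ι → κ → ℕ, ds A B = ds B A := by
          intro A B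
          unfold ds dc
          exact sum_congr rfl fun p _ => by omega
        rw [h5 _ X, h5 Y X] at h3
        exact ih (ds X (Y + E k j - E k l)) (by omega) X hX _ h4 le_rfl
      push Not at hA hA'
      by_cases hXY : X = Y
      · rw [hXY]
      -- a deficit
      have hex : ∃ k j, X k j < Y k j := by
        by_contra hcon
        push Not at hcon
        apply hXY
        funext k j
        by_contra hne
        have h1 : Y k j < X k j := lt_of_le_of_ne (hcon k j) (Ne.symm hne)
        obtain ⟨a, ha⟩ := exists_gt (f := Y k) (g := X k) (by rw [hXm.1 k, hYm.1 k]) h1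
        have := hcon k a
        omega
      obtain ⟨k, j, hkj⟩ := hex
      obtain ⟨l, hl⟩ := exists_gt (f := X k) (g := Y k) (by rw [hXm.1 k, hYm.1 k]) hkj
      -- a free hub column
      have hfree : ∃ a, ∑ i, X i a < c a := by
        by_contra hcon
        push Not at hcon
        have h1 : ∑ a, c a ≤ ∑ a, ∑ i, X i a := sum_le_sum fun a _ => hcon a
        rw [sum_comm] at h1
        have h2 : ∑ i, ∑ a, X i a = ∑ i, r i := sum_congr rfl fun i _ => hXm.1 i
        omega
      obtain ⟨a, ha⟩ := hfree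
      have haX : ∀ i, Y i a ≤ X i a := by
        intro i
        by_contra hcon
        push Not at hcon
        have := hA i a hcon
        omega
      have haY : ∀ i, X i a ≤ Y i a := by
        intro i
        by_contra hcon
        push Not at hcon
        have h1 := hA' i a hcon
        have h2 : ∑ i, Y i a ≤ ∑ i, X i a := sum_le_sum fun i _ => haX i
        omega
      have hal : a ≠ l := by
        rintro rfl
        have := haY k
        omega
      -- another row with a deficit in column `l`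
      have hcol : ∑ i, X i l ≤ ∑ i, Y i l := by
        have h1 := hA' k l hl
        have h2 := hXm.2 l
        omega
      obtain ⟨i, hi⟩ := exists_gt (f := fun i => Y i l) (g := fun i => X i l) hcol hl
      have hik : i ≠ k := by
        rintro rfl
        have hi' : X i l < Y i l := hi
        omega
      obtain ⟨b, hb⟩ := exists_gt (f := X i) (g := Y i) (by rw [hXm.1 i, hYm.1 i]) hi
      have hl1 : 1 ≤ X k l := by omega
      have hX1 := mv_mem hX hl1 ha
      have hF1 := hF X hX k a l hl1 ha
      have hd1 := ds_le (X := X) (Y := Y) (k := k) (j := a) (l := l) hal hl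
      set X1 := X + E k a - E k l with hX1def
      have hrow : ∀ x, X1 i x = X i x := by
        intro x
        rw [hX1def, mv_val hal hl1, if_neg (fun h => hik h.1), if_neg (fun h => hik h.1)]
      have hcol1 : ∑ i, X1 i l < c l := by
        have h2 : ∑ i, X1 i l + 1 = ∑ i, X i l + 0 := by
          have h4 := col_mv (j := a) hl1 l
          rw [if_pos rfl, if_neg (Ne.symm hal)] at h4
          exact h4
        have h3 := hXm.2 l
        omega
      have h5 : Y i b < X1 i b := by rw [hrow]; exact hb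
      have h6 : X1 i l < Y i l := by rw [hrow]; exact hi
      have h7 := ds_lt h5 h6
      have h8 := mv_mem hX1 (by omega : 1 ≤ X1 i b) hcol1
      have h9 := hF X1 hX1 i l b (by omega) hcol1
      rw [← hF1, ← h9]
      exact ih (ds (X1 + E i l - E i b) Y) (by omega) _ h8 Y hY le_rfl
  intro X hX Y hY
  exact main _ X hX Y hY le_rfl

end Vale.P328U.CON
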