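import Vale.Agent.P328.U.Defs

/-! # P328U, module CRS: positivity of the cross terms -/

namespace Vale.P328U.CRS

open Finset

universe u v

/-- the algebraic inequality -/
theorem alg {κ : Type v} [Fintype κ] (α β : κ → ℝ) (Φ : κ → κ → ℝ) (hα : ∀ j, 0 ≤ α j)
    (hβ : ∀ j, 0 ≤ β j) :
    0 ≤ ∑ j, ∑ j', (α j * ∑ a, α a * (Φ j j' - Φ a j')) * (β j' * ∑ b, β b * (Φ j j' - Φ j b)) := by
  set P := ∑ a, α a with hP
  set P' := ∑ b, β b with hP'
  set R : κ → ℝ := fun j' => ∑ a, α a * Φ a j' with hR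
  set C : κ → ℝ := fun j => ∑ b, β b * Φ j b with hC
  set T : ℝ := ∑ a, α a * C a with hT
  have hT' : T = ∑ b, β b * R b := by
    simp only [hT, hC, hR, mul_sum]
    rw [sum_comm]
    exact sum_congr rfl (fun b _ => sum_congr rfl (fun a _ => by ring))
  have e1 : ∀ j j', ∑ a, α a * (Φ j j' - Φ a j') = P * Φ j j' - R j' := by
    intro j j'
    simp only [hR, hP, mul_sub, sum_sub_distrib, sum_mul]
  have e2 : ∀ j j', ∑ b, β b * (Φ j j' - Φ j b) = P' * Φ j j' - C j := by
    intro j j'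
    simp only [hC, hP', mul_sub, sum_sub_distrib, sum_mul]
  simp only [e1, e2]
  set S := ∑ j, ∑ j', α j * β j' * Φ j j' ^ 2 with hS
  have b1 : ∑ j, ∑ j', α j * β j' * (Φ j j' * C j) = ∑ j, α j * C j ^ 2 := by
    refine sum_congr rfl (fun j _ => ?_)
    have : ∀ j', α j * β j' * (Φ j j' * C j) = (α j * C j) * (β j' * Φ j j') := fun _ => by ring
    simp only [this]
    rw [← mul_sum]
    show α j * C j * C j = _
    ring
  have b2 : ∑ j, ∑ j', α j * β j' * (Φ j j' * R j') = ∑ j', β j' * R j' ^ 2 := by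
    rw [sum_comm]
    refine sum_congr rfl (fun j' _ => ?_)
    have : ∀ j, α j * β j' * (Φ j j' * R j') = (β j' * R j') * (α j * Φ j j') := fun _ => by ring
    simp only [this]
    rw [← mul_sum]
    show β j' * R j' * R j' = _
    ring
  have b3 : ∑ j, ∑ j', α j * β j' * (R j' * C j) = T ^ 2 := by
    have : ∀ j j', α j * β j' * (R j' * C j) = (α j * C j) * (β j' * R j') := fun _ _ => by ring
    simp only [this]
    rw [← sum_mul_sum, ← hT', ← hT]
    ring
  have b4 : ∑ j, ∑ j', α j * β j' * Φ j j' = T := by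
    simp only [hT, hC, mul_sum]
    exact sum_congr rfl (fun j _ => sum_congr rfl (fun j' _ => by ring))
  have b5 : ∑ j, ∑ j', α j * β j' * C j ^ 2 = P' * ∑ j, α j * C j ^ 2 := by
    rw [mul_sum]
    refine sum_congr rfl (fun j _ => ?_)
    have : ∀ j', α j * β j' * C j ^ 2 = β j' * (α j * C j ^ 2) := fun _ => by ring
    simp only [this]
    rw [← sum_mul]
  have b6 : ∑ j, ∑ j', α j * β j' * R j' ^ 2 = P * ∑ j', β j' * R j' ^ 2 := by
    rw [sum_comm, mul_sum]
    refine sum_congr rfl (fun j' _ => ?_)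
    have : ∀ j, α j * β j' * R j' ^ 2 = α j * (β j' * R j' ^ 2) := fun _ => by ring
    simp only [this]
    rw [← sum_mul]
  have b7 : ∑ j, α j * ∑ j', β j' = P * P' := by
    rw [← sum_mul]
  have b8 : ∑ j, ∑ j', α j * β j' * R j' = P * T := by
    have : ∀ j j', α j * β j' * R j' = α j * (β j' * R j') := fun _ _ => by ring
    simp only [this]
    rw [← sum_mul_sum, ← hT']
  have b9 : ∑ j, ∑ j', α j * β j' * C j = P' * T := by
    have : ∀ j j', α j * β j' * C j = (α j * C j) * β j' := fun _ _ => by ring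
    simp only [this]
    rw [← sum_mul_sum, ← hT]
    ring
  set SC := ∑ j, α j * C j ^ 2 with hSC
  set SR := ∑ j', β j' * R j' ^ 2 with hSR
  have m1 : ∑ j, ∑ j', (α j * (P * Φ j j' - R j')) * (β j' * (P' * Φ j j' - C j)) =
      P * P' * S - P * SC - P' * SR + T ^ 2 := by
    have h : ∀ j j', (α j * (P * Φ j j' - R j')) * (β j' * (P' * Φ j j' - C j)) =
        P * P' * (α j * β j' * Φ j j' ^ 2) - P * (α j * β j' * (Φ j j' * C j)) -
          P' * (α j * β j' * (Φ j j' * R j')) + α j * β j' * (R j' * C j) := fun _ _ => by ring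
    simp only [h, sum_add_distrib, sum_sub_distrib, ← mul_sum]
    rw [b1, b2, b3]
  have m2 : ∑ j, ∑ j', α j * β j' * (P * P' * Φ j j' - P' * R j' - P * C j + T) ^ 2 =
      P * P' * (P * P' * S - P * SC - P' * SR + T ^ 2) := by
    have h : ∀ j j', α j * β j' * (P * P' * Φ j j' - P' * R j' - P * C j + T) ^ 2 =
        (P * P') ^ 2 * (α j * β j' * Φ j j' ^ 2) + P' ^ 2 * (α j * β j' * R j' ^ 2) +
        P ^ 2 * (α j * β j' * C j ^ 2) + T ^ 2 * (α j * β j') -
        2 * (P * P') * P' * (α j * β j' * (Φ j j' * R j')) -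
        2 * (P * P') * P * (α j * β j' * (Φ j j' * C j)) +
        2 * (P * P') * T * (α j * β j' * Φ j j') + 2 * (P * P') * (α j * β j' * (R j' * C j)) -
        2 * P' * T * (α j * β j' * R j') - 2 * P * T * (α j * β j' * C j) := fun _ _ => by ring
    simp only [h, sum_add_distrib, sum_sub_distrib, ← mul_sum]
    rw [b1, b2, b3, b4, b5, b6, b7, b8, b9]
    ring
  have hP0 : 0 ≤ P := sum_nonneg (fun a _ => hα a)
  have hP'0 : 0 ≤ P' := sum_nonneg (fun a _ => hβ a)
  have hsq : 0 ≤ ∑ j, ∑ j', α j * β j' * (P * P' * Φ j j' - P' * R j' - P * C j + T) ^ 2 :=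
    sum_nonneg (fun j _ => sum_nonneg (fun j' _ =>
      mul_nonneg (mul_nonneg (hα j) (hβ j')) (sq_nonneg _)))
  rcases eq_or_lt_of_le hP0 with h0 | hPpos
  · have hz : ∀ j, α j = 0 := fun j =>
      (sum_eq_zero_iff_of_nonneg (fun a _ => hα a)).1 h0.symm j (mem_univ j)
    refine sum_nonneg (fun j _ => sum_nonneg (fun j' _ => ?_))
    rw [hz j]
    simp
  rcases eq_or_lt_of_le hP'0 with h0 | hP'pos
  · have hz : ∀ j, β j = 0 := fun j =>
      (sum_eq_zero_iff_of_nonneg (fun a _ => hβ a)).1 h0.symm j (mem_univ j)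
    refine sum_nonneg (fun j _ => sum_nonneg (fun j' _ => ?_))
    rw [hz j']
    simp
  rw [m2] at hsq
  rw [m1]
  exact nonneg_of_mul_nonneg_right hsq (mul_pos hPpos hP'pos)

theorem sub_E_apply {ι : Type u} [DecidableEq ι] {κ : Type v} [DecidableEq κ]
    (Z : ι → κ → ℕ) {k l : ι} (h : k ≠ l) (j' : κ) : (Z - E l j') k = Z k := by
  funext a
  simp [E, Pi.single_eq_of_ne h]

theorem thm : StmtCRS.{u, v} := by
  intro ι _ _ κ _ _ F k l Z hkl
  have key := alg (fun j => (Z k j : ℝ)) (fun j => (Z l j : ℝ))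
    (fun j j' => F (Z - E k j - E l j')) (fun _ => Nat.cast_nonneg _) (fun _ => Nat.cast_nonneg _)
  refine le_of_le_of_eq key ?_
  refine sum_congr rfl (fun j _ => sum_congr rfl (fun j' _ => ?_))
  unfold VV
  rw [sub_E_apply Z hkl j', sub_E_apply Z hkl.symm j]
  congr 2
  refine sum_congr rfl (fun a _ => ?_)
  rw [tsub_right_comm (a := Z) (b := E l j') (c := E k j),
    tsub_right_comm (a := Z) (b := E l j') (c := E k a)]

end Vale.P328U.CRS
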