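import Vale.Agent.P328.U.Defs

/-!
# P328, unary margins, module DIR (helper3)

Dirichlet form identity and comparison with the flux.
-/

namespace Vale.P328U
namespace DIR
open Finset BigOperators

universe u v
variable {ι : Type u} [Fintype ι] [DecidableEq ι] {κ : Type v} [Fintype κ] [DecidableEq κ]

theorem mem_Om {r : ι → ℕ} {c : κ → ℕ} {X : ι → κ → ℕ} :
    X ∈ Om r c ↔ (∀ i, ∑ j, X i j = r i) ∧ ∀ j, ∑ i, X i j ≤ c j := by
  unfold Om
  rw [mem_filter, Fintype.mem_piFinset]
  constructor
  · exact fun h => h.2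
  · intro h
    refine ⟨fun i => ?_, h⟩
    rw [Fintype.mem_piFinset]
    intro j
    rw [mem_range]
    have h1 : X i j ≤ ∑ i, X i j :=
      single_le_sum (f := fun i => X i j) (fun _ _ => Nat.zero_le _) (mem_univ i)
    have h2 := h.2 j
    omega

omit [Fintype ι] [Fintype κ] in
theorem E_apply (k : ι) (j : κ) (i : ι) (a : κ) :
    E k j i a = if i = k ∧ a = j then 1 else 0 := by
  unfold E e
  by_cases hi : i = k
  · subst hi
    by_cases ha : a = j
    · subst ha
      simp
    · simp [ha]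
  · simp [hi]

omit [Fintype ι] in
theorem E_row (k : ι) (j : κ) (i : ι) : ∑ a, E k j i a = if i = k then 1 else 0 := by
  simp only [E_apply]
  by_cases hi : i = k
  · simp [hi]
  · simp [hi]

omit [Fintype κ] in
theorem E_col (k : ι) (j : κ) (a : κ) : ∑ i, E k j i a = if a = j then 1 else 0 := by
  simp only [E_apply]
  by_cases ha : a = j
  · simp [ha]
  · simp [ha]

theorem reindex (r : ι → ℕ) (c : κ → ℕ) (F G : (ι → κ → ℕ) → ℝ) (k : ι) (j : κ) :
    ∑ X ∈ Om r c, (if ∑ i, X i j < c j then G X * VV F k j (X + E k j) else 0) =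
      ∑ W ∈ Om (r + Pi.single k 1) c, G (W - E k j) * VV F k j W := by
  classical
  rw [← sum_filter]
  rw [← sum_filter_of_ne (s := Om (r + Pi.single k 1) c)
    (p := fun W => E k j ≤ W)
    (fun W _ hne => by
      by_contra hc
      apply hne
      have h0 : W k j = 0 := by
        by_contra h1
        apply hc
        intro i a
        rw [E_apply]
        by_cases hia : i = k ∧ a = j
        · rw [if_pos hia, hia.1, hia.2]
          exact Nat.one_le_iff_ne_zero.2 h1
        · rw [if_neg hia]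
          exact Nat.zero_le _
      unfold VV
      rw [h0]
      simp)]
  refine sum_nbij' (fun X => X + E k j) (fun W => W - E k j) ?_ ?_ ?_ ?_ ?_
  · intro X hX
    rw [mem_filter] at hX ⊢
    refine ⟨?_, le_add_self⟩
    have h1 := mem_Om.1 hX.1
    rw [mem_Om]
    constructor
    · intro i
      simp only [Pi.add_apply, sum_add_distrib, E_row, h1.1 i, Pi.single_apply]
    · intro a
      simp only [Pi.add_apply, sum_add_distrib, E_col]
      by_cases ha : a = j
      · subst ha
        rw [if_pos rfl]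
        have := hX.2
        omega
      · rw [if_neg ha]
        have := h1.2 a
        omega
  · intro W hW
    rw [mem_filter] at hW ⊢
    obtain ⟨Y, hY⟩ : ∃ Y, W = Y + E k j :=
      ⟨W - E k j, (tsub_add_cancel_of_le hW.2).symm⟩
    subst hY
    rw [add_tsub_cancel_right]
    have h1 := mem_Om.1 hW.1
    have h2 : ∀ a, ∑ i, Y i a + (if a = j then 1 else 0) ≤ c a := by
      intro a
      have := h1.2 a
      simp only [Pi.add_apply, sum_add_distrib, E_col] at this
      exact this
    refine ⟨mem_Om.2 ⟨fun i => ?_, fun a => ?_⟩, ?_⟩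
    · have := h1.1 i
      simp only [Pi.add_apply, sum_add_distrib, E_row, Pi.single_apply] at this
      omega
    · have := h2 a
      omega
    · have := h2 j
      rw [if_pos rfl] at this
      omega
  · intro X hX
    exact add_tsub_cancel_right _ _
  · intro W hW
    rw [mem_filter] at hW
    exact tsub_add_cancel_of_le hW.2
  · intro X hX
    rw [add_tsub_cancel_right]

omit [DecidableEq κ] in
/-- symmetrisation -/
theorem symm_sum (w : κ → ℝ) (f g : κ → ℝ) :
    ∑ j, g j * (w j * ∑ l, w l * (f j - f l)) =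
      (1 / 2) * ∑ j, ∑ l, w j * w l * ((f j - f l) * (g j - g l)) := by
  have h1 : ∑ j, g j * (w j * ∑ l, w l * (f j - f l)) =
      ∑ j, ∑ l, g j * w j * w l * (f j - f l) := by
    refine sum_congr rfl fun j _ => ?_
    rw [← mul_assoc, mul_sum]
    refine sum_congr rfl fun l _ => ?_
    ring
  have h2 : ∑ j, ∑ l, g j * w j * w l * (f j - f l) =
      ∑ j, ∑ l, g l * w l * w j * (f l - f j) := sum_comm
  have h3 : ∑ j, ∑ l, w j * w l * ((f j - f l) * (g j - g l)) =
      ∑ j, ∑ l, g j * w j * w l * (f j - f l) + ∑ j, ∑ l, g l * w l * w j * (f l - f j) := by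
    rw [← sum_add_distrib]
    refine sum_congr rfl fun j _ => ?_
    rw [← sum_add_distrib]
    refine sum_congr rfl fun l _ => ?_
    ring
  rw [h1, h3, ← h2]
  ring

omit [DecidableEq κ] in
/-- local comparison -/
theorem local_le (w : κ → ℕ) (f : κ → ℝ) (hP : 1 ≤ ∑ j, w j) :
    (1 / 2) * ∑ j, ∑ l, (w j : ℝ) * (w l : ℝ) * ((f j - f l) * (f j - f l)) ≤
      ∑ j, ((w j : ℝ) * ∑ l, (w l : ℝ) * (f j - f l)) ^ 2 := by
  set P : ℝ := ∑ j, (w j : ℝ) with hPd
  set S : ℝ := ∑ j, (w j : ℝ) * f j with hSd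
  set T : ℝ := ∑ j, (w j : ℝ) * f j ^ 2 with hTd
  have hP1 : 1 ≤ P := by
    rw [hPd]
    exact_mod_cast hP
  have h1 : ∀ j, ∑ l, (w l : ℝ) * (f j - f l) = P * f j - S := by
    intro j
    rw [hPd, hSd, sum_mul, ← sum_sub_distrib]
    refine sum_congr rfl fun l _ => ?_
    ring
  have hD : (1 / 2) * ∑ j, ∑ l, (w j : ℝ) * (w l : ℝ) * ((f j - f l) * (f j - f l)) =
      P * T - S ^ 2 := by
    rw [← symm_sum (fun j => (w j : ℝ)) f f]
    simp only [h1]
    have : ∀ j, f j * ((w j : ℝ) * (P * f j - S)) =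
        P * ((w j : ℝ) * f j ^ 2) - S * ((w j : ℝ) * f j) := by
      intro j
      ring
    simp only [this]
    rw [sum_sub_distrib, ← mul_sum, ← mul_sum, ← hTd, ← hSd]
    ring
  have h2 : ∑ j, (w j : ℝ) * (P * f j - S) ^ 2 = P * (P * T - S ^ 2) := by
    have : ∀ j, (w j : ℝ) * (P * f j - S) ^ 2 =
        P ^ 2 * ((w j : ℝ) * f j ^ 2) - 2 * P * S * ((w j : ℝ) * f j) + S ^ 2 * (w j : ℝ) := by
      intro j
      ring
    simp only [this]
    rw [sum_add_distrib, sum_sub_distrib, ← mul_sum, ← mul_sum, ← mul_sum, ← hTd, ← hSd, ← hPd]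
    ring
  have h3 : 0 ≤ P * T - S ^ 2 := by
    rw [← hD]
    refine mul_nonneg (by norm_num) (sum_nonneg fun j _ => sum_nonneg fun l _ => ?_)
    exact mul_nonneg (mul_nonneg (Nat.cast_nonneg _) (Nat.cast_nonneg _)) (mul_self_nonneg _)
  have h4 : ∑ j, (w j : ℝ) * (P * f j - S) ^ 2 ≤
      ∑ j, ((w j : ℝ) * ∑ l, (w l : ℝ) * (f j - f l)) ^ 2 := by
    refine sum_le_sum fun j _ => ?_
    rw [h1, mul_pow]
    refine mul_le_mul_of_nonneg_right ?_ (sq_nonneg _)
    have h5 : w j ≤ w j ^ 2 := by
      rcases Nat.eq_zero_or_pos (w j) with h0 | h0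
      · rw [h0]; norm_num
      · exact Nat.le_self_pow (by norm_num) _
    exact_mod_cast h5
  rw [hD]
  calc P * T - S ^ 2 ≤ P * (P * T - S ^ 2) := by nlinarith
    _ = ∑ j, (w j : ℝ) * (P * f j - S) ^ 2 := h2.symm
    _ ≤ _ := h4

theorem thm : StmtDIR.{u, v} := by
  intro ι _ _ κ _ _ r c F G k
  constructor
  · have h1 : ∑ X ∈ Om r c, G X * (- LL c F k X) =
        ∑ j, ∑ X ∈ Om r c, (if ∑ i, X i j < c j then G X * VV F k j (X + E k j) else 0) := by
      rw [sum_comm]
      refine sum_congr rfl fun X _ => ?_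
      unfold LL
      rw [neg_neg, mul_sum]
      refine sum_congr rfl fun j _ => ?_
      rw [mul_ite, mul_zero]
    rw [h1]
    simp only [reindex]
    rw [sum_comm]
    unfold DD
    rw [mul_sum]
    refine sum_congr rfl fun W _ => ?_
    exact symm_sum (fun j => (W k j : ℝ)) (fun j => F (W - E k j)) (fun j => G (W - E k j))
  · unfold DD
    rw [mul_sum]
    refine sum_le_sum fun W hW => ?_
    have h1 := (mem_Om.1 hW).1 k
    refine local_le (fun j => W k j) (fun j => F (W - E k j)) ?_
    rw [h1]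
    simp

end DIR
end Vale.P328U
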