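import Vale.Agent.P328.U.Defs2

/-! # P328U, module ACC (helper28): the extra unit costs at most a factor `m n` -/

namespace Vale.P328U.ACC
open Finset BigOperators Vale.P328U

theorem mem_Tables {m n : ℕ} (r : Fin m → ℕ) (c : Fin n → ℕ) (X : Fin m → Fin n → ℕ) :
    X ∈ Tables r c ↔ (∀ i, ∑ j, X i j = r i) ∧ ∀ j, ∑ i, X i j = c j := by
  unfold Tables
  rw [Finset.mem_filter, Fintype.mem_piFinset]
  constructor
  · rintro ⟨_, h⟩
    exact h
  · intro h
    refine ⟨fun i => ?_, h⟩
    rw [Fintype.mem_piFinset]
    intro j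
    rw [Finset.mem_range, Nat.lt_succ_iff, ← h.1 i]
    exact Finset.single_le_sum (f := fun j => X i j) (fun _ _ => Nat.zero_le _) (Finset.mem_univ j)

theorem E_apply {m n : ℕ} (i : Fin m) (j : Fin n) (a : Fin m) (b : Fin n) :
    E i j a b = if a = i ∧ b = j then 1 else 0 := by
  unfold E e
  by_cases ha : a = i
  · subst ha
    rw [Pi.single_eq_same]
    by_cases hb : b = j
    · subst hb
      simp
    · simp [hb]
  · rw [Pi.single_eq_of_ne ha]
    simp [ha]

theorem sum_row {m n : ℕ} (i : Fin m) (j : Fin n) (a : Fin m) :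
    ∑ b, E i j a b = (Pi.single i 1 : Fin m → ℕ) a := by
  simp only [E_apply]
  by_cases ha : a = i
  · subst ha
    simp
  · simp [ha]

theorem sum_col {m n : ℕ} (i : Fin m) (j : Fin n) (b : Fin n) :
    ∑ a, E i j a b = (Pi.single j 1 : Fin n → ℕ) b := by
  simp only [E_apply]
  by_cases hb : b = j
  · subst hb
    simp
  · simp [hb]

theorem E_le {m n : ℕ} (i : Fin m) (j : Fin n) (Y : Fin m → Fin n → ℕ) (h : 1 ≤ Y i j) :
    E i j ≤ Y := by
  intro a b
  rw [E_apply]
  split_ifs with hab
  · rw [hab.1, hab.2]
    exact h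
  · exact Nat.zero_le _

theorem mem_of_rel {m n : ℕ} (r : Fin m → ℕ) (c : Fin n → ℕ) (h i : Fin m) (J j : Fin n)
    (X Y : Fin m → Fin n → ℕ) (hY : Y ∈ Tables (r + Pi.single h 1) (c + Pi.single J 1))
    (hR : Y + E i j = X + E i J + E h j) : X ∈ Tables r c := by
  rw [mem_Tables] at hY ⊢
  constructor
  · intro a
    have h1 : ∑ b, (Y + E i j) a b = ∑ b, (X + E i J + E h j) a b := by rw [hR]
    simp only [Pi.add_apply, Finset.sum_add_distrib, sum_row] at h1
    have h2 := hY.1 a
    simp only [Pi.add_apply] at h2
    omega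
  · intro b
    have h1 : ∑ a, (Y + E i j) a b = ∑ a, (X + E i J + E h j) a b := by rw [hR]
    simp only [Pi.add_apply, Finset.sum_add_distrib, sum_col] at h1
    have h2 := hY.2 b
    simp only [Pi.add_apply] at h2
    omega

theorem exists_rel {m n : ℕ} (r : Fin m → ℕ) (c : Fin n → ℕ) (h : Fin m) (J : Fin n)
    (Y : Fin m → Fin n → ℕ) (hY : Y ∈ Tables (r + Pi.single h 1) (c + Pi.single J 1)) :
    ∃ q : (Fin m × Fin n) × (Fin m → Fin n → ℕ), q.2 ∈ Tables r c ∧
      Y + E q.1.1 q.1.2 = q.2 + E q.1.1 J + E h q.1.2 := by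
  by_cases h1 : 1 ≤ Y h J
  · have hle := E_le h J Y h1
    have hR : Y + E h J = (Y - E h J) + E h J + E h J := by
      rw [tsub_add_cancel_of_le hle]
    exact ⟨((h, J), Y - E h J), mem_of_rel r c h h J J _ Y hY hR, hR⟩
  · have h0 : Y h J = 0 := by omega
    have hY' := (mem_Tables _ _ _).1 hY
    -- a unit in column `J`
    have hi : ∃ i, 1 ≤ Y i J := by
      by_contra hcon
      push Not at hcon
      have h2 := hY'.2 J
      have h3 : ∑ i, Y i J = 0 := Finset.sum_eq_zero fun i _ => by
        have := hcon i
        omega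
      rw [h3] at h2
      simp at h2
    have hj : ∃ j, 1 ≤ Y h j := by
      by_contra hcon
      push Not at hcon
      have h2 := hY'.1 h
      have h3 : ∑ j, Y h j = 0 := Finset.sum_eq_zero fun j _ => by
        have := hcon j
        omega
      rw [h3] at h2
      simp at h2
    obtain ⟨i, hi⟩ := hi
    obtain ⟨j, hj⟩ := hj
    have hih : i ≠ h := by
      rintro rfl
      omega
    have hle : E i J + E h j ≤ Y + E i j := by
      intro a b
      simp only [Pi.add_apply]
      rw [E_apply i J, E_apply h j]
      by_cases ha : a = i ∧ b = J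
      · have hb : ¬ (a = h ∧ b = j) := fun hh => hih (ha.1.symm.trans hh.1)
        rw [if_pos ha, if_neg hb, ha.1, ha.2]
        omega
      · by_cases hb : a = h ∧ b = j
        · rw [if_neg ha, if_pos hb, hb.1, hb.2]
          omega
        · rw [if_neg ha, if_neg hb]
          omega
    have hR : Y + E i j = (Y + E i j - (E i J + E h j)) + E i J + E h j := by
      rw [add_assoc, tsub_add_cancel_of_le hle]
    exact ⟨((i, j), Y + E i j - (E i J + E h j)), mem_of_rel r c h i J j _ Y hY hR, hR⟩

theorem thm : StmtACC := by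
  intro m n r c h J
  constructor
  · ext Y
    rw [Finset.mem_filter, Finset.mem_map]
    constructor
    · rintro ⟨hY, h1⟩
      have hle := E_le h J Y h1
      have hR : Y + E h J = (Y - E h J) + E h J + E h J := by
        rw [tsub_add_cancel_of_le hle]
      refine ⟨Y - E h J, mem_of_rel r c h h J J _ Y hY hR, ?_⟩
      exact tsub_add_cancel_of_le hle
    · rintro ⟨X, hX, rfl⟩
      rw [mem_Tables] at hX
      constructor
      · rw [mem_Tables]
        constructor
        · intro a
          have := hX.1 a
          change ∑ b, (X + E h J) a b = _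
          simp only [Pi.add_apply, Finset.sum_add_distrib, sum_row]
          omega
        · intro b
          have := hX.2 b
          change ∑ a, (X + E h J) a b = _
          simp only [Pi.add_apply, Finset.sum_add_distrib, sum_col]
          omega
      · change 1 ≤ (X + E h J) h J
        simp only [Pi.add_apply]
        rw [E_apply]
        simp
  · have key := fun Y hY => exists_rel r c h J Y hY
    haveI : Nonempty ((Fin m × Fin n) × (Fin m → Fin n → ℕ)) := ⟨((h, J), 0)⟩
    choose! f hf using key
    have h1 : (Tables (r + Pi.single h 1) (c + Pi.single J 1)).card ≤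
        ((Finset.univ : Finset (Fin m × Fin n)) ×ˢ Tables r c).card := by
      refine Finset.card_le_card_of_injOn f ?_ ?_
      · intro Y hY
        rw [Finset.mem_coe, Finset.mem_product]
        exact ⟨Finset.mem_univ _, (hf Y hY).1⟩
      · intro Y hY Y' hY' he
        have h2 := (hf Y hY).2
        have h3 := (hf Y' hY').2
        rw [← he] at h3
        exact add_right_cancel (h2.trans h3.symm)
    rw [Finset.card_product, Finset.card_univ, Fintype.card_prod, Fintype.card_fin,
      Fintype.card_fin] at h1
    exact h1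

end Vale.P328U.ACC
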