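import Vale.Agent.P328.U.FIN
import Vale.Agent.P328.U.ACC

/-!
# P328: generic end lemma (helper19).  From one run on the tables with one extra unit to the
sampler (first successful attempt out of `K`).
-/

namespace Vale.P328U.GEN
open Finset BigOperators Vale.P328U

variable {m n : ℕ} {S : Type}

/-- one attempt: remove the extra unit from the cell `(h, J)` if possible -/
def gatt (h : Fin m) (J : Fin n) (out : S → Fin m → Fin n → ℕ) (ω : S) :
    Option (Fin m → Fin n → ℕ) :=
  if 1 ≤ out ω h J then some (out ω - E h J) else none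

/-- first successful attempt out of `K`, else `X₀` -/
def gsam (h : Fin m) (J : Fin n) (out : S → Fin m → Fin n → ℕ) (X₀ : Fin m → Fin n → ℕ) {K : ℕ}
    (ω : Fin K → S) : Fin m → Fin n → ℕ :=
  (((List.ofFn ω).map (gatt h J out)).reduceOption.head?).getD X₀

lemma gatt_some (h : Fin m) (J : Fin n) (out : S → Fin m → Fin n → ℕ) (X : Fin m → Fin n → ℕ)
    (ω : S) : gatt h J out ω = some X ↔ out ω = X + E h J := by
  unfold gatt
  have hE : (E h J : Fin m → Fin n → ℕ) h J = 1 := by simp [E, e]
  split_ifs with h1
  · rw [Option.some.injEq]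
    constructor
    · intro h2
      rw [← h2]
      funext a b
      simp only [Pi.add_apply, Pi.sub_apply]
      by_cases hab : a = h ∧ b = J
      · obtain ⟨rfl, rfl⟩ := hab
        rw [hE]
        omega
      · have : (E h J : Fin m → Fin n → ℕ) a b = 0 := by
          simp only [E, e, Pi.single_apply]
          by_cases ha : a = h
          · subst ha
            have hb : b ≠ J := fun hb => hab ⟨rfl, hb⟩
            simp [hb]
          · simp [ha]
        rw [this]
        omega
    · intro h2
      rw [h2]
      simp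
  · constructor
    · intro h2
      cases h2
    · intro h2
      exfalso
      apply h1
      rw [h2]
      simp only [Pi.add_apply]
      rw [hE]
      omega

lemma gatt_none (h : Fin m) (J : Fin n) (out : S → Fin m → Fin n → ℕ) (ω : S) :
    gatt h J out ω = none ↔ ¬ 1 ≤ out ω h J := by
  unfold gatt
  split_ifs with h1
  · simp [h1]
  · simp only [true_iff]
    exact h1

/-- the generic end: any randomized procedure `out` (uniform `ω : S`) on the tables with margins
`r + e_h`, `c + e_J`, whose law is within `ε / (8 m n)` (sum of absolute values) of uniform, gives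
a sampler for the tables with margins `r`, `c` -/
theorem gen [Fintype S] [Nonempty S] (r : Fin m → ℕ) (c : Fin n → ℕ) (h : Fin m)
    (J : Fin n) (out : S → Fin m → Fin n → ℕ) (ε : ℝ) (K : ℕ) (X₀ : Fin m → Fin n → ℕ)
    (hX₀ : X₀ ∈ Tables r c) (hε0 : 0 < ε) (hε1 : ε < 1)
    (hK : 2 * m * n * Real.log (4 / ε) ≤ K)
    (hδ : ∑ Y ∈ Tables (r + Pi.single h 1) (c + Pi.single J 1),
      |lawOf out Y - 1 / ((Tables (r + Pi.single h 1) (c + Pi.single J 1)).card : ℝ)| ≤
        ε / (8 * m * n)) :
    (1 / 2) * ∑ X ∈ Tables r c, |lawOf (fun ω : Fin K → S => gsam h J out X₀ ω) X -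
      1 / ((Tables r c).card : ℝ)| ≤ ε := by
  classical
  have hm : 1 ≤ m := by have := h.2; omega
  have hn : 1 ≤ n := by have := J.2; omega
  have hm' : (1 : ℝ) ≤ m := by exact_mod_cast hm
  have hn' : (1 : ℝ) ≤ n := by exact_mod_cast hn
  obtain ⟨hG, hcard⟩ := ACC.thm m n r c h J
  have hX₀' : X₀ + E h J ∈ Tables (r + Pi.single h 1) (c + Pi.single J 1) := by
    have : X₀ + E h J ∈
        ((Tables (r + Pi.single h 1) (c + Pi.single J 1)).filter fun Y => 1 ≤ Y h J) := by
      rw [hG]
      exact Finset.mem_map.mpr ⟨X₀, hX₀, rfl⟩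
    exact (Finset.mem_filter.mp this).1
  have hcore := FIN.core h J out (gatt h J out) X₀ (Tables r c)
    (Tables (r + Pi.single h 1) (c + Pi.single J 1)) ε
    (ε / (8 * m * n)) K hm' hn' hX₀ hX₀' hε0 hε1
    (fun X ω => gatt_some h J out X ω) (fun ω => gatt_none h J out ω) hG hcard rfl
    (by
      refine le_trans (le_of_eq ?_) hδ
      apply Finset.sum_congr rfl
      intro Y _
      rw [FIN.law_eq]) hK
  have hfin : ∑ X ∈ Tables r c, |lawOf (fun ω : Fin K → S => gsam h J out X₀ ω) X -
          1 / ((Tables r c).card : ℝ)| ≤ ε := by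
    refine le_trans (le_of_eq ?_) hcore
    apply Finset.sum_congr rfl
    intro X _
    rw [FIN.law_eq]
    rfl
  linarith

/-- the sampler always outputs a table with the margins `r`, `c` -/
theorem gsam_mem (r : Fin m → ℕ) (c : Fin n → ℕ) (h : Fin m)
    (J : Fin n) (out : S → Fin m → Fin n → ℕ) (X₀ : Fin m → Fin n → ℕ)
    (hX₀ : X₀ ∈ Tables r c)
    (hout : ∀ ω, out ω ∈ Tables (r + Pi.single h 1) (c + Pi.single J 1)) {K : ℕ}
    (ω : Fin K → S) : gsam h J out X₀ ω ∈ Tables r c := by
  obtain ⟨hG, -⟩ := ACC.thm m n r c h J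
  have key : ∀ s X, gatt h J out s = some X → X ∈ Tables r c := by
    intro s X hX
    have e1 := (gatt_some h J out X s).mp hX
    have e2 : out s ∈
        ((Tables (r + Pi.single h 1) (c + Pi.single J 1)).filter fun Y => 1 ≤ Y h J) := by
      refine Finset.mem_filter.mpr ⟨hout s, ?_⟩
      by_contra hc
      have := (gatt_none h J out s).mpr hc
      rw [this] at hX
      cases hX
    rw [hG, e1] at e2
    obtain ⟨X', hX', e3⟩ := Finset.mem_map.mp e2
    have e4 : X' + E h J = X + E h J := e3
    rw [← add_right_cancel e4]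
    exact hX'
  induction K with
  | zero =>
    unfold gsam
    simpa using hX₀
  | succ K ih =>
    have hω : ω = Fin.cons (ω 0) (Fin.tail ω) := (Fin.cons_self_tail ω).symm
    have h1 : gsam h J out X₀ ω = (gatt h J out (ω 0)).getD (gsam h J out X₀ (Fin.tail ω)) := by
      conv_lhs => rw [hω]
      exact FIN.sam_cons (gatt h J out) X₀ (ω 0) (Fin.tail ω)
    rw [h1]
    cases hc : gatt h J out (ω 0) with
    | none => exact ih (Fin.tail ω)
    | some X => exact key _ _ hc

end Vale.P328U.GEN
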