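import Mathlib

/-!
# P328, unary margins: interface (helper16)

Non-hub rows are indexed by a finite type `ι`, columns by a finite type `κ`.  The hub row is
implicit: its entry in column `j` is `c j - ∑ i, X i j`.
-/

namespace Vale.P328U
open Finset BigOperators

universe u v

section two
variable {κ : Type v} [Fintype κ] [DecidableEq κ]

/-- unit vector -/
def e (j : κ) : κ → ℕ := Pi.single j 1

/-- `B s t = {w : κ → ℕ | w ≤ s, ∑ w = t}` -/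
def B (s : κ → ℕ) (t : ℕ) : Finset (κ → ℕ) :=
  (Fintype.piFinset fun j => range (s j + 1)).filter fun w => ∑ j, w j = t

/-- the flux of `f` at `w` (one level above), column `j` -/
noncomputable def V (f : (κ → ℕ) → ℝ) (j : κ) (w : κ → ℕ) : ℝ :=
  (w j : ℝ) * ∑ l, (w l : ℝ) * (f (w - e j) - f (w - e l))

/-- the local quadratic form at `v` (two levels above).  The summand vanishes automatically unless
`e j + e j' ≤ v` (because `V f j w` has the factor `w j`). -/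
noncomputable def Q (f : (κ → ℕ) → ℝ) (v : κ → ℕ) : ℝ :=
  ∑ j, ∑ j', V f j (v - e j') * V f j' (v - e j)

end two

section full
variable {ι : Type u} [Fintype ι] [DecidableEq ι] {κ : Type v} [Fintype κ] [DecidableEq κ]

/-- unit table -/
def E (k : ι) (j : κ) : ι → κ → ℕ := Pi.single k (e j)

/-- tables: row sums `r` (non-hub rows), column sums at most `c` (the hub row takes the rest) -/
def Om (r : ι → ℕ) (c : κ → ℕ) : Finset (ι → κ → ℕ) :=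
  (Fintype.piFinset fun _ : ι => Fintype.piFinset fun j => range (c j + 1)).filter
    fun X => (∀ i, ∑ j, X i j = r i) ∧ ∀ j, ∑ i, X i j ≤ c j

/-- flux of `F` in row `k`, column `j`, at a table `W` (with one extra unit in row `k`) -/
noncomputable def VV (F : (ι → κ → ℕ) → ℝ) (k : ι) (j : κ) (W : ι → κ → ℕ) : ℝ :=
  (W k j : ℝ) * ∑ l, (W k l : ℝ) * (F (W - E k j) - F (W - E k l))

/-- the generator of row `k` : switch `l → j` of row `k` with rate `X k l * (X k j + 1)` if the hub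
has a unit in column `j` -/
noncomputable def LL (c : κ → ℕ) (F : (ι → κ → ℕ) → ℝ) (k : ι) (X : ι → κ → ℕ) : ℝ :=
  - ∑ j, if ∑ i, X i j < c j then VV F k j (X + E k j) else 0

/-- local form of row `k` at `Z` (two extra units in row `k`); the summand vanishes automatically
unless `E k j + E k j' ≤ Z` -/
noncomputable def QQ (F : (ι → κ → ℕ) → ℝ) (k : ι) (Z : ι → κ → ℕ) : ℝ :=
  ∑ j, ∑ j', VV F k j (Z - E k j') * VV F k j' (Z - E k j)

/-- Dirichlet form (bilinear) of row `k` -/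
noncomputable def DD (r : ι → ℕ) (c : κ → ℕ) (F G : (ι → κ → ℕ) → ℝ) (k : ι) : ℝ :=
  (1 / 2) * ∑ W ∈ Om (r + Pi.single k 1) c, ∑ j, ∑ l,
    (W k j : ℝ) * (W k l : ℝ) * ((F (W - E k j) - F (W - E k l)) * (G (W - E k j) - G (W - E k l)))

end full

/-! ## Modules -/

/-- SOS : `(V_j(v-e_a) - V_j(v-e_b))² ≤ 2 |v| Q(v)`.
Proof: `P = |v|`, `S i j = (P-1) f(v-e_i-e_j)`, `R i = ∑ l (v-e_i)_l f(v-e_i-e_l)`,
`ρ = ∑ v_i R_i / P`, `c j = v j (R j - ρ)`, `K i j = V_j(v-e_i) - c j`. Then for `i ≠ j` in the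
support `K i j = v j * W i j`, `W i j = S i j - R i - R j + ρ` symmetric, `∑_j K i j = 0`,
`∑ c = 0`, so `Q = ∑_i K i i ^2 + ∑_{i≠j} v i v j (W i j)^2` (sums over the support). -/
def StmtSOS : Prop :=
  ∀ (κ : Type v) [Fintype κ] [DecidableEq κ] (f : (κ → ℕ) → ℝ) (v : κ → ℕ) (j a b : κ),
    1 ≤ v a → 1 ≤ v b →
    (V f j (v - e a) - V f j (v - e b)) ^ 2 ≤ 2 * (∑ i, (v i : ℝ)) * Q f v

/-- Q ≥ 0 (consequence of the same identity) -/
def StmtQ0 : Prop :=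
  ∀ (κ : Type v) [Fintype κ] [DecidableEq κ] (f : (κ → ℕ) → ℝ) (v : κ → ℕ), 0 ≤ Q f v

/-- CRY : crystal injection on the columns of a finset `S`: below the middle level there is an
injective map adding one unit. (Proof: induction on `S`, tensor product rule for `ε, φ, f̃`.) -/
def StmtCRY : Prop :=
  ∀ (κ : Type v) [Fintype κ] [DecidableEq κ] (S : Finset κ) (s : κ → ℕ),
    ∃ φ : (κ → ℕ) → (κ → ℕ),
      (∀ w, w ≤ s → 2 * ∑ j ∈ S, w j < ∑ j ∈ S, s j → ∃ b ∈ S, w b < s b ∧ φ w = w + e b) ∧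
      (∀ w w', w ≤ s → w' ≤ s → 2 * ∑ j ∈ S, w j < ∑ j ∈ S, s j →
        2 * ∑ j ∈ S, w' j < ∑ j ∈ S, s j → φ w = φ w' → w = w')

/-- FR : Friedrichs inequality on `B s t`, for a function vanishing on the wall `w j = 0`. -/
def StmtFR : Prop :=
  ∀ (κ : Type v) [Fintype κ] [DecidableEq κ] (s : κ → ℕ) (t : ℕ) (j J : κ) (G : (κ → ℕ) → ℝ),
    2 * t ≤ ∑ i, s i + 1 → j ≠ J → s j ≤ s J → (∀ w, w j = 0 → G w = 0) →
    ∑ w ∈ B s t, G w ^ 2 ≤ 3 * ((t : ℝ) + 1) ^ 3 *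
      ∑ v ∈ B s (t + 1), ∑ a, ∑ b,
        if 1 ≤ v a ∧ 1 ≤ v b then (G (v - e a) - G (v - e b)) ^ 2 else 0

/-- TWOR : the two-row inequality -/
def StmtTWOR : Prop :=
  ∀ (κ : Type v) [Fintype κ] [DecidableEq κ] (s : κ → ℕ) (p : ℕ) (f : (κ → ℕ) → ℝ),
    2 * p + 1 ≤ ∑ i, s i →
    ∑ w ∈ B s (p + 1), ∑ j, V f j w ^ 2 ≤
      6 * (Fintype.card κ : ℝ) ^ 4 * ((p : ℝ) + 2) ^ 4 * ∑ v ∈ B s (p + 2), Q f v

/-- ROW : the same in the full table space, for row `k` -/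
def StmtROW : Prop :=
  ∀ (ι : Type u) [Fintype ι] [DecidableEq ι] (κ : Type v) [Fintype κ] [DecidableEq κ]
    (r : ι → ℕ) (c : κ → ℕ) (F : (ι → κ → ℕ) → ℝ) (k : ι),
    ∑ i, r i + r k + 1 ≤ ∑ j, c j →
    ∑ W ∈ Om (r + Pi.single k 1) c, ∑ j, VV F k j W ^ 2 ≤
      6 * (Fintype.card κ : ℝ) ^ 4 * ((r k : ℝ) + 2) ^ 4 *
        ∑ Z ∈ Om (r + Pi.single k 2) c, QQ F k Z

/-- CRS : positivity of the cross terms `k ≠ l`, pointwise at `Z`.
Proof: with `α = Z k`, `β = Z l`, `Φ j j' = F (Z - E k j - E l j')`, it equals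
`∑ α_j β_j' (P Φ - ∑ α_a Φ_{a j'}) (P' Φ - ∑ β_b Φ_{j b})`
`= (1/(P P')) ∑ α_j β_j' (P P' Φ - P' ∑ α Φ - P ∑ β Φ + ∑∑ α β Φ)² ≥ 0`. -/
def StmtCRS : Prop :=
  ∀ (ι : Type u) [Fintype ι] [DecidableEq ι] (κ : Type v) [Fintype κ] [DecidableEq κ]
    (F : (ι → κ → ℕ) → ℝ) (k l : ι) (Z : ι → κ → ℕ), k ≠ l →
    0 ≤ ∑ j, ∑ j', VV F k j (Z - E l j') * VV F l j' (Z - E k j)

/-- BOC : Bochner inequality. Proof: expand the square; the conflict part (`j = j'`, hub entry `= 1`)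
is `∑_X ∑_j [h_j = 1] (∑_k VV F k j (X + E k j))² ≥ 0`; the joint part is re-indexed by
`Z = X + E k j + E l j'`; for `k ≠ l` use CRS. -/
def StmtBOC : Prop :=
  ∀ (ι : Type u) [Fintype ι] [DecidableEq ι] (κ : Type v) [Fintype κ] [DecidableEq κ]
    (r : ι → ℕ) (c : κ → ℕ) (F : (ι → κ → ℕ) → ℝ),
    ∑ k, ∑ Z ∈ Om (r + Pi.single k 2) c, QQ F k Z ≤ ∑ X ∈ Om r c, (∑ k, LL c F k X) ^ 2

/-- DIR : Dirichlet form identity and the comparison with the flux -/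
def StmtDIR : Prop :=
  ∀ (ι : Type u) [Fintype ι] [DecidableEq ι] (κ : Type v) [Fintype κ] [DecidableEq κ]
    (r : ι → ℕ) (c : κ → ℕ) (F G : (ι → κ → ℕ) → ℝ) (k : ι),
    (∑ X ∈ Om r c, G X * (- LL c F k X) = DD r c F G k) ∧
    DD r c F F k ≤ ∑ W ∈ Om (r + Pi.single k 1) c, ∑ j, VV F k j W ^ 2

/-- CON : the star switches connect all tables (the hub has at least one unit). -/
def StmtCON : Prop :=
  ∀ (ι : Type u) [Fintype ι] [DecidableEq ι] (κ : Type v) [Fintype κ] [DecidableEq κ]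
    (r : ι → ℕ) (c : κ → ℕ) (F : (ι → κ → ℕ) → ℝ),
    ∑ i, r i + 1 ≤ ∑ j, c j →
    (∀ X ∈ Om r c, ∀ k j l, 1 ≤ X k l → ∑ i, X i j < c j →
      F (X + E k j - E k l) = F X) →
    ∀ X ∈ Om r c, ∀ Y ∈ Om r c, F X = F Y

/-- POI : Poincaré inequality -/
def StmtPOI : Prop :=
  ∀ (ι : Type u) [Fintype ι] [DecidableEq ι] (κ : Type v) [Fintype κ] [DecidableEq κ]
    (r : ι → ℕ) (c : κ → ℕ) (R : ℕ) (F : (ι → κ → ℕ) → ℝ),
    (∀ k, r k ≤ R) → (∀ k, ∑ i, r i + r k + 1 ≤ ∑ j, c j) → ∑ i, r i + 1 ≤ ∑ j, c j →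
    ∑ X ∈ Om r c, F X = 0 →
    ∑ X ∈ Om r c, F X ^ 2 ≤
      6 * (Fintype.card κ : ℝ) ^ 4 * ((R : ℝ) + 2) ^ 4 * ∑ k, DD r c F F k

end Vale.P328U
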