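import Vale.Agent.P328.U.Defs2

/-!
# P328, module STAR: the star chain in the original formulation
-/

namespace Vale.P328U.STAR
open Finset BigOperators

universe u v

section E
variable {ι : Type u} [Fintype ι] [DecidableEq ι] {κ : Type v} [Fintype κ] [DecidableEq κ]

theorem E_apply (k i : ι) (j a : κ) :
    (E k j : ι → κ → ℕ) i a = if i = k ∧ a = j then 1 else 0 := by
  unfold E e
  by_cases h : i = k
  · subst h
    rw [Pi.single_eq_same]
    by_cases h2 : a = j
    · subst h2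
      simp
    · rw [Pi.single_eq_of_ne h2]
      simp [h2]
  · rw [Pi.single_eq_of_ne h]
    simp [h]

theorem mem_Om {r : ι → ℕ} {c : κ → ℕ} {X : ι → κ → ℕ} :
    X ∈ Om r c ↔ (∀ i, ∑ j, X i j = r i) ∧ ∀ j, ∑ i, X i j ≤ c j := by
  unfold Om
  rw [mem_filter]
  refine ⟨fun h => h.2, fun h => ⟨?_, h⟩⟩
  rw [Fintype.mem_piFinset]
  intro i
  rw [Fintype.mem_piFinset]
  intro j
  rw [mem_range]
  have h1 : X i j ≤ ∑ i, X i j := single_le_sum (f := fun i => X i j) (fun _ _ => Nat.zero_le _)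
    (mem_univ i)
  have := h.2 j
  omega

theorem row_E (k i : ι) (j : κ) : ∑ a, (E k j : ι → κ → ℕ) i a = if i = k then 1 else 0 := by
  simp_rw [E_apply]
  by_cases h : i = k
  · simp [h]
  · simp [h]

theorem col_E (k : ι) (j a : κ) : ∑ i, (E k j : ι → κ → ℕ) i a = if a = j then 1 else 0 := by
  simp_rw [E_apply]
  by_cases h : a = j
  · simp [h]
  · simp [h]

end E

variable {m n : ℕ}

theorem mem_Tables {r : Fin m → ℕ} {c : Fin n → ℕ} {X : Fin m → Fin n → ℕ} :
    X ∈ Tables r c ↔ (∀ i, ∑ j, X i j = r i) ∧ ∀ j, ∑ i, X i j = c j := by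
  unfold Tables
  rw [mem_filter]
  refine ⟨fun h => h.2, fun h => ⟨?_, h⟩⟩
  rw [Fintype.mem_piFinset]
  intro i
  rw [Fintype.mem_piFinset]
  intro j
  rw [mem_range]
  have h1 : X i j ≤ ∑ j, X i j := single_le_sum (f := fun j => X i j) (fun _ _ => Nat.zero_le _)
    (mem_univ j)
  have := h.1 i
  omega

/-- restriction to the non-hub rows -/
def res (h : Fin m) (X : Fin m → Fin n → ℕ) : {k : Fin m // k ≠ h} → Fin n → ℕ := fun k => X k.1

/-- row sums of the non-hub rows -/
def rr (h : Fin m) (r : Fin m → ℕ) : {k : Fin m // k ≠ h} → ℕ := fun k => r k.1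

theorem sum_ne (f : Fin m → ℕ) (h : Fin m) :
    ∑ k, f k = f h + ∑ k : {k : Fin m // k ≠ h}, f k.1 :=
  Fintype.sum_eq_add_sum_subtype_ne f h

theorem res_mem {r : Fin m → ℕ} {c : Fin n → ℕ} {X : Fin m → Fin n → ℕ} (h : Fin m)
    (hX : X ∈ Tables r c) : res h X ∈ Om (rr h r) c := by
  rw [mem_Tables] at hX
  rw [mem_Om]
  refine ⟨fun i => hX.1 i.1, fun j => ?_⟩
  have h1 := sum_ne (fun i => X i j) h
  have h2 := hX.2 j
  have h3 : ∑ i, res h X i j = ∑ k : {k : Fin m // k ≠ h}, X k.1 j := rfl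
  rw [h3]
  omega

theorem hub_eq {r : Fin m → ℕ} {c : Fin n → ℕ} {X : Fin m → Fin n → ℕ} (h : Fin m)
    (hX : X ∈ Tables r c) (j : Fin n) : X h j + ∑ i, res h X i j = c j := by
  rw [mem_Tables] at hX
  have h1 := sum_ne (fun i => X i j) h
  have h2 := hX.2 j
  have h3 : ∑ i, res h X i j = ∑ k : {k : Fin m // k ≠ h}, X k.1 j := rfl
  rw [h3]
  omega

theorem res_inj {r : Fin m → ℕ} {c : Fin n → ℕ} {X Y : Fin m → Fin n → ℕ} (h : Fin m)
    (hX : X ∈ Tables r c) (hY : Y ∈ Tables r c) (e : res h X = res h Y) : X = Y := by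
  funext i j
  by_cases hi : i = h
  · subst hi
    have h1 := hub_eq i hX j
    have h2 := hub_eq i hY j
    rw [e] at h1
    omega
  · exact congrFun (congrFun e ⟨i, hi⟩) j

theorem res_surj {r : Fin m → ℕ} {c : Fin n → ℕ} (h : Fin m) (hrc : ∑ i, r i = ∑ j, c j)
    {X' : {k : Fin m // k ≠ h} → Fin n → ℕ} (hX' : X' ∈ Om (rr h r) c) :
    ∃ X ∈ Tables r c, res h X = X' := by
  rw [mem_Om] at hX'
  refine ⟨fun i j => if hi : i ≠ h then X' ⟨i, hi⟩ j else c j - ∑ k, X' k j, ?_, ?_⟩
  · rw [mem_Tables]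
    constructor
    · intro i
      by_cases hi : i ≠ h
      · simp only [dif_pos hi]
        exact hX'.1 ⟨i, hi⟩
      · simp only [dif_neg hi]
        push Not at hi
        subst hi
        have h1 : ∑ j, (c j - ∑ k, X' k j) + ∑ j, ∑ k, X' k j = ∑ j, c j := by
          rw [← sum_add_distrib]
          refine sum_congr rfl fun j _ => ?_
          have := hX'.2 j
          omega
        have h2 : ∑ j, ∑ k, X' k j = ∑ k, rr i r k := by
          rw [sum_comm]
          exact sum_congr rfl fun k _ => hX'.1 k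
        have h3 := sum_ne r i
        have h4 : ∑ k, rr i r k = ∑ k : {k : Fin m // k ≠ i}, r k.1 := rfl
        omega
    · intro j
      rw [sum_ne _ h]
      have h1 : (∑ k : {k : Fin m // k ≠ h}, (if hi : k.1 ≠ h then X' ⟨k.1, hi⟩ j else
          c j - ∑ k, X' k j)) = ∑ k, X' k j := by
        refine sum_congr rfl fun k _ => ?_
        rw [dif_pos k.2]
      rw [h1, dif_neg (by simp)]
      have := hX'.2 j
      omega
  · funext k j
    show (if hi : k.1 ≠ h then X' ⟨k.1, hi⟩ j else c j - ∑ k, X' k j) = X' k j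
    rw [dif_pos k.2]

/-! ### one step -/

/-- choices -/
def chEquiv (h : Fin m) (M : ℕ) : (Fin m × Fin n × Fin n × Fin M) ≃
    (Option {k : Fin m // k ≠ h} × Fin n × Fin n × Fin M) :=
  Equiv.prodCongr (Equiv.optionSubtypeNe h).symm (Equiv.refl _)

theorem star_pt {X : Fin m → Fin n → ℕ} {h k : Fin m} {l j : Fin n} (hk : k ≠ h)
    (h1 : 1 ≤ X k l) (h2 : 1 ≤ X h j) (i : Fin m) (a : Fin n) :
    (X + E k j + E h l - E k l - E h j) i a + (if i = k ∧ a = l then 1 else 0)
      + (if i = h ∧ a = j then 1 else 0) =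
    X i a + (if i = k ∧ a = j then 1 else 0) + (if i = h ∧ a = l then 1 else 0) := by
  simp only [Pi.add_apply, Pi.sub_apply, E_apply]
  by_cases ha : i = k ∧ a = l
  · have hb : ¬ (i = h ∧ a = j) := fun hb => hk (ha.1.symm.trans hb.1)
    have h3 : 1 ≤ X i a := by rw [ha.1, ha.2]; exact h1
    rw [if_pos ha, if_neg hb]
    omega
  · rw [if_neg ha]
    by_cases hb : i = h ∧ a = j
    · have h3 : 1 ≤ X i a := by rw [hb.1, hb.2]; exact h2
      rw [if_pos hb]
      omega
    · rw [if_neg hb]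
      omega

theorem star_mem {r : Fin m → ℕ} {c : Fin n → ℕ} {X : Fin m → Fin n → ℕ}
    (hX : X ∈ Tables r c) {h k : Fin m} {l j : Fin n} (hk : k ≠ h)
    (h1 : 1 ≤ X k l) (h2 : 1 ≤ X h j) :
    X + E k j + E h l - E k l - E h j ∈ Tables r c := by
  rw [mem_Tables] at hX ⊢
  constructor
  · intro i
    have h3 : ∑ a, ((X + E k j + E h l - E k l - E h j) i a + (if i = k ∧ a = l then 1 else 0)
      + (if i = h ∧ a = j then 1 else 0)) = ∑ a, (X i a + (if i = k ∧ a = j then 1 else 0)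
      + (if i = h ∧ a = l then 1 else 0)) := sum_congr rfl fun a _ => star_pt hk h1 h2 i a
    rw [sum_add_distrib, sum_add_distrib, sum_add_distrib, sum_add_distrib] at h3
    have e : ∀ (p : Fin m) (b : Fin n), ∑ a, (if i = p ∧ a = b then 1 else 0) =
        if i = p then 1 else 0 := by
      intro p b
      by_cases hp : i = p
      · simp [hp]
      · simp [hp]
    rw [e, e, e, e] at h3
    have := hX.1 i
    omega
  · intro a
    have h3 : ∑ i, ((X + E k j + E h l - E k l - E h j) i a + (if i = k ∧ a = l then 1 else 0)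
      + (if i = h ∧ a = j then 1 else 0)) = ∑ i, (X i a + (if i = k ∧ a = j then 1 else 0)
      + (if i = h ∧ a = l then 1 else 0)) := sum_congr rfl fun i _ => star_pt hk h1 h2 i a
    rw [sum_add_distrib, sum_add_distrib, sum_add_distrib, sum_add_distrib] at h3
    have e : ∀ (p : Fin m) (b : Fin n), ∑ i : Fin m, (if i = p ∧ a = b then 1 else 0) =
        if a = b then 1 else 0 := by
      intro p b
      by_cases hp : a = b
      · simp [hp]
      · simp [hp]
    rw [e, e, e, e] at h3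
    have := hX.2 a
    omega

theorem star_res {X : Fin m → Fin n → ℕ} {h : Fin m} (k : {k : Fin m // k ≠ h}) {l j : Fin n} :
    res h (X + E k.1 j + E h l - E k.1 l - E h j) = res h X + E k j - E k l := by
  funext i a
  unfold res
  simp only [Pi.add_apply, Pi.sub_apply, E_apply]
  have h1 : ¬ (i.1 = h ∧ a = l) := fun h1 => i.2 h1.1
  have h2 : ¬ (i.1 = h ∧ a = j) := fun h2 => i.2 h2.1
  rw [if_neg h1, if_neg h2, add_zero, Nat.sub_zero]
  have h3 : (i.1 = k.1) ↔ i = k := Subtype.ext_iff.symm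
  simp only [h3]

theorem step_spec {r : Fin m → ℕ} {c : Fin n → ℕ} {X : Fin m → Fin n → ℕ} (h : Fin m) (M : ℕ)
    (hX : X ∈ Tables r c) (ch : Fin m × Fin n × Fin n × Fin M) :
    starStep h M X ch ∈ Tables r c ∧
      res h (starStep h M X ch) = stp c M (res h X) (chEquiv h M ch) := by
  obtain ⟨k, l, j, u⟩ := ch
  by_cases hk : k = h
  · subst hk
    have e1 : starStep k M X (k, l, j, u) = X := by
      unfold starStep
      rw [if_neg]
      rintro ⟨h1, -⟩
      exact h1 rfl
    have e2 : chEquiv k M (k, l, j, u) = (none, l, j, u) := by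
      unfold chEquiv
      simp
    rw [e1, e2]
    exact ⟨hX, rfl⟩
  · have e2 : chEquiv h M (k, l, j, u) = (some ⟨k, hk⟩, l, j, u) := by
      unfold chEquiv
      simp [hk]
    rw [e2]
    have hhub := hub_eq h hX j
    have hiff : (k ≠ h ∧ l ≠ j ∧ (u : ℕ) < X k l * (X k j + 1) ∧ 1 ≤ X h j) ↔
        (l ≠ j ∧ (u : ℕ) < res h X ⟨k, hk⟩ l * (res h X ⟨k, hk⟩ j + 1) ∧
          ∑ i, res h X i j < c j) := by
      constructor
      · rintro ⟨-, h2, h3, h4⟩
        exact ⟨h2, h3, by omega⟩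
      · rintro ⟨h2, h3, h4⟩
        exact ⟨hk, h2, h3, by omega⟩
    unfold starStep stp
    by_cases hc : k ≠ h ∧ l ≠ j ∧ (u : ℕ) < X k l * (X k j + 1) ∧ 1 ≤ X h j
    · rw [if_pos hc]
      have hc' := hiff.mp hc
      simp only
      rw [if_pos hc']
      have hl : 1 ≤ X k l := by
        by_contra h0
        have h1 : X k l = 0 := by omega
        have h2 := hc.2.2.1
        rw [h1, zero_mul] at h2
        omega
      exact ⟨star_mem hX hk hl hc.2.2.2, star_res ⟨k, hk⟩⟩
    · rw [if_neg hc]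
      have hc' : ¬ _ := fun h' => hc (hiff.mpr h')
      simp only
      rw [if_neg hc']
      exact ⟨hX, rfl⟩

theorem fold_spec {r : Fin m → ℕ} {c : Fin n → ℕ} (h : Fin m) (M : ℕ)
    (L : List (Fin m × Fin n × Fin n × Fin M)) : ∀ X ∈ Tables r c,
    L.foldl (starStep h M) X ∈ Tables r c ∧
      res h (L.foldl (starStep h M) X) = (L.map (chEquiv h M)).foldl (stp c M) (res h X) := by
  induction L with
  | nil => exact fun X hX => ⟨hX, rfl⟩
  | cons a L ih =>
    intro X hX
    obtain ⟨h1, h2⟩ := step_spec h M hX a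
    obtain ⟨h3, h4⟩ := ih _ h1
    rw [List.foldl_cons, List.map_cons, List.foldl_cons]
    refine ⟨h3, ?_⟩
    rw [h4, h2]

theorem run_spec {r : Fin m → ℕ} {c : Fin n → ℕ} (h : Fin m) (M : ℕ) {t : ℕ}
    (ω : Fin t → Fin m × Fin n × Fin n × Fin M) {X : Fin m → Fin n → ℕ} (hX : X ∈ Tables r c) :
    starRun h M X ω ∈ Tables r c ∧
      res h (starRun h M X ω) = rn c M (res h X) (fun i => chEquiv h M (ω i)) := by
  unfold starRun rn
  have := fold_spec (r := r) (c := c) h M (List.ofFn ω) X hX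
  rw [List.map_ofFn] at this
  exact this

theorem thm (hMIX : StmtMIX.{0, 0}) : StmtSTAR := by
  intro m n r c h R t X₀ hn hr hrh hX₀
  have hX₀' := mem_Tables.mp hX₀
  have hrc : ∑ i, r i = ∑ j, c j := by
    have h1 : ∑ i, ∑ j, X₀ i j = ∑ i, r i := sum_congr rfl fun i _ => hX₀'.1 i
    have h2 : ∑ j, ∑ i, X₀ i j = ∑ j, c j := sum_congr rfl fun j _ => hX₀'.2 j
    rw [← h1, ← h2, sum_comm]
  have hsum := sum_ne r h
  have hrr : ∑ k, rr h r k = ∑ k : {k : Fin m // k ≠ h}, r k.1 := rfl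
  have : Nonempty (Fin n) := ⟨⟨0, hn⟩⟩
  have key := hMIX {k : Fin m // k ≠ h} (Fin n) (rr h r) c R t (res h X₀)
    (fun k => (hr k.1 k.2).1) (fun k => by
      have h1 := (hr k.1 k.2).2
      have h2 : rr h r k = r k.1 := rfl
      omega) (by omega) (res_mem h hX₀)
  have hcι : Fintype.card {k : Fin m // k ≠ h} = m - 1 := by
    rw [Fintype.card_subtype_compl, Fintype.card_fin, Fintype.card_subtype_eq]
  rw [hcι, Fintype.card_fin] at key
  -- the bijection of the state spaces
  have hbij : ∀ g : ({k : Fin m // k ≠ h} → Fin n → ℕ) → ℝ,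
      ∑ X ∈ Tables r c, g (res h X) = ∑ X' ∈ Om (rr h r) c, g X' := by
    intro g
    refine sum_nbij (fun X => res h X) (fun X hX => res_mem h hX) ?_ ?_ (fun _ _ => rfl)
    · intro X hX Y hY e
      exact res_inj h (mem_coe.mp hX) (mem_coe.mp hY) e
    · intro X' hX'
      obtain ⟨X, hX, e⟩ := res_surj h hrc (mem_coe.mp hX')
      exact ⟨X, mem_coe.mpr hX, e⟩
  have hcard : ((Om (rr h r) c).card : ℝ) = ((Tables r c).card : ℝ) := by
    have := hbij (fun _ => 1)
    simp only [sum_const, nsmul_eq_mul, mul_one] at this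
    exact this.symm
  have hcs : (Fintype.card (Fin t → Option {k : Fin m // k ≠ h} × Fin n × Fin n ×
      Fin ((R + 1) ^ 2)) : ℝ) =
      (Fintype.card (Fin t → Fin m × Fin n × Fin n × Fin ((R + 1) ^ 2)) : ℝ) := by
    norm_cast
    exact (Fintype.card_congr (Equiv.piCongrRight fun _ => chEquiv h ((R + 1) ^ 2))).symm
  rw [hcard, ← hbij] at key
  refine le_trans (le_of_eq ?_) key
  refine sum_congr rfl fun X hX => ?_
  have hlaw : lawOf (fun ω : Fin t → Fin m × Fin n × Fin n × Fin ((R + 1) ^ 2) =>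
        starRun h ((R + 1) ^ 2) X₀ ω) X =
      ((univ.filter fun ω : Fin t → Option {k : Fin m // k ≠ h} × Fin n × Fin n ×
          Fin ((R + 1) ^ 2) => rn c ((R + 1) ^ 2) (res h X₀) ω = res h X).card : ℝ) /
          (Fintype.card (Fin t → Option {k : Fin m // k ≠ h} × Fin n × Fin n ×
            Fin ((R + 1) ^ 2)) : ℝ) := by
    unfold lawOf
    rw [hcs]
    congr 1
    norm_cast
    refine card_bij (fun ω _ => fun i => chEquiv h ((R + 1) ^ 2) (ω i)) ?_ ?_ ?_
    · intro ω hω
      rw [mem_filter] at hω ⊢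
      refine ⟨mem_univ _, ?_⟩
      have h1 : starRun h ((R + 1) ^ 2) X₀ ω = X := hω.2
      rw [← (run_spec h ((R + 1) ^ 2) ω hX₀).2, h1]
    · intro ω _ ω' _ e
      funext i
      exact (chEquiv h ((R + 1) ^ 2)).injective (congrFun e i)
    · intro ω' hω'
      rw [mem_filter] at hω'
      refine ⟨fun i => (chEquiv h ((R + 1) ^ 2)).symm (ω' i), ?_, ?_⟩
      · rw [mem_filter]
        refine ⟨mem_univ _, ?_⟩
        obtain ⟨h1, h2⟩ := run_spec h ((R + 1) ^ 2)
          (fun i => (chEquiv h ((R + 1) ^ 2)).symm (ω' i)) hX₀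
        refine res_inj h h1 hX ?_
        rw [h2]
        simp only [Equiv.apply_symm_apply]
        exact hω'.2
      · funext i
        exact Equiv.apply_symm_apply _ _
  rw [hlaw]

end Vale.P328U.STAR
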