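import Vale.Agent.P328.U.Defs

/-! # P328, unary margins: the chain, its contraction, the sampler (helper16) -/

namespace Vale.P328U
open Finset BigOperators

universe u v

section chain
variable {ι : Type u} [Fintype ι] [DecidableEq ι] {κ : Type v} [Fintype κ] [DecidableEq κ]

/-- one step of the chain with implicit hub: `ch = (k, l, j, u)`, `k = none` is the idle (hub) row -/
def stp (c : κ → ℕ) (M : ℕ) (X : ι → κ → ℕ) (ch : Option ι × κ × κ × Fin M) : ι → κ → ℕ :=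
  match ch with
  | (none, _, _, _) => X
  | (some k, l, j, u) =>
    if l ≠ j ∧ (u : ℕ) < X k l * (X k j + 1) ∧ ∑ i, X i j < c j then X + E k j - E k l else X

/-- transition operator -/
noncomputable def PP (c : κ → ℕ) (M : ℕ) (f : (ι → κ → ℕ) → ℝ) (X : ι → κ → ℕ) : ℝ :=
  (∑ ch : Option ι × κ × κ × Fin M, f (stp c M X ch)) / (Fintype.card (Option ι × κ × κ × Fin M) : ℝ)

/-- the contraction rate -/
noncomputable def gapc (m' n R : ℕ) : ℝ :=
  1 / (6 * (n : ℝ) ^ 6 * ((R : ℝ) + 2) ^ 4 * (m' + 1) * ((R : ℝ) + 1) ^ 2)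

end chain

/-- POP : the chain's operator is `1 + L/Λ`, `Λ = (m'+1) n² (R+1)²`, it preserves `Om`, and
`‖LF‖² ≤ Λ D(F)` (Cauchy-Schwarz; the total rate is `≤ Λ/2`). -/
def StmtPOP : Prop :=
  ∀ (ι : Type u) [Fintype ι] [DecidableEq ι] (κ : Type v) [Fintype κ] [DecidableEq κ] [Nonempty κ]
    (r : ι → ℕ) (c : κ → ℕ) (R : ℕ) (F : (ι → κ → ℕ) → ℝ), (∀ k, r k ≤ R) →
    (∀ X ∈ Om r c, ∀ ch, stp c ((R + 1) ^ 2) X ch ∈ Om r c) ∧
    (∀ X ∈ Om r c, PP c ((R + 1) ^ 2) F X =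
      F X + (∑ k, LL c F k X) /
        (((Fintype.card ι : ℝ) + 1) * (Fintype.card κ : ℝ) ^ 2 * ((R : ℝ) + 1) ^ 2)) ∧
    (∑ X ∈ Om r c, (∑ k, LL c F k X) ^ 2 ≤
      (((Fintype.card ι : ℝ) + 1) * (Fintype.card κ : ℝ) ^ 2 * ((R : ℝ) + 1) ^ 2) *
        ∑ k, DD r c F F k)

/-- CTR : contraction (from POP, POI, DIR). -/
def StmtCTR : Prop :=
  ∀ (ι : Type u) [Fintype ι] [DecidableEq ι] (κ : Type v) [Fintype κ] [DecidableEq κ] [Nonempty κ]
    (r : ι → ℕ) (c : κ → ℕ) (R : ℕ) (F : (ι → κ → ℕ) → ℝ), (∀ k, r k ≤ R) →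
    (∀ k, ∑ i, r i + r k + 1 ≤ ∑ j, c j) → ∑ i, r i + 1 ≤ ∑ j, c j →
    ∑ X ∈ Om r c, F X = 0 →
    ∑ X ∈ Om r c, PP c ((R + 1) ^ 2) F X = 0 ∧
    ∑ X ∈ Om r c, PP c ((R + 1) ^ 2) F X ^ 2 ≤
      (1 - gapc (Fintype.card ι) (Fintype.card κ) R) * ∑ X ∈ Om r c, F X ^ 2

section sampler
variable {ι : Type u} [Fintype ι] [DecidableEq ι] {κ : Type v} [Fintype κ] [DecidableEq κ]

/-- run the chain along a sequence of choices -/
def rn (c : κ → ℕ) (M : ℕ) (X : ι → κ → ℕ) {t : ℕ} (ω : Fin t → Option ι × κ × κ × Fin M) :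
    ι → κ → ℕ :=
  (List.ofFn ω).foldl (stp c M) X

end sampler

/-- MIX : total variation bound after `t` steps (from CTR: duality with test functions / symmetric
kernel; `∑_X |law - 1/|Om|| ≤ √|Om| (1-γ)^{t/2}`). -/
def StmtMIX : Prop :=
  ∀ (ι : Type u) [Fintype ι] [DecidableEq ι] (κ : Type v) [Fintype κ] [DecidableEq κ] [Nonempty κ]
    (r : ι → ℕ) (c : κ → ℕ) (R t : ℕ) (X₀ : ι → κ → ℕ), (∀ k, r k ≤ R) →
    (∀ k, ∑ i, r i + r k + 1 ≤ ∑ j, c j) → ∑ i, r i + 1 ≤ ∑ j, c j → X₀ ∈ Om r c →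
    ∑ X ∈ Om r c,
      |((univ.filter fun ω : Fin t → Option ι × κ × κ × Fin ((R + 1) ^ 2) =>
          rn c ((R + 1) ^ 2) X₀ ω = X).card : ℝ) /
          (Fintype.card (Fin t → Option ι × κ × κ × Fin ((R + 1) ^ 2)) : ℝ)
        - 1 / ((Om r c).card : ℝ)| ≤
      Real.sqrt (Om r c).card *
        Real.sqrt ((1 - gapc (Fintype.card ι) (Fintype.card κ) R) ^ t)

/-! ## The statement in the original formulation -/

/-- the set `Ω(r,c)` of the problem -/
def Tables {m n : ℕ} (r : Fin m → ℕ) (c : Fin n → ℕ) : Finset (Fin m → Fin n → ℕ) :=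
  (Fintype.piFinset fun i => Fintype.piFinset fun _ => range (r i + 1)).filter
    fun X => (∀ i, ∑ j, X i j = r i) ∧ ∀ j, ∑ i, X i j = c j

/-- one step of the star chain with hub row `h`: the choice `(k, l, j, u)` moves one unit of row `k`
from column `l` to column `j` and one unit of the hub row `h` from column `j` to column `l`, if
`u < X k l * (X k j + 1)` and the hub has a unit in column `j`. -/
def starStep {m n : ℕ} (h : Fin m) (M : ℕ) (X : Fin m → Fin n → ℕ)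
    (ch : Fin m × Fin n × Fin n × Fin M) : Fin m → Fin n → ℕ :=
  if ch.1 ≠ h ∧ ch.2.1 ≠ ch.2.2.1 ∧ (ch.2.2.2 : ℕ) < X ch.1 ch.2.1 * (X ch.1 ch.2.2.1 + 1) ∧
      1 ≤ X h ch.2.2.1 then
    X + E ch.1 ch.2.2.1 + E h ch.2.1 - E ch.1 ch.2.1 - E h ch.2.2.1
  else X

/-- `t` steps of the star chain, driven by `ω` -/
def starRun {m n : ℕ} (h : Fin m) (M : ℕ) (X : Fin m → Fin n → ℕ) {t : ℕ}
    (ω : Fin t → Fin m × Fin n × Fin n × Fin M) : Fin m → Fin n → ℕ :=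
  (List.ofFn ω).foldl (starStep h M) X

/-- law of a table computed from uniform random choices -/
noncomputable def lawOf {m n : ℕ} {S : Type} [Fintype S] (out : S → Fin m → Fin n → ℕ)
    (X : Fin m → Fin n → ℕ) : ℝ :=
  by classical exact ((univ.filter fun ω : S => out ω = X).card : ℝ) / (Fintype.card S : ℝ)

/-- STAR : the star chain on `Tables r c` with a strictly largest hub row `h`. -/
def StmtSTAR : Prop :=
  ∀ (m n : ℕ) (r : Fin m → ℕ) (c : Fin n → ℕ) (h : Fin m) (R t : ℕ) (X₀ : Fin m → Fin n → ℕ),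
    1 ≤ n → (∀ k, k ≠ h → r k ≤ R ∧ r k < r h) → 1 ≤ r h → X₀ ∈ Tables r c →
    ∑ X ∈ Tables r c, |lawOf (fun ω : Fin t → Fin m × Fin n × Fin n × Fin ((R + 1) ^ 2) =>
        starRun h ((R + 1) ^ 2) X₀ ω) X - 1 / ((Tables r c).card : ℝ)| ≤
      Real.sqrt (Tables r c).card * Real.sqrt ((1 - gapc (m - 1) n R) ^ t)

/-- one attempt: run the star chain for the margins `r + e_h`, `c + e_J` from `X₀ + E h J`, and
remove the extra unit from cell `(h, J)` if possible -/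
def attempt {m n : ℕ} (h : Fin m) (J : Fin n) (M : ℕ) (X₀ : Fin m → Fin n → ℕ) {t : ℕ}
    (ω : Fin t → Fin m × Fin n × Fin n × Fin M) : Option (Fin m → Fin n → ℕ) :=
  let Y := starRun h M (X₀ + E h J) ω
  if 1 ≤ Y h J then some (Y - E h J) else none

/-- the sampler: first successful attempt out of `K`, else `X₀` -/
def sampler {m n : ℕ} (h : Fin m) (J : Fin n) (M : ℕ) (X₀ : Fin m → Fin n → ℕ) {K t : ℕ}
    (ω : Fin K → Fin t → Fin m × Fin n × Fin n × Fin M) : Fin m → Fin n → ℕ :=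
  (((List.ofFn ω).map (attempt h J M X₀)).reduceOption.head?).getD X₀

/-- ACC : the extra unit costs at most a factor `m n`. -/
def StmtACC : Prop :=
  ∀ (m n : ℕ) (r : Fin m → ℕ) (c : Fin n → ℕ) (h : Fin m) (J : Fin n),
    ((Tables (r + Pi.single h 1) (c + Pi.single J 1)).filter fun Y => 1 ≤ Y h J) =
      (Tables r c).map ⟨fun X => X + E h J, fun _ _ hh => add_right_cancel hh⟩ ∧
    (Tables (r + Pi.single h 1) (c + Pi.single J 1)).card ≤ m * n * (Tables r c).card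

/-- FIN : the almost uniform sampler. `N` total sum, `T` steps per attempt, `K` attempts. -/
def StmtFIN : Prop :=
  ∀ (m n N : ℕ) (r : Fin m → ℕ) (c : Fin n → ℕ) (h : Fin m) (J : Fin n) (ε : ℝ) (K T : ℕ)
    (X₀ : Fin m → Fin n → ℕ),
    (∀ k, r k ≤ r h) → ∑ i, r i = N → ∑ j, c j = N → X₀ ∈ Tables r c → 0 < ε → ε < 1 →
    2 * m * n * Real.log (4 / ε) ≤ K →
    (2 * (6 * (n : ℝ) ^ 6 * m * ((N : ℝ) + 2) ^ 6)) *
      (m * n * Real.log (N + 2) + Real.log (8 * m * n / ε)) ≤ T →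
    (1 / 2) * ∑ X ∈ Tables r c, |lawOf (fun ω : Fin K → Fin T → Fin m × Fin n × Fin n ×
        Fin ((r h + 1) ^ 2) => sampler h J ((r h + 1) ^ 2) X₀ ω) X - 1 / ((Tables r c).card : ℝ)| ≤ ε

end Vale.P328U
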