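import Vale.Agent.P328.U.Defs
import Vale.Agent.P328.Scd

/-! # P328U, module CRY: crystal injection -/

namespace Vale.P328U.CRY

open Finset Vale.Agent.P328.Scd

universe v

section

variable {κ : Type v} [Fintype κ] [DecidableEq κ] (S : Finset κ) (s : κ → ℕ)

/-- the ones, along an enumeration of `S` -/
noncomputable def xs (w : κ → ℕ) (k : ℕ) : ℕ :=
  if h : k < S.card then w (S.equivFin.symm ⟨k, h⟩) else 0

/-- the zeros -/
noncomputable def ys (w : κ → ℕ) (k : ℕ) : ℕ :=
  if h : k < S.card then s (S.equivFin.symm ⟨k, h⟩) - w (S.equivFin.symm ⟨k, h⟩) else 0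

theorem sum_enum (g : κ → ℕ) : ∑ k ∈ range S.card,
    (if h : k < S.card then g (S.equivFin.symm ⟨k, h⟩) else 0) = ∑ j ∈ S, g j := by
  classical
  rw [Finset.sum_range]
  have h1 : ∀ i : Fin S.card, (if h : (i : ℕ) < S.card then g (S.equivFin.symm ⟨i, h⟩) else 0) =
      g (S.equivFin.symm i) := by
    intro i
    rw [dif_pos i.2]
  rw [sum_congr rfl (fun i _ => h1 i), ← Finset.sum_coe_sort S g]
  exact Equiv.sum_comp S.equivFin.symm (fun a => g a)

theorem sum_xs (w : κ → ℕ) : ∑ k ∈ range S.card, xs S w k = ∑ j ∈ S, w j := sum_enum S w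

theorem sum_ys {w : κ → ℕ} : ∑ k ∈ range S.card, ys S s w k = ∑ j ∈ S, (s j - w j) :=
  sum_enum S (fun j => s j - w j)

theorem free_pos {w : κ → ℕ} (hw : w ≤ s) (h : 2 * ∑ j ∈ S, w j < ∑ j ∈ S, s j) :
    1 ≤ ∑ k ∈ range S.card, (ys S s w k - dem (xs S w) (ys S s w) k) := by
  have h1 := dem_bal (xs S w) (ys S s w) S.card
  rw [sum_xs, sum_ys] at h1
  have h2 : ∑ j ∈ S, (s j - w j) + ∑ j ∈ S, w j = ∑ j ∈ S, s j := by
    rw [← sum_add_distrib]
    exact sum_congr rfl (fun j _ => Nat.sub_add_cancel (hw j))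
  omega

/-- the successor -/
noncomputable def nx (w : κ → ℕ) : κ → ℕ := by
  classical
  exact if h : ∃ i, Lst (xs S w) (ys S s w) S.card i then
    w + e (S.equivFin.symm ⟨h.choose, h.choose_spec.1⟩ : κ) else w

theorem nx_spec {w : κ → ℕ} (hw : w ≤ s) (h : 2 * ∑ j ∈ S, w j < ∑ j ∈ S, s j) :
    ∃ (i : ℕ) (hi : i < S.card), Lst (xs S w) (ys S s w) S.card i ∧
      nx S s w = w + e (S.equivFin.symm ⟨i, hi⟩ : κ) := by
  have hex := exists_Lst (xs S w) (ys S s w) S.card (free_pos S s hw h)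
  refine ⟨hex.choose, hex.choose_spec.1, hex.choose_spec, ?_⟩
  unfold nx
  rw [dif_pos hex]

theorem lst_lt {w : κ → ℕ} {i : ℕ} (hi : i < S.card)
    (hL : Lst (xs S w) (ys S s w) S.card i) :
    w (S.equivFin.symm ⟨i, hi⟩) < s (S.equivFin.symm ⟨i, hi⟩) := by
  have h1 := hL.2.1
  unfold ys at h1
  rw [dif_pos hi] at h1
  omega

theorem xs_flip {w : κ → ℕ} {i : ℕ} (hi : i < S.card) (k : ℕ) :
    xs S (w + e (S.equivFin.symm ⟨i, hi⟩ : κ)) k = xs S w k + if k = i then 1 else 0 := by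
  unfold xs
  by_cases hk : k < S.card
  · rw [dif_pos hk, dif_pos hk, Pi.add_apply]
    congr 1
    unfold e
    rw [Pi.single_apply]
    by_cases hki : k = i
    · subst hki
      rw [if_pos rfl, if_pos rfl]
    · rw [if_neg hki, if_neg]
      intro h
      have h1 := S.equivFin.symm.injective (Subtype.ext h)
      exact hki (by simpa using h1)
  · rw [dif_neg hk, dif_neg hk, if_neg (by omega)]

theorem ys_flip {w : κ → ℕ} {i : ℕ} (hi : i < S.card) (k : ℕ) :
    ys S s (w + e (S.equivFin.symm ⟨i, hi⟩ : κ)) k = ys S s w k - if k = i then 1 else 0 := by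
  unfold ys
  by_cases hk : k < S.card
  · rw [dif_pos hk, dif_pos hk, Pi.add_apply]
    unfold e
    rw [Pi.single_apply]
    by_cases hki : k = i
    · subst hki
      rw [if_pos rfl, if_pos rfl]
      omega
    · rw [if_neg hki, if_neg]
      · omega
      · intro h
        have h1 := S.equivFin.symm.injective (Subtype.ext h)
        exact hki (by simpa using h1)
  · rw [dif_neg hk, dif_neg hk]
    omega

end

theorem thm : StmtCRY.{v} := by
  intro κ _ _ S s
  refine ⟨nx S s, ?_, ?_⟩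
  · intro w hw h
    obtain ⟨i, hi, hL, hn⟩ := nx_spec S s hw h
    exact ⟨S.equivFin.symm ⟨i, hi⟩, (S.equivFin.symm ⟨i, hi⟩).2, lst_lt S s hi hL, hn⟩
  · intro w w' hw hw' h h' heq
    obtain ⟨i, hi, hL, hn⟩ := nx_spec S s hw h
    obtain ⟨i', hi', hL', hn'⟩ := nx_spec S s hw' h'
    have hii : i = i' := by
      refine flip_inj (u := xs S (nx S s w)) (v := ys S s (nx S s w)) hL hL' ?_ ?_ ?_ ?_
      · intro k
        rw [hn, xs_flip]
      · intro k
        rw [hn, ys_flip]
      · intro k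
        rw [heq, hn', xs_flip]
      · intro k
        rw [heq, hn', ys_flip]
    subst hii
    rw [hn, hn'] at heq
    exact add_right_cancel heq

end Vale.P328U.CRY
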