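import Vale.Agent.P328.U.Defs2

/-! # P328, module CTR: contraction -/

namespace Vale.P328U
open Finset BigOperators

universe u v

theorem CTR.DD_one {ι : Type u} [Fintype ι] [DecidableEq ι] {κ : Type v} [Fintype κ]
    [DecidableEq κ] (r : ι → ℕ) (c : κ → ℕ) (F : (ι → κ → ℕ) → ℝ) (k : ι) :
    DD r c F (fun _ => 1) k = 0 := by
  unfold DD
  simp

theorem CTR.sumL {ι : Type u} [Fintype ι] [DecidableEq ι] {κ : Type v} [Fintype κ]
    [DecidableEq κ] (hDIR : StmtDIR.{u, v}) (r : ι → ℕ) (c : κ → ℕ) (F G : (ι → κ → ℕ) → ℝ) :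
    ∑ X ∈ Om r c, G X * (∑ k, LL c F k X) = - ∑ k, DD r c F G k := by
  have h : ∀ k, ∑ X ∈ Om r c, G X * LL c F k X = - DD r c F G k := by
    intro k
    have := (hDIR ι κ r c F G k).1
    rw [← this, ← sum_neg_distrib]
    exact sum_congr rfl fun X _ => by ring
  calc ∑ X ∈ Om r c, G X * (∑ k, LL c F k X) = ∑ k, ∑ X ∈ Om r c, G X * LL c F k X := by
        rw [sum_comm]
        exact sum_congr rfl fun X _ => by rw [mul_sum]
    _ = - ∑ k, DD r c F G k := by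
        rw [← sum_neg_distrib]
        exact sum_congr rfl fun k _ => h k

theorem CTR.thm (hPOP : StmtPOP.{u, v}) (hPOI : StmtPOI.{u, v}) (hDIR : StmtDIR.{u, v}) :
    StmtCTR.{u, v} := by
  intro ι _ _ κ _ _ _ r c R F hR hr1 hr2 hF
  obtain ⟨-, hP, hL⟩ := hPOP ι κ r c R F hR
  have hPoi := hPOI ι κ r c R F hR hr1 hr2 hF
  obtain ⟨Λ, hΛ⟩ : ∃ Λ : ℝ, Λ = ((Fintype.card ι : ℝ) + 1) * (Fintype.card κ : ℝ) ^ 2 *
    ((R : ℝ) + 1) ^ 2 := ⟨_, rfl⟩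
  obtain ⟨D, hD⟩ : ∃ D : ℝ, D = ∑ k, DD r c F F k := ⟨_, rfl⟩
  obtain ⟨A, hA⟩ : ∃ A : ℝ, A = 6 * (Fintype.card κ : ℝ) ^ 4 * ((R : ℝ) + 2) ^ 4 := ⟨_, rfl⟩
  obtain ⟨S, hS⟩ : ∃ S : ℝ, S = ∑ X ∈ Om r c, F X ^ 2 := ⟨_, rfl⟩
  rw [← hΛ] at hP hL
  rw [← hD] at hL
  rw [← hA, ← hD, ← hS] at hPoi
  have hn : 0 < (Fintype.card κ : ℝ) := by exact_mod_cast Fintype.card_pos
  have hΛ0 : 0 < Λ := by rw [hΛ]; positivity
  have hA0 : 0 < A := by rw [hA]; positivity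
  have hFL : ∑ X ∈ Om r c, F X * (∑ k, LL c F k X) = - D := by
    rw [hD]; exact CTR.sumL hDIR r c F F
  have h1L : ∑ X ∈ Om r c, (∑ k, LL c F k X) = 0 := by
    have h := CTR.sumL hDIR r c F (fun _ => 1)
    simp only [one_mul, CTR.DD_one, sum_const_zero, neg_zero] at h
    exact h
  constructor
  · rw [sum_congr rfl hP, sum_add_distrib, hF, ← sum_div, h1L]
    simp
  · have e1 : ∀ X ∈ Om r c, PP c ((R + 1) ^ 2) F X ^ 2 = F X ^ 2 +
        (2 / Λ) * (F X * (∑ k, LL c F k X)) + (1 / Λ ^ 2) * (∑ k, LL c F k X) ^ 2 := by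
      intro X hX
      rw [hP X hX]
      field_simp
      ring
    rw [sum_congr rfl e1, sum_add_distrib, sum_add_distrib, ← mul_sum, ← mul_sum, hFL, ← hS]
    have hg : gapc (Fintype.card ι) (Fintype.card κ) R = 1 / (Λ * A) := by
      unfold gapc
      rw [hΛ, hA]
      congr 1
      ring
    rw [hg]
    have h2 : (1 / Λ ^ 2) * ∑ X ∈ Om r c, (∑ k, LL c F k X) ^ 2 ≤ D / Λ := by
      calc (1 / Λ ^ 2) * ∑ X ∈ Om r c, (∑ k, LL c F k X) ^ 2 ≤ (1 / Λ ^ 2) * (Λ * D) :=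
            mul_le_mul_of_nonneg_left hL (by positivity)
        _ = D / Λ := by field_simp
    have h3 : S / (Λ * A) ≤ D / Λ := by
      rw [div_le_div_iff₀ (by positivity) hΛ0]
      nlinarith
    have h4 : (1 - 1 / (Λ * A)) * S = S - S / (Λ * A) := by ring
    have h5 : 2 / Λ * -D = - (D / Λ) - D / Λ := by ring
    rw [h4, h5]
    linarith

end Vale.P328U
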