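import Vale.Agent.P328.U.Defs2

/-!
# P328, unary margins: FIN (helper19), the almost uniform sampler from STAR and ACC
-/

namespace Vale.P328U.FIN
open Finset BigOperators Vale.P328U

/-- the first success, abstractly -/
def sam {α S : Type} (at_ : S → Option α) (x0 : α) {K : ℕ} (ω : Fin K → S) : α :=
  (((List.ofFn ω).map at_).reduceOption.head?).getD x0

lemma sam_cons {α S : Type} (at_ : S → Option α) (x0 : α) {K : ℕ} (s : S) (ω : Fin K → S) :
    sam at_ x0 (Fin.cons s ω : Fin (K + 1) → S) = (at_ s).getD (sam at_ x0 ω) := by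
  unfold sam
  rw [List.ofFn_succ]
  simp only [Fin.cons_zero, Fin.cons_succ, List.map_cons]
  cases h : at_ s with
  | none => simp [List.reduceOption_cons_of_none]
  | some a => simp [List.reduceOption_cons_of_some]

open Classical in
/-- probability of an event -/
noncomputable def pr {S : Type} [Fintype S] (p : S → Prop) : ℝ :=
  (∑ ω : S, if p ω then (1 : ℝ) else 0) / (Fintype.card S : ℝ)

lemma law_eq {m n : ℕ} {S : Type} [Fintype S] (out : S → Fin m → Fin n → ℕ)
    (X : Fin m → Fin n → ℕ) : lawOf out X = pr (fun ω => out ω = X) := by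
  classical
  unfold lawOf pr
  congr 1
  rw [Finset.card_filter]
  push_cast
  apply Finset.sum_congr rfl
  intro ω _
  congr

lemma pr_rec {α S : Type} [Fintype S] [Nonempty S] (at_ : S → Option α) (x0 X : α) (K : ℕ) :
    pr (fun ω : Fin (K + 1) → S => sam at_ x0 ω = X) =
      pr (fun s => at_ s = some X) +
        pr (fun s => at_ s = none) * pr (fun ω : Fin K → S => sam at_ x0 ω = X) := by
  classical
  unfold pr
  have hS : (0 : ℝ) < Fintype.card S := by exact_mod_cast Fintype.card_pos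
  have h1 : (∑ ω : Fin (K + 1) → S, if sam at_ x0 ω = X then (1 : ℝ) else 0) =
      ∑ s : S, ∑ ω : Fin K → S, if (at_ s).getD (sam at_ x0 ω) = X then (1 : ℝ) else 0 := by
    rw [← Fintype.sum_prod_type']
    rw [← Equiv.sum_comp (Fin.consEquiv (fun _ : Fin (K + 1) => S))]
    apply Finset.sum_congr rfl
    rintro ⟨s, ω⟩ _
    exact congrArg (fun z => if z = X then (1 : ℝ) else 0) (sam_cons at_ x0 s ω)
  have h2 : ∀ s : S, (∑ ω : Fin K → S, if (at_ s).getD (sam at_ x0 ω) = X then (1 : ℝ) else 0) =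
      (if at_ s = some X then (1 : ℝ) else 0) * (Fintype.card S : ℝ) ^ K +
        (if at_ s = none then (1 : ℝ) else 0) *
          ∑ ω : Fin K → S, if sam at_ x0 ω = X then (1 : ℝ) else 0 := by
    intro s
    cases h : at_ s with
    | none => simp
    | some a =>
      simp only [Option.getD_some, Option.some.injEq, reduceCtorEq, if_false, zero_mul, add_zero]
      by_cases hX : a = X
      · simp [hX]
      · simp [hX]
  rw [h1, Finset.sum_congr rfl (fun s _ => h2 s), Finset.sum_add_distrib, ← Finset.sum_mul,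
    ← Finset.sum_mul]
  have hc : (Fintype.card (Fin (K + 1) → S) : ℝ) = (Fintype.card S : ℝ) ^ (K + 1) := by
    simp
  have hc' : (Fintype.card (Fin K → S) : ℝ) = (Fintype.card S : ℝ) ^ K := by
    simp
  rw [hc, hc']
  field_simp
  ring

lemma pr_nonneg {S : Type} [Fintype S] (p : S → Prop) : 0 ≤ pr p := by
  classical
  unfold pr
  apply div_nonneg _ (Nat.cast_nonneg _)
  apply Finset.sum_nonneg
  intro ω _
  split_ifs <;> norm_num

/-- disjoint events inside an event -/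
lemma sum_pr_le {S α : Type} [Fintype S] [Nonempty S] (out : S → α) (G : Finset α)
    (p : S → Prop) (h : ∀ s, out s ∈ G → p s) :
    ∑ Y ∈ G, pr (fun s => out s = Y) ≤ pr p := by
  classical
  unfold pr
  rw [← Finset.sum_div]
  apply div_le_div_of_nonneg_right _ (Nat.cast_nonneg _)
  rw [Finset.sum_comm]
  apply Finset.sum_le_sum
  intro s _
  by_cases hs : out s ∈ G
  · rw [if_pos (h s hs)]
    rw [Finset.sum_ite_eq G (out s) (fun _ => (1 : ℝ))]
    rw [if_pos hs]
  · rw [Finset.sum_ite_eq G (out s) (fun _ => (1 : ℝ))]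
    rw [if_neg hs]
    split_ifs <;> norm_num

lemma pr_compl {S : Type} [Fintype S] [Nonempty S] (p : S → Prop) :
    pr p = 1 - pr (fun s => ¬ p s) := by
  classical
  unfold pr
  have hS : (0 : ℝ) < Fintype.card S := by exact_mod_cast Fintype.card_pos
  have e : ∀ ω : S, (@ite ℝ (¬ p ω) (Classical.propDecidable _) 1 0) =
      1 - (if p ω then (1 : ℝ) else 0) := by
    intro ω
    by_cases h : p ω <;> simp [h]
  rw [Finset.sum_congr rfl (fun ω _ => e ω), Finset.sum_sub_distrib]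
  simp only [Finset.sum_const, Finset.card_univ, nsmul_eq_mul, mul_one]
  field_simp
  ring

/-- the recursion for the distance -/
lemma dist_rec {α S : Type} [Fintype S] [Nonempty S] (at_ : S → Option α)
    (x0 : α) (T : Finset α) (hx0 : x0 ∈ T) (u η A : ℝ) (hu : u * T.card = 1) (hu0 : 0 ≤ u)
    (hA : A = 1 - pr (fun s => at_ s = none)) (hA0 : 0 < A)
    (hη : ∑ X ∈ T, |pr (fun s => at_ s = some X) - A * u| ≤ η) (K : ℕ) :
    ∑ X ∈ T, |pr (fun ω : Fin K → S => sam at_ x0 ω = X) - u| ≤ η / A + 2 * (1 - A) ^ K := by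
  classical
  have hη0 : 0 ≤ η := le_trans (Finset.sum_nonneg (fun _ _ => abs_nonneg _)) hη
  have hA1 : 0 ≤ 1 - A := by
    rw [hA]
    have := pr_nonneg (fun s => at_ s = none)
    linarith
  induction K with
  | zero =>
    have h0 : ∀ X, pr (fun ω : Fin 0 → S => sam at_ x0 ω = X) = if x0 = X then (1 : ℝ) else 0 := by
      intro X
      unfold pr
      simp [sam]
    have h1 : ∀ X ∈ T, |pr (fun ω : Fin 0 → S => sam at_ x0 ω = X) - u| ≤
        (if x0 = X then (1 : ℝ) else 0) + u := by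
      intro X _
      rw [h0]
      refine (abs_sub _ _).trans ?_
      rw [abs_of_nonneg hu0]
      gcongr
      split_ifs <;> simp
    refine (Finset.sum_le_sum h1).trans ?_
    rw [Finset.sum_add_distrib, Finset.sum_ite_eq T x0 (fun _ => (1 : ℝ)), if_pos hx0,
      Finset.sum_const, nsmul_eq_mul]
    have : (0 : ℝ) ≤ η / A := by positivity
    rw [pow_zero]
    nlinarith
  | succ K ih =>
    have h1 : ∀ X ∈ T, |pr (fun ω : Fin (K + 1) → S => sam at_ x0 ω = X) - u| ≤
        |pr (fun s => at_ s = some X) - A * u| +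
          (1 - A) * |pr (fun ω : Fin K → S => sam at_ x0 ω = X) - u| := by
      intro X _
      rw [pr_rec]
      have e1 : pr (fun s => at_ s = none) = 1 - A := by rw [hA]; ring
      rw [e1]
      have e2 : pr (fun s => at_ s = some X) +
          (1 - A) * pr (fun ω : Fin K → S => sam at_ x0 ω = X) - u =
          (pr (fun s => at_ s = some X) - A * u) +
            (1 - A) * (pr (fun ω : Fin K → S => sam at_ x0 ω = X) - u) := by ring
      rw [e2]
      refine (abs_add_le _ _).trans ?_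
      rw [abs_mul, abs_of_nonneg hA1]
    refine (Finset.sum_le_sum h1).trans ?_
    rw [Finset.sum_add_distrib, ← Finset.mul_sum]
    have h2 : (1 - A) * ∑ X ∈ T, |pr (fun ω : Fin K → S => sam at_ x0 ω = X) - u| ≤
        (1 - A) * (η / A + 2 * (1 - A) ^ K) := mul_le_mul_of_nonneg_left ih hA1
    have h3 : (1 - A) * (η / A + 2 * (1 - A) ^ K) + η = η / A + 2 * (1 - A) ^ (K + 1) := by
      field_simp
      ring
    linarith

variable {m n : ℕ}

lemma att_some (h : Fin m) (J : Fin n) (M : ℕ) (X₀ X : Fin m → Fin n → ℕ) {t : ℕ}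
    (ω : Fin t → Fin m × Fin n × Fin n × Fin M) :
    attempt h J M X₀ ω = some X ↔ starRun h M (X₀ + E h J) ω = X + E h J := by
  unfold attempt
  simp only
  have hE : (E h J : Fin m → Fin n → ℕ) h J = 1 := by simp [E, e]
  split_ifs with h1
  · rw [Option.some.injEq]
    constructor
    · intro h2
      rw [← h2]
      funext a b
      simp only [Pi.add_apply, Pi.sub_apply]
      by_cases hab : a = h ∧ b = J
      · obtain ⟨rfl, rfl⟩ := hab
        rw [hE]
        omega
      · have : (E h J : Fin m → Fin n → ℕ) a b = 0 := by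
          simp only [E, e, Pi.single_apply]
          by_cases ha : a = h
          · subst ha
            have hb : b ≠ J := fun hb => hab ⟨rfl, hb⟩
            simp [hb]
          · simp [ha]
        rw [this]
        omega
    · intro h2
      rw [h2]
      simp
  · constructor
    · intro h2
      cases h2
    · intro h2
      exfalso
      apply h1
      rw [h2]
      simp only [Pi.add_apply]
      rw [hE]
      omega

lemma att_none (h : Fin m) (J : Fin n) (M : ℕ) (X₀ : Fin m → Fin n → ℕ) {t : ℕ}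
    (ω : Fin t → Fin m × Fin n × Fin n × Fin M) :
    attempt h J M X₀ ω = none ↔ ¬ 1 ≤ starRun h M (X₀ + E h J) ω h J := by
  unfold attempt
  simp only
  split_ifs with h1
  · simp [h1]
  · simp only [true_iff]
    exact h1

lemma card_tables (r : Fin m → ℕ) (c : Fin n → ℕ) (N : ℕ) (hr : ∀ i, r i ≤ N + 1) :
    (Tables r c).card ≤ (N + 2) ^ (m * n) := by
  unfold Tables
  refine (Finset.card_filter_le _ _).trans ?_
  rw [Fintype.card_piFinset]
  have : ∀ i : Fin m, (Fintype.piFinset fun _ : Fin n => range (r i + 1)).card ≤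
      (N + 2) ^ n := by
    intro i
    rw [Fintype.card_piFinset]
    simp only [Finset.card_range, Finset.prod_const, Finset.card_univ, Fintype.card_fin]
    exact Nat.pow_le_pow_left (by have := hr i; omega) _
  refine (Finset.prod_le_prod' (fun i _ => this i)).trans ?_
  simp only [Finset.prod_const, Finset.card_univ, Fintype.card_fin]
  rw [← pow_mul, mul_comm n m]

/-- the numerical estimate: distance after one run -/
lemma delta_le (N R : ℕ) (hR : R ≤ N) (hm : 1 ≤ m) (hn : 1 ≤ n) (ε : ℝ) (h0 : 0 < ε) (h1 : ε < 1)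
    (C T : ℕ) (hC : C ≤ (N + 2) ^ (m * n))
    (hT : (2 * (6 * (n : ℝ) ^ 6 * m * ((N : ℝ) + 2) ^ 6)) *
      (m * n * Real.log (N + 2) + Real.log (8 * m * n / ε)) ≤ T) :
    Real.sqrt C * Real.sqrt ((1 - gapc (m - 1) n R) ^ T) ≤ ε / (8 * m * n) := by
  have hm' : (1 : ℝ) ≤ m := by exact_mod_cast hm
  have hn' : (1 : ℝ) ≤ n := by exact_mod_cast hn
  have hN' : (0 : ℝ) ≤ N := Nat.cast_nonneg _
  have hR' : (R : ℝ) ≤ N := by exact_mod_cast hR
  have hR0 : (0 : ℝ) ≤ R := Nat.cast_nonneg _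
  have hmm : (((m - 1 : ℕ) : ℝ) + 1) = m := by
    rw [Nat.cast_sub hm]
    push_cast
    ring
  set D : ℝ := 6 * (n : ℝ) ^ 6 * m * ((N : ℝ) + 2) ^ 6 with hD
  have hDpos : 0 < D := by positivity
  set g := gapc (m - 1) n R with hg
  have hgD : 1 / D ≤ g := by
    rw [hg]
    unfold gapc
    rw [hmm]
    apply one_div_le_one_div_of_le
    · positivity
    · have a1 : ((R : ℝ) + 2) ^ 4 ≤ ((N : ℝ) + 2) ^ 4 := by gcongr
      have a2 : ((R : ℝ) + 1) ^ 2 ≤ ((N : ℝ) + 2) ^ 2 := by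
        apply pow_le_pow_left₀ (by positivity)
        linarith
      calc 6 * (n : ℝ) ^ 6 * ((R : ℝ) + 2) ^ 4 * m * ((R : ℝ) + 1) ^ 2
          ≤ 6 * (n : ℝ) ^ 6 * ((N : ℝ) + 2) ^ 4 * m * ((N : ℝ) + 2) ^ 2 := by
            gcongr
        _ = D := by rw [hD]; ring
  have hg0 : 0 < g := lt_of_lt_of_le (by positivity) hgD
  have hg1 : g ≤ 1 := by
    rw [hg]
    unfold gapc
    rw [hmm, div_le_one (by positivity)]
    have b1 : (1 : ℝ) ≤ (n : ℝ) ^ 6 := one_le_pow₀ hn'
    have b2 : (1 : ℝ) ≤ ((R : ℝ) + 2) ^ 4 := one_le_pow₀ (by linarith)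
    have b3 : (1 : ℝ) ≤ ((R : ℝ) + 1) ^ 2 := one_le_pow₀ (by linarith)
    have c1 : (1 : ℝ) ≤ 6 * (n : ℝ) ^ 6 := by linarith
    have c2 : (1 : ℝ) ≤ 6 * (n : ℝ) ^ 6 * ((R : ℝ) + 2) ^ 4 := one_le_mul_of_one_le_of_one_le c1 b2
    have c3 := one_le_mul_of_one_le_of_one_le c2 hm'
    exact one_le_mul_of_one_le_of_one_le c3 b3
  set L := (m : ℝ) * n * Real.log (N + 2) with hL
  set B := Real.log (8 * m * n / ε) with hB
  have hlog0 : 0 ≤ Real.log ((N : ℝ) + 2) := Real.log_nonneg (by linarith)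
  have hL0 : 0 ≤ L := by rw [hL]; positivity
  have hB0 : 0 ≤ B := by
    rw [hB]
    apply Real.log_nonneg
    rw [le_div_iff₀ h0]
    nlinarith [one_le_mul_of_one_le_of_one_le hm' hn']
  -- g * T ≥ 2 (L + B)
  have hgT : 2 * (L + B) ≤ g * T := by
    have : 2 * D * (L + B) ≤ T := by
      calc 2 * D * (L + B) = (2 * D) * (L + B) := by ring
        _ ≤ T := hT
    calc 2 * (L + B) = (1 / D) * (2 * D * (L + B)) := by field_simp
      _ ≤ g * T := by
          apply mul_le_mul hgD this (by positivity) hg0.le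
  have hpow : (1 - g) ^ T ≤ Real.exp (-(g * T)) := by
    have : 1 - g ≤ Real.exp (-g) := by
      have := Real.add_one_le_exp (-g)
      linarith
    calc (1 - g) ^ T ≤ (Real.exp (-g)) ^ T := pow_le_pow_left₀ (by linarith) this _
      _ = Real.exp (-(g * T)) := by
          rw [← Real.exp_nat_mul]
          congr 1
          ring
  have hC' : (C : ℝ) ≤ Real.exp L := by
    have : (C : ℝ) ≤ ((N : ℝ) + 2) ^ (m * n) := by exact_mod_cast hC
    refine this.trans (le_of_eq ?_)
    rw [hL, ← Real.exp_log (show (0 : ℝ) < (N : ℝ) + 2 by positivity), ← Real.exp_nat_mul]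
    rw [Real.log_exp]
    push_cast
    ring_nf
  rw [← Real.sqrt_mul (Nat.cast_nonneg _)]
  have hprod : (C : ℝ) * (1 - g) ^ T ≤ Real.exp (-(2 * B)) := by
    calc (C : ℝ) * (1 - g) ^ T ≤ Real.exp L * Real.exp (-(g * T)) := by
          apply mul_le_mul hC' hpow (pow_nonneg (by linarith) _) (Real.exp_pos _).le
      _ = Real.exp (L - g * T) := by rw [← Real.exp_add]; congr 1
      _ ≤ Real.exp (-(2 * B)) := by
          apply Real.exp_le_exp.mpr
          linarith
  calc Real.sqrt ((C : ℝ) * (1 - g) ^ T) ≤ Real.sqrt (Real.exp (-(2 * B))) :=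
        Real.sqrt_le_sqrt hprod
    _ = Real.exp (-B) := by
        rw [show -(2 * B) = (-B) + (-B) by ring, Real.exp_add, Real.sqrt_mul_self (Real.exp_pos _).le]
    _ = ε / (8 * m * n) := by
        rw [hB, Real.exp_neg, Real.exp_log (by positivity)]
        field_simp

lemma num1 (ε δ A : ℝ) (hm' : (1 : ℝ) ≤ m) (hn' : (1 : ℝ) ≤ n)
    (hδ : δ = ε / (8 * m * n)) (hε : 0 < ε) (hA : 1 / (2 * (m : ℝ) * n) ≤ A) :
    2 * δ / A ≤ ε / 2 := by
  have hA0 : 0 < A := lt_of_lt_of_le (by positivity) hA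
  rw [div_le_iff₀ hA0]
  have : 2 * δ = ε / 2 * (1 / (2 * m * n)) := by
    rw [hδ]
    field_simp
    norm_num
  rw [this]
  exact mul_le_mul_of_nonneg_left hA (by positivity)

lemma num2 (ε A : ℝ) (K : ℕ) (hm' : (1 : ℝ) ≤ m) (hn' : (1 : ℝ) ≤ n) (hε : 0 < ε)
    (hA : 1 / (2 * (m : ℝ) * n) ≤ A) (hA1 : 0 ≤ 1 - A)
    (hK : 2 * m * n * Real.log (4 / ε) ≤ K) : (1 - A) ^ K ≤ ε / 4 := by
  have q1 : 1 - A ≤ Real.exp (-(1 / (2 * m * n))) := by
    have := Real.add_one_le_exp (-(1 / (2 * (m : ℝ) * n)))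
    linarith
  have q2 : Real.log (4 / ε) ≤ (K : ℝ) * (1 / (2 * m * n)) := by
    rw [mul_one_div, le_div_iff₀ (by positivity)]
    linarith
  calc (1 - A) ^ K ≤ (Real.exp (-(1 / (2 * m * n)))) ^ K := pow_le_pow_left₀ hA1 q1 _
    _ = Real.exp (-((K : ℝ) * (1 / (2 * m * n)))) := by
        rw [← Real.exp_nat_mul]
        congr 1
        ring
    _ ≤ Real.exp (-Real.log (4 / ε)) := Real.exp_le_exp.mpr (by linarith)
    _ = ε / 4 := by
        rw [Real.exp_neg, Real.exp_log (by positivity)]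
        field_simp

lemma num3 (ε δ A a b : ℝ) (hm' : (1 : ℝ) ≤ m) (hn' : (1 : ℝ) ≤ n) (hε0 : 0 < ε) (hε1 : ε < 1)
    (hδ : δ = ε / (8 * m * n)) (ha : 0 < a) (hab : a ≤ m * n * b)
    (hA : |A - 1 / a * b| ≤ δ) : 1 / (2 * (m : ℝ) * n) ≤ A := by
  have g1 := (abs_le.mp hA).1
  have g2 : 1 / ((m : ℝ) * n) ≤ 1 / a * b := by
    rw [one_div_mul_eq_div, div_le_div_iff₀ (by positivity) ha]
    linarith
  have g3 : δ ≤ 1 / (8 * m * n) := by
    rw [hδ]
    gcongr
  have g4 : 1 / (2 * (m : ℝ) * n) + 1 / (8 * m * n) ≤ 1 / (m * n) := by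
    have hp : 0 < 1 / ((m : ℝ) * n) := by positivity
    have e1 : 1 / (2 * (m : ℝ) * n) = 1 / 2 * (1 / ((m : ℝ) * n)) := by field_simp
    have e2 : 1 / (8 * (m : ℝ) * n) = 1 / 8 * (1 / ((m : ℝ) * n)) := by field_simp
    rw [e1, e2]
    linarith
  linarith

/-- the abstract part: from the distance of one run to the distance of the sampler -/
lemma core {S : Type} [Fintype S] [Nonempty S] (h : Fin m) (J : Fin n)
    (out : S → Fin m → Fin n → ℕ) (at_ : S → Option (Fin m → Fin n → ℕ))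
    (X₀ : Fin m → Fin n → ℕ) (Tb T' : Finset (Fin m → Fin n → ℕ)) (ε δ : ℝ) (K : ℕ)
    (hm' : (1 : ℝ) ≤ m) (hn' : (1 : ℝ) ≤ n) (hX₀ : X₀ ∈ Tb) (hX₀' : X₀ + E h J ∈ T')
    (hε0 : 0 < ε) (hε1 : ε < 1)
    (hsome : ∀ X ω, at_ ω = some X ↔ out ω = X + E h J)
    (hnone : ∀ ω, at_ ω = none ↔ ¬ 1 ≤ out ω h J)
    (hG : (T'.filter fun Y => 1 ≤ Y h J) =
      Tb.map ⟨fun X => X + E h J, fun _ _ hh => add_right_cancel hh⟩)
    (hcard : T'.card ≤ m * n * Tb.card) (hδdef : δ = ε / (8 * m * n))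
    (hδ : ∑ Y ∈ T', |pr (fun ω => out ω = Y) - 1 / (T'.card : ℝ)| ≤ δ)
    (hK : 2 * m * n * Real.log (4 / ε) ≤ K) :
    ∑ X ∈ Tb, |pr (fun ω : Fin K → S => sam at_ X₀ ω = X) - 1 / (Tb.card : ℝ)| ≤ ε := by
  classical
  obtain ⟨u', hu'⟩ : ∃ u' : ℝ, u' = 1 / (T'.card : ℝ) := ⟨_, rfl⟩
  obtain ⟨u, hu⟩ : ∃ u : ℝ, u = 1 / (Tb.card : ℝ) := ⟨_, rfl⟩
  rw [← hu'] at hδ
  rw [← hu]
  have hT'pos : 0 < (T'.card : ℝ) := by exact_mod_cast Finset.card_pos.mpr ⟨_, hX₀'⟩
  have hTpos : 0 < (Tb.card : ℝ) := by exact_mod_cast Finset.card_pos.mpr ⟨_, hX₀⟩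
  obtain ⟨G, hGdef⟩ : ∃ G, G = T'.filter fun Y => 1 ≤ Y h J := ⟨_, rfl⟩
  obtain ⟨H, hHdef⟩ : ∃ H, H = T'.filter fun Y => ¬ 1 ≤ Y h J := ⟨_, rfl⟩
  rw [← hGdef] at hG
  have hsplit : ∀ g : (Fin m → Fin n → ℕ) → ℝ, ∑ Y ∈ T', g Y = ∑ Y ∈ G, g Y + ∑ Y ∈ H, g Y := by
    intro g
    rw [hGdef, hHdef]
    exact (Finset.sum_filter_add_sum_filter_not T' (fun Y => 1 ≤ Y h J) g).symm
  have hGT : ∀ g : (Fin m → Fin n → ℕ) → ℝ, ∑ Y ∈ G, g Y = ∑ X ∈ Tb, g (X + E h J) := by
    intro g
    rw [hG, Finset.sum_map]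
    rfl
  have hGcard : (G.card : ℝ) = (Tb.card : ℝ) := by
    rw [hG, Finset.card_map]
  have hcards : (T'.card : ℝ) = G.card + H.card := by
    have := hsplit (fun _ => 1)
    simpa using this
  obtain ⟨A, hA⟩ : ∃ A : ℝ, A = 1 - pr (fun ω => at_ ω = none) := ⟨_, rfl⟩
  have hA' : A = pr (fun ω => 1 ≤ out ω h J) := by
    rw [hA, pr_compl (fun ω => 1 ≤ out ω h J)]
    congr 2
    funext ω
    exact propext (hnone ω)
  have hAlow : ∑ Y ∈ G, pr (fun ω => out ω = Y) ≤ A := by
    rw [hA']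
    apply sum_pr_le out G
    intro ω hω
    rw [hGdef] at hω
    exact (Finset.mem_filter.mp hω).2
  have hAup : ∑ Y ∈ H, pr (fun ω => out ω = Y) ≤ 1 - A := by
    have : 1 - A = pr (fun ω => ¬ 1 ≤ out ω h J) := by
      rw [hA', pr_compl (fun ω => 1 ≤ out ω h J)]
      ring
    rw [this]
    apply sum_pr_le out H
    intro ω hω
    rw [hHdef] at hω
    exact (Finset.mem_filter.mp hω).2
  have hdG : |∑ Y ∈ G, pr (fun ω => out ω = Y) - u' * G.card| ≤
      ∑ Y ∈ G, |pr (fun ω => out ω = Y) - u'| := by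
    have : ∑ Y ∈ G, pr (fun ω => out ω = Y) - u' * G.card =
        ∑ Y ∈ G, (pr (fun ω => out ω = Y) - u') := by
      rw [Finset.sum_sub_distrib, Finset.sum_const, nsmul_eq_mul]
      ring
    rw [this]
    exact Finset.abs_sum_le_sum_abs _ _
  have hdH : |∑ Y ∈ H, pr (fun ω => out ω = Y) - u' * H.card| ≤
      ∑ Y ∈ H, |pr (fun ω => out ω = Y) - u'| := by
    have : ∑ Y ∈ H, pr (fun ω => out ω = Y) - u' * H.card =
        ∑ Y ∈ H, (pr (fun ω => out ω = Y) - u') := by
      rw [Finset.sum_sub_distrib, Finset.sum_const, nsmul_eq_mul]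
      ring
    rw [this]
    exact Finset.abs_sum_le_sum_abs _ _
  have hsum := hsplit (fun Y => |pr (fun ω => out ω = Y) - u'|)
  have hG0 : 0 ≤ ∑ Y ∈ G, |pr (fun ω => out ω = Y) - u'| :=
    Finset.sum_nonneg (fun _ _ => abs_nonneg _)
  have hH0 : 0 ≤ ∑ Y ∈ H, |pr (fun ω => out ω = Y) - u'| :=
    Finset.sum_nonneg (fun _ _ => abs_nonneg _)
  have hu'T' : u' * T'.card = 1 := by rw [hu']; exact one_div_mul_cancel hT'pos.ne'
  have huT : u * Tb.card = 1 := by rw [hu]; exact one_div_mul_cancel hTpos.ne'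
  have hAclose : |A - u' * G.card| ≤ δ := by
    rw [abs_le]
    have g1 := abs_le.mp hdG
    have g2 := abs_le.mp hdH
    have g3 : u' * G.card + u' * H.card = 1 := by rw [← mul_add, ← hcards]; exact hu'T'
    constructor
    · linarith [g1.1]
    · linarith [g2.1]
  have hη : ∑ X ∈ Tb, |pr (fun ω => at_ ω = some X) - A * u| ≤ 2 * δ := by
    have e1 : ∀ X, pr (fun ω => at_ ω = some X) = pr (fun ω => out ω = X + E h J) := by
      intro X
      congr 1
      funext ω
      exact propext (hsome X ω)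
    have e2 : ∀ X ∈ Tb, |pr (fun ω => at_ ω = some X) - A * u| ≤
        |pr (fun ω => out ω = X + E h J) - u'| + |u' - A * u| := by
      intro X _
      rw [e1]
      exact abs_sub_le _ _ _
    refine (Finset.sum_le_sum e2).trans ?_
    rw [Finset.sum_add_distrib, ← hGT (fun Y => |pr (fun ω => out ω = Y) - u'|), Finset.sum_const,
      nsmul_eq_mul]
    have e3 : (Tb.card : ℝ) * |u' - A * u| = |A - u' * G.card| := by
      have e4 : (Tb.card : ℝ) * |u' - A * u| = |(Tb.card : ℝ) * (u' - A * u)| := by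
        rw [abs_mul, abs_of_pos hTpos]
      rw [e4, abs_sub_comm A, hGcard]
      congr 1
      linear_combination (-A) * huT
    rw [e3]
    linarith
  have hAlb : 1 / (2 * (m : ℝ) * n) ≤ A := by
    apply num3 ε δ A (T'.card : ℝ) (G.card : ℝ) hm' hn' hε0 hε1 hδdef hT'pos
    · rw [hGcard]
      exact_mod_cast hcard
    · rw [← hu']
      exact hAclose
  have hA0 : 0 < A := lt_of_lt_of_le (by positivity) hAlb
  have hA1 : 0 ≤ 1 - A := by
    rw [hA]
    have := pr_nonneg (fun ω => at_ ω = none)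
    linarith
  have hu0 : 0 ≤ u := by rw [hu]; positivity
  have hmain := dist_rec at_ X₀ Tb hX₀ u (2 * δ) A huT hu0 hA hA0 hη K
  have hp1 := num1 ε δ A hm' hn' hδdef hε0 hAlb
  have hp2 := num2 ε A K hm' hn' hε0 hAlb hA1 hK
  linarith

theorem thm (hS : StmtSTAR) (hAcc : StmtACC) : StmtFIN := by
  classical
  intro m n N r c h J ε K T X₀ hmax hrN hcN hX₀ hε0 hε1 hK hT
  have hm : 1 ≤ m := by have := h.2; omega
  have hn : 1 ≤ n := by have := J.2; omega
  have hm' : (1 : ℝ) ≤ m := by exact_mod_cast hm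
  have hn' : (1 : ℝ) ≤ n := by exact_mod_cast hn
  have hrh : r h ≤ N := by
    rw [← hrN]
    exact Finset.single_le_sum (f := r) (fun _ _ => Nat.zero_le _) (Finset.mem_univ h)
  obtain ⟨hG, hcard⟩ := hAcc m n r c h J
  obtain ⟨r', hr'⟩ : ∃ r', r' = r + Pi.single h 1 := ⟨_, rfl⟩
  obtain ⟨c', hc'⟩ : ∃ c', c' = c + Pi.single J 1 := ⟨_, rfl⟩
  rw [← hr', ← hc'] at hG hcard
  have e2 : r' h = r h + 1 := by simp [hr']
  have e1 : ∀ k, k ≠ h → r' k = r k := by
    intro k hk
    simp [hr', hk]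
  have hX₀' : X₀ + E h J ∈ Tables r' c' := by
    have : X₀ + E h J ∈ ((Tables r' c').filter fun Y => 1 ≤ Y h J) := by
      rw [hG]
      exact Finset.mem_map.mpr ⟨X₀, hX₀, rfl⟩
    exact (Finset.mem_filter.mp this).1
  have hstar := hS m n r' c' h (r h) T (X₀ + E h J) hn
    (by
      intro k hk
      rw [e1 k hk, e2]
      exact ⟨hmax k, by have := hmax k; omega⟩)
    (by omega) hX₀'
  have : Nonempty (Fin m) := ⟨h⟩
  have : Nonempty (Fin n) := ⟨J⟩
  have : Nonempty (Fin ((r h + 1) ^ 2)) := ⟨⟨0, by positivity⟩⟩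
  have hcore := core (S := Fin T → Fin m × Fin n × Fin n × Fin ((r h + 1) ^ 2)) h J
    (fun ω => starRun h ((r h + 1) ^ 2) (X₀ + E h J) ω)
    (fun ω => attempt h J ((r h + 1) ^ 2) X₀ ω) X₀ (Tables r c) (Tables r' c') ε
    (ε / (8 * m * n)) K hm' hn' hX₀ hX₀' hε0 hε1
    (fun X ω => att_some h J _ X₀ X ω) (fun ω => att_none h J _ X₀ ω) hG hcard rfl
    (by
      refine le_trans (le_of_eq ?_) (hstar.trans ?_)
      · apply Finset.sum_congr rfl
        intro Y _
        rw [law_eq]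
      · refine delta_le N (r h) hrh hm hn ε hε0 hε1 (Tables r' c').card T ?_ hT
        apply card_tables
        intro i
        by_cases hi : i = h
        · rw [hi, e2]
          omega
        · rw [e1 i hi]
          have := hmax i
          omega) hK
  have hfin : ∑ X ∈ Tables r c, |lawOf (fun ω : Fin K → Fin T → Fin m × Fin n × Fin n ×
        Fin ((r h + 1) ^ 2) => sampler h J ((r h + 1) ^ 2) X₀ ω) X -
          1 / ((Tables r c).card : ℝ)| ≤ ε := by
    refine le_trans (le_of_eq ?_) hcore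
    apply Finset.sum_congr rfl
    intro X _
    rw [law_eq]
    rfl
  linarith

end Vale.P328U.FIN
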