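import Vale.Agent.P328.U.Defs

/-! # P328U, module FR: Friedrichs inequality -/

namespace Vale.P328U.FR

open Finset

universe v

theorem point (a b θ : ℝ) (hθ : 0 < θ) :
    a ^ 2 ≤ (1 + θ) * b ^ 2 + (1 + 1 / θ) * (a - b) ^ 2 := by
  have h : (1 + θ) * b ^ 2 + (1 + 1 / θ) * (a - b) ^ 2 - a ^ 2 =
      (θ * b - (a - b)) ^ 2 / θ := by
    field_simp
    ring
  have h2 : 0 ≤ (θ * b - (a - b)) ^ 2 / θ := by positivity
  linarith

theorem step {α : Type*} [DecidableEq α] (T T' : Finset α) (S : α → α) (G : α → ℝ) (θ : ℝ)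
    (hθ : 0 < θ) (hmap : ∀ w ∈ T, S w ∈ T')
    (hinj : ∀ w ∈ T, ∀ w' ∈ T, S w = S w' → w = w') :
    ∑ w ∈ T, G w ^ 2 ≤ (1 + θ) * ∑ x ∈ T', G x ^ 2 +
      (1 + 1 / θ) * ∑ w ∈ T, (G w - G (S w)) ^ 2 := by
  have h1 : ∑ w ∈ T, G w ^ 2 ≤ ∑ w ∈ T, ((1 + θ) * G (S w) ^ 2 +
      (1 + 1 / θ) * (G w - G (S w)) ^ 2) := sum_le_sum (fun w _ => point _ _ θ hθ)
  rw [sum_add_distrib, ← mul_sum, ← mul_sum] at h1
  have h2 : ∑ w ∈ T, G (S w) ^ 2 ≤ ∑ x ∈ T', G x ^ 2 := by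
    rw [← sum_image (f := fun x => G x ^ 2) (g := S) (s := T)
      (fun w hw w' hw' h => hinj w hw w' hw' h)]
    refine sum_le_sum_of_subset_of_nonneg ?_ (fun _ _ _ => sq_nonneg _)
    intro x hx
    obtain ⟨w, hw, rfl⟩ := mem_image.1 hx
    exact hmap w hw
  have h3 := mul_le_mul_of_nonneg_left h2 (show 0 ≤ 1 + θ by linarith)
  linarith

theorem layer_le {α : Type*} (A : Finset α) (g : α → ℕ) (h : α → ℝ)
    (hh : ∀ v ∈ A, 0 ≤ h v) (K : ℕ) :
    ∑ u ∈ range K, ∑ v ∈ A.filter (fun v => g v = u), h v ≤ ∑ v ∈ A, h v := by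
  have h1 : ∀ u ∈ range K, ∑ v ∈ A.filter (fun v => g v = u), h v =
      ∑ v ∈ A, if g v = u then h v else 0 := fun u _ => sum_filter _ _
  rw [sum_congr rfl h1, sum_comm]
  refine sum_le_sum (fun v hv => ?_)
  rw [sum_ite_eq]
  split_ifs
  · exact le_rfl
  · exact hh v hv

theorem layer_eq {α : Type*} (A : Finset α) (g : α → ℕ) (h : α → ℝ) (K : ℕ)
    (hK : ∀ v ∈ A, g v < K) :
    ∑ v ∈ A, h v = ∑ u ∈ range K, ∑ v ∈ A.filter (fun v => g v = u), h v := by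
  have h1 : ∀ u ∈ range K, ∑ v ∈ A.filter (fun v => g v = u), h v =
      ∑ v ∈ A, if g v = u then h v else 0 := fun u _ => sum_filter _ _
  rw [sum_congr rfl h1, sum_comm]
  refine sum_congr rfl (fun v hv => ?_)
  rw [sum_ite_eq, if_pos (mem_range.2 (hK v hv))]

/-- first recursion: `b (i+1) ≤ ((i+1)/i) b i + (i+1) e (i+1)` -/
theorem rec1 (b ee : ℕ → ℝ) (hee : ∀ i, 0 ≤ ee i) (h0 : b 0 ≤ 0)
    (h : ∀ i : ℕ, ∀ θ : ℝ, 0 < θ → b (i + 1) ≤ (1 + θ) * b i + (1 + 1 / θ) * ee (i + 1))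
    (h1 : b 1 ≤ ee 1) :
    ∀ i : ℕ, b i ≤ i * ∑ k ∈ range (i + 1), ee k := by
  intro i
  induction i with
  | zero => simpa using h0
  | succ i ih =>
    rcases Nat.eq_zero_or_pos i with hi | hi
    · subst hi
      simp only [zero_add, Nat.cast_one, one_mul]
      rw [sum_range_succ]
      have : 0 ≤ ∑ k ∈ range 1, ee k := sum_nonneg (fun k _ => hee k)
      linarith
    · have hi' : (0 : ℝ) < i := by exact_mod_cast hi
      have h2 := h i (1 / (i : ℝ)) (by positivity)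
      rw [sum_range_succ]
      push_cast
      have h3 : (1 + 1 / (i : ℝ)) * b i ≤ (1 + 1 / (i : ℝ)) * (i * ∑ k ∈ range (i + 1), ee k) :=
        mul_le_mul_of_nonneg_left ih (by positivity)
      have h4 : (1 + 1 / (i : ℝ)) * (i * ∑ k ∈ range (i + 1), ee k) =
          ((i : ℝ) + 1) * ∑ k ∈ range (i + 1), ee k := by
        field_simp
      have h5 : (1 + 1 / (1 / (i : ℝ))) = (i : ℝ) + 1 := by
        field_simp
        ring
      rw [h5] at h2
      linarith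

/-- second recursion -/
theorem rec2 (c f : ℕ → ℝ) (hf : ∀ i, 0 ≤ f i) (hc : 0 ≤ c 0) (N : ℕ) (hN : 0 < N)
    (h : ∀ i : ℕ, ∀ θ : ℝ, 0 < θ → c (i + 1) ≤ (1 + θ) * c i + (1 + 1 / θ) * f (i + 1)) :
    ∀ i : ℕ, i ≤ N → c i ≤ 3 * (c 0 + (1 + (N : ℝ)) * ∑ k ∈ range (i + 1), f k) := by
  have hN' : (0 : ℝ) < N := by exact_mod_cast hN
  have key : ∀ i : ℕ, c i ≤ (1 + 1 / (N : ℝ)) ^ i *
      (c 0 + (1 + (N : ℝ)) * ∑ k ∈ range (i + 1), f k) := by
    intro i
    induction i with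
    | zero =>
      have : 0 ≤ (1 + (N : ℝ)) * ∑ k ∈ range 1, f k :=
        mul_nonneg (by positivity) (sum_nonneg (fun k _ => hf k))
      simp only [pow_zero, one_mul, zero_add]
      linarith
    | succ i ih =>
      have h2 := h i (1 / (N : ℝ)) (by positivity)
      have h5 : (1 + 1 / (1 / (N : ℝ))) = 1 + (N : ℝ) := by
        field_simp
      rw [h5] at h2
      have h3 := mul_le_mul_of_nonneg_left ih (show 0 ≤ 1 + 1 / (N : ℝ) by positivity)
      have h6 : (1 : ℝ) ≤ (1 + 1 / (N : ℝ)) ^ (i + 1) :=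
        one_le_pow₀ (by
          have : 0 < 1 / (N : ℝ) := by positivity
          linarith)
      have h7 : 0 ≤ (1 + (N : ℝ)) * f (i + 1) := mul_nonneg (by positivity) (hf _)
      rw [sum_range_succ]
      have h8 : (1 + 1 / (N : ℝ)) * ((1 + 1 / (N : ℝ)) ^ i *
          (c 0 + (1 + (N : ℝ)) * ∑ k ∈ range (i + 1), f k)) = (1 + 1 / (N : ℝ)) ^ (i + 1) *
          (c 0 + (1 + (N : ℝ)) * ∑ k ∈ range (i + 1), f k) := by ring
      rw [h8] at h3
      nlinarith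
  intro i hi
  have h9 : (1 + 1 / (N : ℝ)) ^ i ≤ 3 := by
    have h1 : 1 + 1 / (N : ℝ) ≤ Real.exp (1 / (N : ℝ)) := by
      have := Real.add_one_le_exp (1 / (N : ℝ))
      linarith
    have h2 : (1 + 1 / (N : ℝ)) ^ i ≤ (Real.exp (1 / (N : ℝ))) ^ i :=
      pow_le_pow_left₀ (by positivity) h1 i
    rw [← Real.exp_nat_mul] at h2
    have h3 : (i : ℝ) * (1 / (N : ℝ)) ≤ 1 := by
      rw [mul_one_div, div_le_one hN']
      exact_mod_cast hi
    have h4 := Real.exp_le_exp.2 h3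
    have h5 := Real.exp_one_lt_d9
    linarith
  have h10 : 0 ≤ c 0 + (1 + (N : ℝ)) * ∑ k ∈ range (i + 1), f k :=
    add_nonneg hc (mul_nonneg (by positivity) (sum_nonneg (fun k _ => hf k)))
  exact (key i).trans (mul_le_mul_of_nonneg_right h9 h10)

theorem inj_le {α β : Type*} [DecidableEq β] (T : Finset α) (A : Finset β) (g : α → β)
    (f : α → ℝ) (h : β → ℝ) (hmap : ∀ w ∈ T, g w ∈ A)
    (hinj : ∀ w ∈ T, ∀ w' ∈ T, g w = g w' → w = w') (hle : ∀ w ∈ T, f w ≤ h (g w))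
    (hh : ∀ v ∈ A, 0 ≤ h v) : ∑ w ∈ T, f w ≤ ∑ v ∈ A, h v := by
  refine (sum_le_sum hle).trans ?_
  rw [← sum_image (f := h) (g := g) (s := T) (fun w hw w' hw' h => hinj w hw w' hw' h)]
  refine sum_le_sum_of_subset_of_nonneg ?_ (fun v hv _ => hh v hv)
  intro x hx
  obtain ⟨w, hw, rfl⟩ := mem_image.1 hx
  exact hmap w hw

section

variable {κ : Type v} [Fintype κ] [DecidableEq κ]

theorem mem_B {s : κ → ℕ} {t : ℕ} {w : κ → ℕ} : w ∈ B s t ↔ w ≤ s ∧ ∑ j, w j = t := by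
  unfold B
  rw [mem_filter, Fintype.mem_piFinset]
  constructor
  · rintro ⟨h1, h2⟩
    exact ⟨fun j => Nat.lt_succ_iff.1 (mem_range.1 (h1 j)), h2⟩
  · rintro ⟨h1, h2⟩
    exact ⟨fun j => mem_range.2 (Nat.lt_succ_iff.2 (h1 j)), h2⟩

theorem e_same (a : κ) : e a a = 1 := by simp [e]

theorem e_ne {a b : κ} (h : b ≠ a) : e a b = 0 := by simp [e, h]

theorem sum_e (a : κ) : ∑ j, e a j = 1 := by
  unfold e
  simp

theorem add_mem {s : κ → ℕ} {t : ℕ} {w : κ → ℕ} (hw : w ∈ B s t) {a : κ} (ha : w a < s a) :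
    w + e a ∈ B s (t + 1) := by
  rw [mem_B] at hw ⊢
  refine ⟨fun j => ?_, ?_⟩
  · by_cases h : j = a
    · subst h
      rw [Pi.add_apply, e_same]
      exact ha
    · rw [Pi.add_apply, e_ne h]
      exact hw.1 j
  · simp only [Pi.add_apply]
    rw [sum_add_distrib, hw.2, sum_e]

theorem e_le {w : κ → ℕ} {a : κ} (ha : 1 ≤ w a) : e a ≤ w := by
  intro j
  by_cases h : j = a
  · subst h
    rw [e_same]
    exact ha
  · rw [e_ne h]
    exact Nat.zero_le _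

theorem sub_mem {s : κ → ℕ} {t : ℕ} {v : κ → ℕ} (hv : v ∈ B s (t + 1)) {a : κ} (ha : 1 ≤ v a) :
    v - e a ∈ B s t := by
  rw [mem_B] at hv ⊢
  refine ⟨fun j => (Nat.sub_le _ _).trans (hv.1 j), ?_⟩
  have h1 : ∑ j, (v - e a) j + ∑ j, e a j = ∑ j, v j := by
    rw [← sum_add_distrib]
    exact sum_congr rfl (fun j _ => Nat.sub_add_cancel (e_le ha j))
  rw [sum_e, hv.2] at h1
  omega

theorem sub_inj {v v' : κ → ℕ} {a : κ} (ha : 1 ≤ v a) (ha' : 1 ≤ v' a) (h : v - e a = v' - e a) :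
    v = v' := by
  have h1 : v - e a + e a = v' - e a + e a := by rw [h]
  rwa [tsub_add_cancel_of_le (e_le ha), tsub_add_cancel_of_le (e_le ha')] at h1

/-- the edge form -/
noncomputable def qf (G : (κ → ℕ) → ℝ) (a b : κ) (v : κ → ℕ) : ℝ :=
  if 1 ≤ v a ∧ 1 ≤ v b then (G (v - e a) - G (v - e b)) ^ 2 else 0

theorem qf_nonneg (G : (κ → ℕ) → ℝ) (a b : κ) (v : κ → ℕ) : 0 ≤ qf G a b v := by
  unfold qf
  split_ifs
  · exact sq_nonneg _
  · exact le_rfl

theorem qf_symm (G : (κ → ℕ) → ℝ) (a b : κ) (v : κ → ℕ) : qf G a b v = qf G b a v := by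
  unfold qf
  by_cases h : 1 ≤ v a ∧ 1 ≤ v b
  · rw [if_pos h, if_pos h.symm]
    ring
  · rw [if_neg h, if_neg (fun h' => h h'.symm)]

/-- phase 1: the good points -/
theorem good (s : κ → ℕ) (t : ℕ) (j J : κ) (G : (κ → ℕ) → ℝ) (hjJ : j ≠ J)
    (hG : ∀ w, w j = 0 → G w = 0) :
    ∑ w ∈ (B s t).filter (fun w => w j + w J ≤ s J), G w ^ 2 ≤
      ((t : ℝ) + 1) * t * ∑ v ∈ B s (t + 1), qf G J j v := by
  classical
  set A := (B s t).filter (fun w => w j + w J ≤ s J) with hA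
  set b : ℕ → ℝ := fun i => ∑ w ∈ A.filter (fun w => w j = i), G w ^ 2 with hb
  set ee : ℕ → ℝ := fun i => ∑ v ∈ (B s (t + 1)).filter (fun v => v j = i), qf G J j v with hee
  have hee0 : ∀ i, 0 ≤ ee i := fun i => sum_nonneg (fun v _ => qf_nonneg G J j v)
  set S : (κ → ℕ) → (κ → ℕ) := fun w => w + e J - e j with hS
  have hw1 : ∀ i, ∀ w ∈ A.filter (fun w => w j = i + 1), w ∈ B s t ∧ w j + w J ≤ s J ∧
      w j = i + 1 := by
    intro i w hw
    rw [mem_filter, hA, mem_filter] at hw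
    exact ⟨hw.1.1, hw.1.2, hw.2⟩
  have hvj : ∀ w : κ → ℕ, (w + e J) j = w j := by
    intro w
    rw [Pi.add_apply, e_ne hjJ, add_zero]
  have hvJ : ∀ w : κ → ℕ, (w + e J) J = w J + 1 := by
    intro w
    rw [Pi.add_apply, e_same]
  have hsum : ∀ i, ∑ w ∈ A.filter (fun w => w j = i + 1), (G w - G (S w)) ^ 2 ≤ ee (i + 1) := by
    intro i
    refine inj_le _ _ (fun w => w + e J) _ _ ?_ (fun w _ w' _ h => add_right_cancel h) ?_
      (fun v _ => qf_nonneg G J j v)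
    · intro w hw
      obtain ⟨h1, h2, h3⟩ := hw1 i w hw
      rw [mem_filter]
      exact ⟨add_mem h1 (by omega), by rw [hvj, h3]⟩
    · intro w hw
      obtain ⟨h1, h2, h3⟩ := hw1 i w hw
      unfold qf
      rw [if_pos ⟨by rw [hvJ]; omega, by rw [hvj]; omega⟩, add_tsub_cancel_right]
  have hstep : ∀ i : ℕ, ∀ θ : ℝ, 0 < θ →
      b (i + 1) ≤ (1 + θ) * b i + (1 + 1 / θ) * ee (i + 1) := by
    intro i θ hθ
    have h1 := step (A.filter (fun w => w j = i + 1)) (A.filter (fun w => w j = i)) S G θ hθ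
      (by
        intro w hw
        obtain ⟨h1, h2, h3⟩ := hw1 i w hw
        have hv := add_mem h1 (a := J) (by omega)
        have h4 : (w + e J - e j) j = i := by
          rw [Pi.sub_apply, hvj, e_same, h3]
          omega
        have h5 : (w + e J - e j) J = w J + 1 := by
          rw [Pi.sub_apply, hvJ, e_ne hjJ.symm]
          rfl
        rw [mem_filter, hA, mem_filter]
        refine ⟨⟨sub_mem hv (by rw [hvj]; omega), ?_⟩, h4⟩
        show (w + e J - e j) j + (w + e J - e j) J ≤ s J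
        rw [h4, h5]
        omega)
      (by
        intro w hw w' hw' h
        obtain ⟨h1, h2, h3⟩ := hw1 i w hw
        obtain ⟨h1', h2', h3'⟩ := hw1 i w' hw'
        exact add_right_cancel (sub_inj (v := w + e J) (v' := w' + e J) (a := j)
          (by rw [hvj]; omega) (by rw [hvj]; omega) h))
    have h2 := mul_le_mul_of_nonneg_left (hsum i) (show 0 ≤ 1 + 1 / θ by positivity)
    exact h1.trans (by linarith)
  have hb0 : b 0 ≤ 0 := by
    refine le_of_eq (sum_eq_zero (fun w hw => ?_))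
    rw [hG w (mem_filter.1 hw).2]
    ring
  have hb1 : b 1 ≤ ee 1 := by
    refine le_trans (le_of_eq (sum_congr rfl (fun w hw => ?_))) (hsum 0)
    obtain ⟨h1, h2, h3⟩ := hw1 0 w hw
    have h4 : (S w) j = 0 := by
      show (w + e J - e j) j = 0
      rw [Pi.sub_apply, hvj, e_same, h3]
    rw [hG (S w) h4, sub_zero]
  have hmain := rec1 b ee hee0 hb0 hstep hb1
  have hle : ∀ w ∈ A, w j < t + 1 := by
    intro w hw
    rw [hA, mem_filter, mem_B] at hw
    have := single_le_sum (f := w) (fun i _ => Nat.zero_le _) (mem_univ j)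
    omega
  rw [layer_eq A (fun w => w j) (fun w => G w ^ 2) (t + 1) hle]
  set H1 := ∑ v ∈ B s (t + 1), qf G J j v with hH1
  have hH10 : 0 ≤ H1 := sum_nonneg (fun v _ => qf_nonneg G J j v)
  have h6 : ∀ i ∈ range (t + 1), b i ≤ t * H1 := by
    intro i hi
    rw [mem_range] at hi
    have h7 := hmain i
    have h8 : ∑ k ∈ range (i + 1), ee k ≤ H1 :=
      layer_le (B s (t + 1)) (fun v => v j) (qf G J j) (fun v _ => qf_nonneg G J j v) (i + 1)
    have h9 : (i : ℝ) ≤ t := by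
      exact_mod_cast Nat.lt_succ_iff.1 hi
    refine h7.trans ?_
    exact mul_le_mul h9 h8 (sum_nonneg (fun k _ => hee0 k)) (Nat.cast_nonneg _)
  have h10 := sum_le_sum h6
  rw [sum_const, card_range, nsmul_eq_mul] at h10
  push_cast at h10
  refine h10.trans (le_of_eq ?_)
  ring

/-- the sum over the crystal edges -/
noncomputable def h2 (G : (κ → ℕ) → ℝ) (j J : κ) (v : κ → ℕ) : ℝ :=
  ∑ b ∈ (univ.erase J).erase j, qf G b J v

theorem h2_nonneg (G : (κ → ℕ) → ℝ) (j J : κ) (v : κ → ℕ) : 0 ≤ h2 G j J v :=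
  sum_nonneg (fun _ _ => qf_nonneg _ _ _ _)

theorem sum_split (w : κ → ℕ) {j J : κ} (hjJ : j ≠ J) :
    ∑ i, w i = w J + (w j + ∑ i ∈ (univ.erase J).erase j, w i) := by
  rw [← add_sum_erase univ w (mem_univ J), ← add_sum_erase (univ.erase J) w
    (mem_erase.2 ⟨hjJ, mem_univ j⟩)]

/-- phase 2: the bad points -/
theorem bad (hCRY : StmtCRY.{v}) (s : κ → ℕ) (t : ℕ) (j J : κ) (G : (κ → ℕ) → ℝ)
    (ht : 2 * t ≤ ∑ i, s i + 1) (hjJ : j ≠ J) (hs : s j ≤ s J) :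
    ∑ w ∈ (B s t).filter (fun w => ¬ w j + w J ≤ s J), G w ^ 2 ≤
      ((t : ℝ) + 1) * (3 * (∑ w ∈ (B s t).filter (fun w => w j + w J ≤ s J), G w ^ 2 +
        ((t : ℝ) + 2) * ∑ v ∈ B s (t + 1), h2 G j J v)) := by
  classical
  set R := (univ.erase J).erase j with hR
  obtain ⟨φ, hφ1, hφ2⟩ := hCRY κ R s
  set T : ℕ → Finset (κ → ℕ) := fun u => (B s t).filter (fun w => w j + w J = s J + u) with hT
  set c : ℕ → ℝ := fun u => ∑ w ∈ T u, G w ^ 2 with hc
  set f : ℕ → ℝ := fun u => ∑ v ∈ (B s (t + 1)).filter (fun v => v j + v J - s J = u),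
    h2 G j J v with hf
  have hT1 : ∀ u, ∀ w ∈ T (u + 1), w ∈ B s t ∧ w j + w J = s J + (u + 1) := by
    intro u w hw
    rw [hT, mem_filter] at hw
    exact hw
  have hmid : ∀ u, ∀ w ∈ T (u + 1), w ≤ s ∧ 2 * ∑ i ∈ R, w i < ∑ i ∈ R, s i ∧ 1 ≤ w J := by
    intro u w hw
    obtain ⟨h1, h2⟩ := hT1 u w hw
    rw [mem_B] at h1
    have h3 := sum_split w hjJ
    have h4 := sum_split s hjJ
    rw [← hR] at h3 h4
    have h5 : w j ≤ s j := h1.1 j
    have h6 : w J ≤ s J := h1.1 J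
    refine ⟨h1.1, ?_, ?_⟩
    · rw [h1.2] at h3
      omega
    · omega
  have hb : ∀ u, ∀ w ∈ T (u + 1), ∃ b ∈ R, w b < s b ∧ φ w = w + e b := by
    intro u w hw
    obtain ⟨h1, h2, _⟩ := hmid u w hw
    exact hφ1 w h1 h2
  have hRj : ∀ b ∈ R, b ≠ j ∧ b ≠ J := by
    intro b hb
    rw [hR, mem_erase, mem_erase] at hb
    exact ⟨hb.1, hb.2.1⟩
  have hφj : ∀ u, ∀ w ∈ T (u + 1), φ w ∈ B s (t + 1) ∧ (φ w) j = w j ∧ (φ w) J = w J := by
    intro u w hw
    obtain ⟨b, hb1, hb2, hb3⟩ := hb u w hw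
    obtain ⟨h1, h2⟩ := hRj b hb1
    rw [hb3]
    refine ⟨add_mem (hT1 u w hw).1 hb2, ?_, ?_⟩
    · rw [Pi.add_apply, e_ne h1.symm, add_zero]
    · rw [Pi.add_apply, e_ne h2.symm, add_zero]
  have hφi : ∀ u, ∀ w ∈ T (u + 1), ∀ w' ∈ T (u + 1), φ w = φ w' → w = w' := by
    intro u w hw w' hw' h
    obtain ⟨h1, h2, _⟩ := hmid u w hw
    obtain ⟨h1', h2', _⟩ := hmid u w' hw'
    exact hφ2 w w' h1 h1' h2 h2' h
  set S : (κ → ℕ) → (κ → ℕ) := fun w => φ w - e J with hS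
  have hsum : ∀ u, ∑ w ∈ T (u + 1), (G w - G (S w)) ^ 2 ≤ f (u + 1) := by
    intro u
    refine inj_le _ _ φ _ _ ?_ (hφi u) ?_ (fun v _ => h2_nonneg G j J v)
    · intro w hw
      obtain ⟨h1, h3, h4⟩ := hφj u w hw
      have h5 := (hT1 u w hw).2
      rw [mem_filter]
      refine ⟨h1, ?_⟩
      rw [h3, h4]
      omega
    · intro w hw
      obtain ⟨b, hb1, hb2, hb3⟩ := hb u w hw
      obtain ⟨h1, h3, h4⟩ := hφj u w hw
      obtain ⟨_, _, h7⟩ := hmid u w hw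
      have h8 : (G w - G (S w)) ^ 2 = qf G b J (φ w) := by
        unfold qf
        rw [if_pos ⟨by rw [hb3, Pi.add_apply, e_same]; omega, by rw [h4]; exact h7⟩]
        have h9 : φ w - e b = w := by
          rw [hb3, add_tsub_cancel_right]
        rw [h9]
      rw [h8]
      unfold h2
      exact single_le_sum (f := fun b => qf G b J (φ w)) (fun b _ => qf_nonneg G b J _) hb1
  have hstep : ∀ u : ℕ, ∀ θ : ℝ, 0 < θ →
      c (u + 1) ≤ (1 + θ) * c u + (1 + 1 / θ) * f (u + 1) := by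
    intro u θ hθ
    have h1 := step (T (u + 1)) (T u) S G θ hθ
      (by
        intro w hw
        obtain ⟨h1, h3, h4⟩ := hφj u w hw
        obtain ⟨_, _, h7⟩ := hmid u w hw
        have h5 := (hT1 u w hw).2
        rw [hT, mem_filter]
        refine ⟨sub_mem h1 (by rw [h4]; exact h7), ?_⟩
        have h8 : (φ w - e J) j = w j := by
          rw [Pi.sub_apply, e_ne hjJ, h3]
          rfl
        have h9 : (φ w - e J) J = w J - 1 := by
          rw [Pi.sub_apply, e_same, h4]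
        show (φ w - e J) j + (φ w - e J) J = s J + u
        rw [h8, h9]
        omega)
      (by
        intro w hw w' hw' h
        obtain ⟨_, _, h4⟩ := hφj u w hw
        obtain ⟨_, _, h4'⟩ := hφj u w' hw'
        obtain ⟨_, _, h7⟩ := hmid u w hw
        obtain ⟨_, _, h7'⟩ := hmid u w' hw'
        exact hφi u w hw w' hw' (sub_inj (a := J) (by rw [h4]; exact h7)
          (by rw [h4']; exact h7') h))
    have h2 := mul_le_mul_of_nonneg_left (hsum u) (show 0 ≤ 1 + 1 / θ by positivity)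
    exact h1.trans (by linarith)
  have hf0 : ∀ i, 0 ≤ f i := fun i => sum_nonneg (fun v _ => h2_nonneg G j J v)
  have hmain := rec2 c f hf0 (sum_nonneg (fun _ _ => sq_nonneg _)) (t + 1) (Nat.succ_pos t) hstep
  set H2 := ∑ v ∈ B s (t + 1), h2 G j J v with hH2
  set A0 := ∑ w ∈ (B s t).filter (fun w => w j + w J ≤ s J), G w ^ 2 with hA0
  have hc0 : c 0 ≤ A0 := by
    refine sum_le_sum_of_subset_of_nonneg ?_ (fun _ _ _ => sq_nonneg _)
    intro w hw
    rw [hT, mem_filter] at hw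
    rw [mem_filter]
    exact ⟨hw.1, by omega⟩
  have hF : ∀ i, ∑ k ∈ range (i + 1), f k ≤ H2 := fun i =>
    layer_le (B s (t + 1)) (fun v => v j + v J - s J) (h2 G j J)
      (fun v _ => h2_nonneg G j J v) (i + 1)
  set A := (B s t).filter (fun w => ¬ w j + w J ≤ s J) with hA
  have hle : ∀ w ∈ A, w j + w J - s J - 1 < t + 1 := by
    intro w hw
    rw [hA, mem_filter, mem_B] at hw
    have h3 := sum_split w hjJ
    omega
  rw [layer_eq A (fun w => w j + w J - s J - 1) (fun w => G w ^ 2) (t + 1) hle]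
  have h6 : ∀ u ∈ range (t + 1), ∑ w ∈ A.filter (fun w => w j + w J - s J - 1 = u), G w ^ 2 ≤
      3 * (A0 + ((t : ℝ) + 2) * H2) := by
    intro u hu
    rw [mem_range] at hu
    have h7 : ∑ w ∈ A.filter (fun w => w j + w J - s J - 1 = u), G w ^ 2 ≤ c (u + 1) := by
      refine sum_le_sum_of_subset_of_nonneg ?_ (fun _ _ _ => sq_nonneg _)
      intro w hw
      rw [mem_filter, hA, mem_filter] at hw
      rw [hT, mem_filter]
      exact ⟨hw.1.1, by omega⟩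
    have h8 := hmain (u + 1) (by omega)
    refine h7.trans (h8.trans ?_)
    have h9 : (1 + ((t + 1 : ℕ) : ℝ)) * ∑ k ∈ range (u + 1 + 1), f k ≤ ((t : ℝ) + 2) * H2 := by
      have : (1 + ((t + 1 : ℕ) : ℝ)) = (t : ℝ) + 2 := by
        push_cast
        ring
      rw [this]
      exact mul_le_mul_of_nonneg_left (hF (u + 1)) (by positivity)
    linarith
  have h10 := sum_le_sum h6
  rw [sum_const, card_range, nsmul_eq_mul] at h10
  push_cast at h10
  exact h10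

theorem en_ge (G : (κ → ℕ) → ℝ) {j J : κ} (hjJ : j ≠ J) (v : κ → ℕ) :
    2 * (qf G J j v + h2 G j J v) ≤ ∑ a, ∑ b, qf G a b v := by
  have h1 : ∑ b ∈ univ.erase J, qf G J b v ≤ ∑ b, qf G J b v :=
    sum_le_sum_of_subset_of_nonneg (erase_subset _ _) (fun b _ _ => qf_nonneg G J b v)
  have h3 : ∑ a ∈ univ.erase J, qf G a J v ≤ ∑ a ∈ univ.erase J, ∑ b, qf G a b v :=
    sum_le_sum (fun a _ => single_le_sum (f := fun b => qf G a b v)
      (fun b _ => qf_nonneg G a b v) (mem_univ J))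
  have h4 : ∑ b ∈ univ.erase J, qf G J b v = ∑ b ∈ univ.erase J, qf G b J v :=
    sum_congr rfl (fun b _ => qf_symm G J b v)
  have h5 : ∑ b ∈ univ.erase J, qf G b J v = qf G J j v + h2 G j J v := by
    rw [← add_sum_erase (univ.erase J) _ (mem_erase.2 ⟨hjJ, mem_univ j⟩), qf_symm G j J]
    rfl
  rw [← add_sum_erase univ _ (mem_univ J)]
  linarith

end

theorem thm (hCRY : StmtCRY.{v}) : StmtFR.{v} := by
  classical
  intro κ _ _ s t j J G ht hjJ hs hG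
  have h1 := good s t j J G hjJ hG
  have h2' := bad hCRY s t j J G ht hjJ hs
  have h3 := sum_filter_add_sum_filter_not (B s t) (fun w => w j + w J ≤ s J) (fun w => G w ^ 2)
  have h4 : 2 * (∑ v ∈ B s (t + 1), qf G J j v + ∑ v ∈ B s (t + 1), h2 G j J v) ≤
      ∑ v ∈ B s (t + 1), ∑ a, ∑ b, qf G a b v := by
    rw [← sum_add_distrib, mul_sum]
    exact sum_le_sum (fun v _ => en_ge G hjJ v)
  show _ ≤ 3 * ((t : ℝ) + 1) ^ 3 * ∑ v ∈ B s (t + 1), ∑ a, ∑ b, qf G a b v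
  rw [← h3]
  set A0 := ∑ w ∈ (B s t).filter (fun w => w j + w J ≤ s J), G w ^ 2 with hA0
  set H1 := ∑ v ∈ B s (t + 1), qf G J j v with hH1
  set H2 := ∑ v ∈ B s (t + 1), h2 G j J v with hH2
  have hH10 : 0 ≤ H1 := sum_nonneg (fun v _ => qf_nonneg G J j v)
  have hH20 : 0 ≤ H2 := sum_nonneg (fun v _ => h2_nonneg G j J v)
  have ht0 : (0 : ℝ) ≤ t := Nat.cast_nonneg t
  have hA : A0 + (((t : ℝ) + 1) * (3 * (A0 + ((t : ℝ) + 2) * H2))) ≤
      3 * ((t : ℝ) + 1) ^ 3 * (2 * (H1 + H2)) := by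
    have e1 : A0 + (((t : ℝ) + 1) * (3 * (A0 + ((t : ℝ) + 2) * H2))) =
      (3 * (t : ℝ) + 4) * A0 + 3 * ((t : ℝ) + 1) * ((t : ℝ) + 2) * H2 := by ring
    rw [e1]
    have e2 : (3 * (t : ℝ) + 4) * A0 ≤ (3 * (t : ℝ) + 4) * (((t : ℝ) + 1) * t * H1) :=
      mul_le_mul_of_nonneg_left h1 (by positivity)
    have e3 : (3 * (t : ℝ) + 4) * (((t : ℝ) + 1) * t * H1) ≤ 6 * ((t : ℝ) + 1) ^ 3 * H1 := by
      rw [← mul_assoc]
      refine mul_le_mul_of_nonneg_right ?_ hH10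
      nlinarith [mul_nonneg ht0 ht0, mul_nonneg ht0 (mul_nonneg ht0 ht0)]
    have e4 : 3 * ((t : ℝ) + 1) * ((t : ℝ) + 2) * H2 ≤ 6 * ((t : ℝ) + 1) ^ 3 * H2 := by
      refine mul_le_mul_of_nonneg_right ?_ hH20
      nlinarith [mul_nonneg ht0 ht0, mul_nonneg ht0 (mul_nonneg ht0 ht0)]
    linarith
  have hB := mul_le_mul_of_nonneg_left h4 (show (0 : ℝ) ≤ 3 * ((t : ℝ) + 1) ^ 3 by positivity)
  linarith

end Vale.P328U.FR
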