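import Vale.Agent.P328.U.Defs2

/-!
# P328, unary margins, module POP: the transition operator of the chain
-/

namespace Vale.P328U
open Finset BigOperators

universe u v

namespace POP

section
variable {ι : Type u} [Fintype ι] [DecidableEq ι] {κ : Type v} [Fintype κ] [DecidableEq κ]

lemma mem_Om {r : ι → ℕ} {c : κ → ℕ} {X : ι → κ → ℕ} :
    X ∈ Om r c ↔ (∀ i, ∑ j, X i j = r i) ∧ ∀ j, ∑ i, X i j ≤ c j := by
  unfold Om
  rw [mem_filter]
  constructor
  · exact fun h => h.2
  · intro h
    refine ⟨?_, h⟩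
    rw [Fintype.mem_piFinset]
    intro k
    rw [Fintype.mem_piFinset]
    intro j
    rw [mem_range]
    have h1 := h.2 j
    have h2 : X k j ≤ ∑ k, X k j :=
      Finset.single_le_sum (f := fun k => X k j) (fun _ _ => Nat.zero_le _) (mem_univ k)
    omega

omit [Fintype ι] [Fintype κ] in
lemma E_apply (k : ι) (j : κ) (i : ι) (m : κ) :
    E k j i m = if i = k ∧ m = j then 1 else 0 := by
  unfold E e
  by_cases h : i = k
  · subst h
    by_cases h2 : m = j
    · subst h2
      simp
    · simp [h2]
  · simp [h]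

omit [Fintype ι] in
lemma sum_row (i k : ι) (l : κ) :
    ∑ m, (if i = k ∧ m = l then (1 : ℤ) else 0) = if i = k then 1 else 0 := by
  by_cases h : i = k
  · simp [h]
  · simp [h]

omit [Fintype κ] in
lemma sum_col (m l : κ) (k : ι) :
    ∑ i, (if i = k ∧ m = l then (1 : ℤ) else 0) = if m = l then 1 else 0 := by
  by_cases h : m = l
  · simp [h]
  · simp [h]

lemma move_mem {r : ι → ℕ} {c : κ → ℕ} {X : ι → κ → ℕ} (hX : X ∈ Om r c) (k : ι) (j l : κ)
    (hlj : l ≠ j) (hl : 1 ≤ X k l) (hj : ∑ i, X i j < c j) : X + E k j - E k l ∈ Om r c := by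
  have hX' := mem_Om.1 hX
  have hent : ∀ i m, (((X + E k j - E k l) i m : ℕ) : ℤ) = X i m
      + (if i = k ∧ m = j then 1 else 0) - (if i = k ∧ m = l then 1 else 0) := by
    intro i m
    simp only [Pi.sub_apply, Pi.add_apply, E_apply]
    by_cases h : i = k ∧ m = l
    · obtain ⟨rfl, rfl⟩ := h
      simp only [hlj, and_false, if_false, and_self, if_true]
      omega
    · rw [if_neg h, if_neg h]
      push_cast
      simp
  rw [mem_Om]
  constructor
  · intro i
    have h1 : ((∑ m, (X + E k j - E k l) i m : ℕ) : ℤ) = ((r i : ℕ) : ℤ) := by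
      push_cast
      simp only [hent]
      rw [Finset.sum_sub_distrib, Finset.sum_add_distrib, sum_row, sum_row]
      have h3 : ((∑ m, X i m : ℕ) : ℤ) = r i := by rw [hX'.1 i]
      push_cast at h3
      rw [h3]
      ring
    exact_mod_cast h1
  · intro m
    have h1 : ((∑ i, (X + E k j - E k l) i m : ℕ) : ℤ) = ((∑ i, X i m : ℕ) : ℤ)
        + (if m = j then 1 else 0) - (if m = l then 1 else 0) := by
      push_cast
      simp only [hent]
      rw [Finset.sum_sub_distrib, Finset.sum_add_distrib, sum_col, sum_col]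
    have h2 := hX'.2 m
    by_cases hm : m = j
    · subst hm
      rw [if_pos rfl] at h1
      split_ifs at h1 <;> omega
    · rw [if_neg hm] at h1
      split_ifs at h1 <;> omega

/-- rate -/
noncomputable def rt (c : κ → ℕ) (X : ι → κ → ℕ) (k : ι) (j l : κ) : ℝ :=
  if l ≠ j ∧ ∑ i, X i j < c j then ((X k l * (X k j + 1) : ℕ) : ℝ) else 0

lemma LL_eq (c : κ → ℕ) (F : (ι → κ → ℕ) → ℝ) (k : ι) (X : ι → κ → ℕ) :
    LL c F k X = ∑ j, ∑ l, rt c X k j l * (F (X + E k j - E k l) - F X) := by
  unfold LL
  rw [← Finset.sum_neg_distrib]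
  apply Finset.sum_congr rfl
  intro j _
  by_cases hj : ∑ i, X i j < c j
  · rw [if_pos hj]
    unfold VV
    have h1 : X + E k j - E k j = X := by
      funext i m
      simp
    have h2 : ∀ l, (X + E k j) k l = X k l + if l = j then 1 else 0 := by
      intro l
      rw [Pi.add_apply, Pi.add_apply, E_apply]
      simp
    rw [← mul_neg, ← Finset.sum_neg_distrib, Finset.mul_sum]
    apply Finset.sum_congr rfl
    intro l _
    unfold rt
    rw [h1]
    have e1 : (X + E k j) k j = X k j + 1 := by
      rw [h2]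
      simp
    by_cases hl : l = j
    · subst hl
      rw [h1]
      simp
    · have e2 : (X + E k j) k l = X k l := by
        rw [h2, if_neg hl]
        rfl
      rw [if_pos ⟨hl, hj⟩, e1, e2]
      push_cast
      ring
  · rw [if_neg hj]
    unfold rt
    symm
    rw [neg_zero]
    apply Finset.sum_eq_zero
    intro l _
    rw [if_neg (fun h => hj h.2), zero_mul]

omit [DecidableEq ι] [Fintype κ] in
lemma rt_nonneg (c : κ → ℕ) (X : ι → κ → ℕ) (k : ι) (j l : κ) : 0 ≤ rt c X k j l := by
  unfold rt
  split_ifs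
  · positivity
  · exact le_rfl

omit [DecidableEq ι] in
lemma rt_le (c : κ → ℕ) {X : ι → κ → ℕ} {k : ι} {R : ℕ} (hR : ∑ m, X k m ≤ R) (j l : κ) :
    rt c X k j l ≤ ((R : ℝ) + 1) ^ 2 / 2 := by
  unfold rt
  split_ifs with h
  · have h1 : X k l + X k j ≤ ∑ m, X k m := by
      rw [← Finset.add_sum_erase univ (X k) (mem_univ l)]
      have := Finset.single_le_sum (f := X k) (fun _ _ => Nat.zero_le _)
        (mem_erase.2 ⟨Ne.symm h.1, mem_univ j⟩ : j ∈ univ.erase l)
      omega
    have h2 : ((X k l : ℝ)) + X k j ≤ R := by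
      exact_mod_cast h1.trans hR
    push_cast
    have h3 : (0 : ℝ) ≤ X k l := by positivity
    have h4 : (0 : ℝ) ≤ X k j := by positivity
    nlinarith [sq_nonneg ((X k l : ℝ) - (X k j + 1)), mul_nonneg h3 h4]
  · positivity

lemma sum_fin (M a : ℕ) (d b : ℝ) (h : a ≤ M) :
    ∑ u : Fin M, (if (u : ℕ) < a then d else b) = M * b + a * (d - b) := by
  have h1 : ∀ u : Fin M, (if (u : ℕ) < a then d else b) = b + if (u : ℕ) < a then d - b else 0 := by
    intro u
    split_ifs <;> ring
  rw [Finset.sum_congr rfl fun u _ => h1 u, Finset.sum_add_distrib, Finset.sum_const,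
    Finset.card_univ, Fintype.card_fin, nsmul_eq_mul]
  congr 1
  rw [Fin.sum_univ_eq_sum_range (fun u => if u < a then d - b else 0) M, ← Finset.sum_filter]
  have h2 : (range M).filter (fun u => u < a) = range a := by
    ext u
    rw [mem_filter, mem_range, mem_range]
    omega
  rw [h2, Finset.sum_const, card_range, nsmul_eq_mul]

lemma stp_sum (c : κ → ℕ) (F : (ι → κ → ℕ) → ℝ) {X : ι → κ → ℕ} (k : ι) {R : ℕ}
    (hR : ∑ m, X k m ≤ R) (l j : κ) :
    ∑ u : Fin ((R + 1) ^ 2), F (stp c ((R + 1) ^ 2) X (some k, l, j, u))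
      = ((R : ℝ) + 1) ^ 2 * F X + rt c X k j l * (F (X + E k j - E k l) - F X) := by
  have hX : ∀ m, X k m ≤ R := fun m =>
    (Finset.single_le_sum (f := X k) (fun _ _ => Nat.zero_le _) (mem_univ m)).trans hR
  have hM : X k l * (X k j + 1) ≤ (R + 1) ^ 2 := by
    have h1 := hX l
    have h2 := hX j
    nlinarith
  by_cases h : l ≠ j ∧ ∑ i, X i j < c j
  · have h1 : ∀ u : Fin ((R + 1) ^ 2), F (stp c ((R + 1) ^ 2) X (some k, l, j, u))
        = if (u : ℕ) < X k l * (X k j + 1) then F (X + E k j - E k l) else F X := by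
      intro u
      unfold stp
      by_cases h2 : (u : ℕ) < X k l * (X k j + 1)
      · simp [h.1, h.2, h2]
      · simp [h2]
    rw [Finset.sum_congr rfl fun u _ => h1 u, sum_fin _ _ _ _ hM]
    unfold rt
    rw [if_pos h]
    push_cast
    ring
  · have h1 : ∀ u : Fin ((R + 1) ^ 2), F (stp c ((R + 1) ^ 2) X (some k, l, j, u)) = F X := by
      intro u
      unfold stp
      simp only
      rw [if_neg (fun h' => h ⟨h'.1, h'.2.2⟩)]
    rw [Finset.sum_congr rfl fun u _ => h1 u]
    unfold rt
    rw [if_neg h, Finset.sum_const, Finset.card_univ, Fintype.card_fin, nsmul_eq_mul]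
    push_cast
    ring

end

theorem thm (hD : StmtDIR.{u, v}) : StmtPOP.{u, v} := by
  intro ι _ _ κ _ _ _ r c R F hR
  have hn : (0 : ℝ) < Fintype.card κ := by
    have : 0 < Fintype.card κ := Fintype.card_pos
    exact_mod_cast this
  refine ⟨?_, ?_, ?_⟩
  · rintro X hX ⟨o, l, j, u⟩
    cases o with
    | none => exact hX
    | some k =>
      unfold stp
      simp only
      split_ifs with h
      · apply move_mem hX k j l h.1 _ h.2.2
        by_contra h0
        have h1 : X k l = 0 := by omega
        have h2 := h.2.1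
        rw [h1, zero_mul] at h2
        exact absurd h2 (Nat.not_lt_zero _)
      · exact hX
  · intro X hX
    have hX' := mem_Om.1 hX
    unfold PP
    rw [Fintype.sum_prod_type, Fintype.sum_option]
    have h0 : ∑ q : κ × κ × Fin ((R + 1) ^ 2), F (stp c ((R + 1) ^ 2) X (none, q))
        = (Fintype.card κ : ℝ) ^ 2 * ((R : ℝ) + 1) ^ 2 * F X := by
      have : ∀ q : κ × κ × Fin ((R + 1) ^ 2), F (stp c ((R + 1) ^ 2) X (none, q)) = F X := by
        intro q
        rfl
      rw [Finset.sum_congr rfl fun q _ => this q, Finset.sum_const, Finset.card_univ,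
        Fintype.card_prod, Fintype.card_prod, Fintype.card_fin, nsmul_eq_mul]
      push_cast
      ring
    have h1 : ∀ k, ∑ q : κ × κ × Fin ((R + 1) ^ 2), F (stp c ((R + 1) ^ 2) X (some k, q))
        = (Fintype.card κ : ℝ) ^ 2 * ((R : ℝ) + 1) ^ 2 * F X + LL c F k X := by
      intro k
      have hRk : ∑ m, X k m ≤ R := by
        rw [hX'.1 k]
        exact hR k
      rw [Fintype.sum_prod_type]
      have h2 : ∀ l, ∑ q : κ × Fin ((R + 1) ^ 2), F (stp c ((R + 1) ^ 2) X (some k, l, q))
          = ∑ j, (((R : ℝ) + 1) ^ 2 * F X + rt c X k j l * (F (X + E k j - E k l) - F X)) := by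
        intro l
        rw [Fintype.sum_prod_type]
        exact Finset.sum_congr rfl fun j _ => stp_sum c F k hRk l j
      rw [Finset.sum_congr rfl fun l _ => h2 l, Finset.sum_comm, LL_eq]
      simp only [Finset.sum_add_distrib, Finset.sum_const, Finset.card_univ, nsmul_eq_mul]
      ring
    rw [h0, Finset.sum_congr rfl fun k _ => h1 k, Finset.sum_add_distrib, Finset.sum_const,
      Finset.card_univ, nsmul_eq_mul, Fintype.card_prod, Fintype.card_prod, Fintype.card_prod,
      Fintype.card_option, Fintype.card_fin]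
    push_cast
    have h3 : (0 : ℝ) < (Fintype.card ι : ℝ) + 1 := by positivity
    have h4 : (0 : ℝ) < (R : ℝ) + 1 := by positivity
    field_simp
    ring
  · set A : ℝ := ((Fintype.card ι : ℝ) + 1) * (Fintype.card κ : ℝ) ^ 2 * ((R : ℝ) + 1) ^ 2 with hA
    have hA0 : 0 ≤ A := by positivity
    -- carre du champ
    have hG : ∀ k, ∑ X ∈ Om r c, ∑ j, ∑ l, rt c X k j l * (F (X + E k j - E k l) - F X) ^ 2
        = 2 * DD r c F F k := by
      intro k
      have h1 := (hD ι κ r c (fun X => F X ^ 2) (fun _ => 1) k).1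
      have h2 := (hD ι κ r c F F k).1
      have h3 : DD r c (fun X => F X ^ 2) (fun _ => 1) k = 0 := by
        unfold DD
        simp
      rw [h3] at h1
      have h4 : ∀ X, ∑ j, ∑ l, rt c X k j l * (F (X + E k j - E k l) - F X) ^ 2
          = -(1 * -LL c (fun X => F X ^ 2) k X) + 2 * (F X * -LL c F k X) := by
        intro X
        rw [LL_eq, LL_eq]
        have h5 : 2 * (F X * -∑ j, ∑ l, rt c X k j l * (F (X + E k j - E k l) - F X))
            = ∑ j, ∑ l, - (2 * F X * (rt c X k j l * (F (X + E k j - E k l) - F X))) := by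
          simp only [Finset.sum_neg_distrib, ← Finset.mul_sum]
          ring
        rw [h5, one_mul, neg_neg, ← Finset.sum_add_distrib]
        apply Finset.sum_congr rfl
        intro j _
        rw [← Finset.sum_add_distrib]
        apply Finset.sum_congr rfl
        intro l _
        ring
      rw [Finset.sum_congr rfl fun X _ => h4 X, Finset.sum_add_distrib, Finset.sum_neg_distrib,
        h1, ← Finset.mul_sum, h2]
      ring
    have hCS : ∀ X ∈ Om r c, (∑ k, LL c F k X) ^ 2 ≤ (A / 2) *
        ∑ k, ∑ j, ∑ l, rt c X k j l * (F (X + E k j - E k l) - F X) ^ 2 := by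
      intro X hX
      have hX' := mem_Om.1 hX
      have h1 : ∑ k, LL c F k X = ∑ q : ι × κ × κ, rt c X q.1 q.2.1 q.2.2
          * (F (X + E q.1 q.2.1 - E q.1 q.2.2) - F X) := by
        rw [Fintype.sum_prod_type]
        apply Finset.sum_congr rfl
        intro k _
        rw [LL_eq, Fintype.sum_prod_type]
      have h2 : ∑ k, ∑ j, ∑ l, rt c X k j l * (F (X + E k j - E k l) - F X) ^ 2
          = ∑ q : ι × κ × κ, rt c X q.1 q.2.1 q.2.2
            * (F (X + E q.1 q.2.1 - E q.1 q.2.2) - F X) ^ 2 := by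
        rw [Fintype.sum_prod_type]
        apply Finset.sum_congr rfl
        intro k _
        rw [Fintype.sum_prod_type]
      rw [h1, h2]
      have h3 := Finset.sum_sq_le_sum_mul_sum_of_sq_le_mul (univ : Finset (ι × κ × κ))
        (f := fun q => rt c X q.1 q.2.1 q.2.2)
        (g := fun q => rt c X q.1 q.2.1 q.2.2 * (F (X + E q.1 q.2.1 - E q.1 q.2.2) - F X) ^ 2)
        (r := fun q => rt c X q.1 q.2.1 q.2.2 * (F (X + E q.1 q.2.1 - E q.1 q.2.2) - F X))
        (fun q _ => rt_nonneg _ _ _ _ _)
        (fun q _ => mul_nonneg (rt_nonneg _ _ _ _ _) (sq_nonneg _))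
        (fun q _ => by
          apply le_of_eq
          ring)
      refine h3.trans ?_
      apply mul_le_mul_of_nonneg_right _ (Finset.sum_nonneg fun q _ =>
        mul_nonneg (rt_nonneg _ _ _ _ _) (sq_nonneg _))
      calc ∑ q : ι × κ × κ, rt c X q.1 q.2.1 q.2.2
          ≤ ∑ q : ι × κ × κ, ((R : ℝ) + 1) ^ 2 / 2 := by
            apply Finset.sum_le_sum
            intro q _
            apply rt_le
            rw [hX'.1 q.1]
            exact hR q.1
        _ = (Fintype.card ι : ℝ) * (Fintype.card κ : ℝ) ^ 2 * (((R : ℝ) + 1) ^ 2 / 2) := by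
            rw [Finset.sum_const, Finset.card_univ, Fintype.card_prod, Fintype.card_prod,
              nsmul_eq_mul]
            push_cast
            ring
        _ ≤ A / 2 := by
            rw [hA]
            have : 0 ≤ (Fintype.card κ : ℝ) ^ 2 * ((R : ℝ) + 1) ^ 2 := by positivity
            nlinarith
    calc ∑ X ∈ Om r c, (∑ k, LL c F k X) ^ 2
        ≤ ∑ X ∈ Om r c, (A / 2) *
          ∑ k, ∑ j, ∑ l, rt c X k j l * (F (X + E k j - E k l) - F X) ^ 2 :=
          Finset.sum_le_sum hCS
      _ = (A / 2) * ∑ k, ∑ X ∈ Om r c, ∑ j, ∑ l,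
            rt c X k j l * (F (X + E k j - E k l) - F X) ^ 2 := by
          rw [← Finset.mul_sum, Finset.sum_comm]
      _ = (A / 2) * ∑ k, 2 * DD r c F F k := by
          rw [Finset.sum_congr rfl fun k _ => hG k]
      _ = A * ∑ k, DD r c F F k := by
          rw [← Finset.mul_sum]
          ring

end POP

end Vale.P328U
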