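import Vale.Agent.P328.U.Defs

/-! # P328 U, module SOS: the local identity (helper11) -/

namespace Vale.P328U.SOS

open Finset BigOperators Vale.P328U

universe v

section
variable {κ : Type v} [Fintype κ] [DecidableEq κ]

/-- weighted variance is a sum of squares -/
theorem var_eq (a x : κ → ℝ) (hM : 0 < ∑ c, a c) :
    ∑ c, a c * (x c) ^ 2 - (∑ c, a c * x c) ^ 2 / (∑ c, a c) =
      ∑ c, a c * (x c - (∑ c, a c * x c) / (∑ c, a c)) ^ 2 := by
  set M := ∑ c, a c with hMdef
  set T := ∑ c, a c * x c with hT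
  have e1 : ∑ c, a c * (x c - T / M) ^ 2 =
      ∑ c, a c * (x c) ^ 2 - 2 * (T / M) * T + (T / M) ^ 2 * M := by
    rw [hT, hMdef, mul_sum, mul_sum, ← sum_sub_distrib, ← sum_add_distrib]
    exact sum_congr rfl fun c _ => by ring
  rw [e1]
  field_simp
  ring

theorem var_nonneg (a x : κ → ℝ) (ha : ∀ c, 0 ≤ a c) (hM : 0 < ∑ c, a c) :
    0 ≤ ∑ c, a c * (x c) ^ 2 - (∑ c, a c * x c) ^ 2 / (∑ c, a c) := by
  rw [var_eq a x hM]
  exact sum_nonneg fun c _ => mul_nonneg (ha c) (sq_nonneg _)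

theorem var_two (a x : κ → ℝ) (ha : ∀ c, 0 ≤ a c) (hM : 0 < ∑ c, a c) (b d : κ)
    (hb : 1 ≤ a b) (hd : 1 ≤ a d) :
    (x b - x d) ^ 2 ≤ 2 * (∑ c, a c * (x c) ^ 2 - (∑ c, a c * x c) ^ 2 / (∑ c, a c)) := by
  by_cases hbd : b = d
  · subst hbd
    have := var_nonneg a x ha hM
    simpa using this
  · rw [var_eq a x hM]
    set m := (∑ c, a c * x c) / (∑ c, a c)
    have h1 : a b * (x b - m) ^ 2 + a d * (x d - m) ^ 2 ≤ ∑ c, a c * (x c - m) ^ 2 := by
      rw [← sum_pair hbd (f := fun c => a c * (x c - m) ^ 2)]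
      exact sum_le_sum_of_subset_of_nonneg (subset_univ _)
        fun c _ _ => mul_nonneg (ha c) (sq_nonneg _)
    have h2 : (x b - m) ^ 2 ≤ a b * (x b - m) ^ 2 := by nlinarith [sq_nonneg (x b - m)]
    have h3 : (x d - m) ^ 2 ≤ a d * (x d - m) ^ 2 := by nlinarith [sq_nonneg (x d - m)]
    nlinarith [sq_nonneg ((x b - m) + (x d - m))]

/-- the real version of the local identity -/
theorem real_id (a : κ → ℝ) (G : κ → κ → ℝ) (hG : ∀ c l, G c l = G l c)
    (hM : 0 < ∑ c, a c) (H : κ → ℝ) :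
    ∑ j, ∑ c, a c * a j * ((H c - (∑ c, a c - 1) * G c j) * (H j - (∑ c, a c - 1) * G j c)) =
    ∑ j, (∑ c, a c * a j * (H c - (∑ c, a c - 1) * G c j) ^ 2 -
      a j * (∑ c, a c * H c - (∑ c, a c) * H j) ^ 2 / (∑ c, a c)) := by
  set M := ∑ c, a c with hMdef
  set S := ∑ c, a c * H c with hSdef
  have e1 : ∑ j, a j * (S - M * H j) ^ 2 / M = M * ∑ j, a j * (H j) ^ 2 - S ^ 2 := by
    have : ∀ j, a j * (S - M * H j) ^ 2 / M =
        (S ^ 2 / M) * a j - 2 * S * (a j * H j) + M * (a j * (H j) ^ 2) := by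
      intro j
      field_simp
      ring
    rw [sum_congr rfl fun j _ => this j, sum_add_distrib, sum_sub_distrib, ← mul_sum, ← mul_sum,
      ← mul_sum, ← hMdef, ← hSdef]
    field_simp
    ring
  have e2 : ∑ j, ∑ c, a c * a j * (H c - (M - 1) * G c j) ^ 2 =
      ∑ j, ∑ c, a c * a j * (H j - (M - 1) * G j c) ^ 2 := by
    rw [sum_comm]
    exact sum_congr rfl fun j _ => sum_congr rfl fun c _ => by ring
  have e3 : ∑ j, ∑ c, a c * a j * (H c - H j) ^ 2 = 2 * (M * ∑ j, a j * (H j) ^ 2 - S ^ 2) := by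
    have h1 : ∀ j, ∑ c, a c * a j * (H c - H j) ^ 2 =
        a j * (∑ c, a c * (H c) ^ 2) - 2 * (a j * H j) * S + (a j * (H j) ^ 2) * M := by
      intro j
      rw [hSdef, hMdef, mul_sum, mul_sum, mul_sum, ← sum_sub_distrib, ← sum_add_distrib]
      exact sum_congr rfl fun c _ => by ring
    rw [sum_congr rfl fun j _ => h1 j, sum_add_distrib, sum_sub_distrib, ← sum_mul, ← sum_mul,
      ← sum_mul, ← mul_sum, ← hMdef, ← hSdef]
    ring
  have e4 : ∑ j, ∑ c, a c * a j * (H c - H j) ^ 2 =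
      ∑ j, ∑ c, a c * a j * (H c - (M - 1) * G c j) ^ 2 +
      ∑ j, ∑ c, a c * a j * (H j - (M - 1) * G j c) ^ 2 -
      2 * ∑ j, ∑ c, a c * a j * ((H c - (M - 1) * G c j) * (H j - (M - 1) * G j c)) := by
    rw [mul_sum, ← sum_add_distrib, ← sum_sub_distrib]
    refine sum_congr rfl fun j _ => ?_
    rw [mul_sum, ← sum_add_distrib, ← sum_sub_distrib]
    refine sum_congr rfl fun c _ => ?_
    rw [hG c j]
    ring
  rw [sum_sub_distrib, e1]
  linarith

/-- weighted sum of the fluxes -/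
theorem sum_flux (a : κ → ℝ) (G : κ → κ → ℝ) (hG : ∀ c l, G c l = G l c)
    (H : κ → ℝ) (hH : ∀ c, H c = ∑ l, (a l - if l = c then 1 else 0) * G c l) (j : κ) :
    ∑ c, a c * ((a j - if j = c then 1 else 0) * (H c - (∑ c, a c - 1) * G c j)) =
      a j * (∑ c, a c * H c - (∑ c, a c) * H j) := by
  set M := ∑ c, a c with hMdef
  have h1 : H j = ∑ l, a l * G j l - G j j := by
    rw [hH j]
    simp [sub_mul, sum_sub_distrib]
  have h2 : ∑ c, a c * ((a j - if j = c then 1 else 0) * (H c - (M - 1) * G c j)) =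
      a j * ∑ c, a c * H c - (M - 1) * a j * ∑ c, a c * G j c -
        a j * (H j - (M - 1) * G j j) := by
    have : ∀ c, a c * ((a j - if j = c then 1 else 0) * (H c - (M - 1) * G c j)) =
        a j * (a c * H c) - (M - 1) * a j * (a c * G j c) -
          (if j = c then a c * (H c - (M - 1) * G c j) else 0) := by
      intro c
      rw [hG c j]
      split_ifs with h
      · ring
      · ring
    rw [sum_congr rfl fun c _ => this c, sum_sub_distrib, sum_sub_distrib, ← mul_sum, ← mul_sum]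
    simp
  rw [h2]
  have h3 : ∑ l, a l * G j l = H j + G j j := by rw [h1]; ring
  rw [h3]
  ring

/-- the flux in terms of `H` and `G` -/
theorem V_eq (f : (κ → ℕ) → ℝ) (w : κ → ℕ) (c j : κ) (hc : 1 ≤ w c) :
    V f j (w - e c) = -(((w j : ℝ) - if j = c then 1 else 0) *
      ((∑ l, ((w l : ℝ) - if l = c then 1 else 0) * f (w - e c - e l)) -
        ((∑ l, (w l : ℝ)) - 1) * f (w - e c - e j))) := by
  have hcast : ∀ l, (((w - e c) l : ℕ) : ℝ) = (w l : ℝ) - if l = c then 1 else 0 := by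
    intro l
    by_cases h : l = c
    · subst h
      simp only [Pi.sub_apply, e, Pi.single_eq_same, if_true]
      rw [Nat.cast_sub hc]
      simp
    · simp [e, h]
  unfold V
  have h1 : ∀ l, (((w - e c) l : ℕ) : ℝ) * (f (w - e c - e j) - f (w - e c - e l)) =
      ((w l : ℝ) - if l = c then 1 else 0) * f (w - e c - e j) -
      ((w l : ℝ) - if l = c then 1 else 0) * f (w - e c - e l) := by
    intro l
    rw [hcast l]
    ring
  rw [sum_congr rfl fun l _ => h1 l, hcast j, sum_sub_distrib, ← sum_mul]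
  have h2 : ∑ l, ((w l : ℝ) - if l = c then 1 else 0) = ∑ l, (w l : ℝ) - 1 := by
    rw [sum_sub_distrib]
    simp
  rw [h2]
  ring

/-- the decomposition of `Q` -/
theorem Q_eq (f : (κ → ℕ) → ℝ) (w : κ → ℕ) (hM : 0 < ∑ j, (w j : ℝ)) :
    ∃ R : κ → ℝ, Q f w = ∑ j, R j ∧ (∀ j, 0 ≤ R j) ∧
      ∀ j a b, 1 ≤ w j → 1 ≤ w a → 1 ≤ w b →
        (V f j (w - e a) - V f j (w - e b)) ^ 2 ≤ 2 * ((w j : ℝ) * R j) := by
  set a : κ → ℝ := fun j => (w j : ℝ) with ha
  have ha0 : ∀ c, 0 ≤ a c := fun c => Nat.cast_nonneg _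
  set G : κ → κ → ℝ := fun c l => f (w - e c - e l) with hGdef
  have hG : ∀ c l, G c l = G l c := by
    intro c l
    simp only [hGdef]
    congr 1
    funext i
    simp only [Pi.sub_apply]
    omega
  set H : κ → ℝ := fun c => ∑ l, (a l - if l = c then 1 else 0) * G c l with hHdef
  have hH : ∀ c, H c = ∑ l, (a l - if l = c then 1 else 0) * G c l := fun c => rfl
  have hM0 : 0 < ∑ c, a c := hM
  set M := ∑ c, a c with hMdef
  set x : κ → κ → ℝ := fun j c => (a j - if j = c then 1 else 0) * (H c - (M - 1) * G c j)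
    with hx
  have hU : ∀ c j, 1 ≤ w c → V f j (w - e c) = - x j c := by
    intro c j hc
    rw [V_eq f w c j hc]
  have hV0 : ∀ (j : κ) (z : κ → ℕ), z j = 0 → V f j z = 0 := by
    intro j z hz
    unfold V
    rw [hz]
    simp
  -- the parts
  let R : κ → ℝ := fun j => if 1 ≤ w j then
    (1 / a j) * (∑ c, a c * (x j c) ^ 2 - (∑ c, a c * x j c) ^ 2 / M) else 0
  have hR0 : ∀ j, 0 ≤ R j := by
    intro j
    simp only [R]
    split_ifs with hj
    · exact mul_nonneg (one_div_nonneg.2 (ha0 j)) (var_nonneg a (x j) ha0 hM0)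
    · exact le_rfl
  have hB : Q f w = ∑ j, (∑ c, a c * a j *
      ((H c - (M - 1) * G c j) * (H j - (M - 1) * G j c)) +
      ((if 1 ≤ w j then (x j j) ^ 2 else 0) -
        a j * a j * (H j - (M - 1) * G j j) ^ 2)) := by
    unfold Q
    refine sum_congr rfl fun j _ => ?_
    rw [← add_sum_erase univ _ (mem_univ j), ← add_sum_erase univ (fun c => a c * a j *
      ((H c - (M - 1) * G c j) * (H j - (M - 1) * G j c))) (mem_univ j)]
    have e1' : ∑ c ∈ univ.erase j, V f j (w - e c) * V f c (w - e j) =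
        ∑ c ∈ univ.erase j, a c * a j *
          ((H c - (M - 1) * G c j) * (H j - (M - 1) * G j c)) := by
      refine sum_congr rfl fun c hc => ?_
      have hcj : c ≠ j := (mem_erase.1 hc).1
      by_cases h0 : 1 ≤ w c
      · by_cases h1 : 1 ≤ w j
        · rw [hU c j h0, hU j c h1]
          simp only [hx, if_neg (Ne.symm hcj), if_neg hcj]
          ring
        · have hz : w j = 0 := by omega
          rw [hV0 j (w - e c) (by simp [hz])]
          simp [ha, hz]
      · have hz : w c = 0 := by omega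
        rw [hV0 c (w - e j) (by simp [hz])]
        simp [ha, hz]
    rw [e1']
    have e2' : V f j (w - e j) * V f j (w - e j) = (if 1 ≤ w j then (x j j) ^ 2 else 0) := by
      by_cases h : 1 ≤ w j
      · rw [if_pos h, hU j j h]
        ring
      · have hz : w j = 0 := by omega
        rw [if_neg h, hV0 j (w - e j) (by simp [hz])]
        ring
    rw [e2']
    ring
  have key : ∀ j, 1 ≤ w j → ∑ c, a c * (x j c) ^ 2 - (∑ c, a c * x j c) ^ 2 / M =
      a j * (∑ c, a c * a j * (H c - (M - 1) * G c j) ^ 2 -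
        a j * (∑ c, a c * H c - M * H j) ^ 2 / M +
        ((x j j) ^ 2 - a j * a j * (H j - (M - 1) * G j j) ^ 2)) := by
    intro j hj
    have hs : ∑ c, a c * x j c = a j * (∑ c, a c * H c - M * H j) := sum_flux a G hG H hH j
    have hq : ∑ c, a c * (x j c) ^ 2 = a j * (∑ c, a c * a j * (H c - (M - 1) * G c j) ^ 2 +
        ((x j j) ^ 2 - a j * a j * (H j - (M - 1) * G j j) ^ 2)) := by
      rw [← add_sum_erase univ _ (mem_univ j), ← add_sum_erase univ (fun c => a c * a j *
        (H c - (M - 1) * G c j) ^ 2) (mem_univ j)]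
      have e3 : ∑ c ∈ univ.erase j, a c * (x j c) ^ 2 =
          a j * ∑ c ∈ univ.erase j, a c * a j * (H c - (M - 1) * G c j) ^ 2 := by
        rw [mul_sum]
        refine sum_congr rfl fun c hc => ?_
        have hcj : c ≠ j := (mem_erase.1 hc).1
        simp only [hx, if_neg (Ne.symm hcj)]
        ring
      rw [e3]
      ring
    rw [hs, hq]
    field_simp
    ring
  refine ⟨R, ?_, hR0, ?_⟩
  · rw [hB, sum_add_distrib, real_id a G hG hM0 H, ← sum_add_distrib]
    refine sum_congr rfl fun j _ => ?_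
    by_cases hj : 1 ≤ w j
    · have haj0 : 0 < a j := by
        have : (1 : ℝ) ≤ a j := by simp only [ha]; exact_mod_cast hj
        linarith
      simp only [R, if_pos hj]
      rw [key j hj, ← hMdef, ← mul_assoc, one_div_mul_cancel haj0.ne', one_mul]
    · have hw0 : w j = 0 := by omega
      have haj : a j = 0 := by simp [ha, hw0]
      simp only [R, if_neg hj, haj]
      simp
  · intro j b d hj hb hd
    have haj0 : 0 < a j := by
      have : (1 : ℝ) ≤ a j := by simp only [ha]; exact_mod_cast hj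
      linarith
    have hb1 : (1 : ℝ) ≤ a b := by simp only [ha]; exact_mod_cast hb
    have hd1 : (1 : ℝ) ≤ a d := by simp only [ha]; exact_mod_cast hd
    have h := var_two a (x j) ha0 hM0 b d hb1 hd1
    have e5 : (w j : ℝ) * R j = ∑ c, a c * (x j c) ^ 2 - (∑ c, a c * x j c) ^ 2 / M := by
      simp only [R, if_pos hj]
      change a j * (1 / a j * _) = _
      field_simp
    rw [hU b j hb, hU d j hd, e5]
    calc (-x j b - -x j d) ^ 2 = (x j b - x j d) ^ 2 := by ring
      _ ≤ _ := h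

end

theorem q0 : StmtQ0.{v} := by
  intro κ _ _ f w
  by_cases hM : ∑ j, (w j : ℝ) = 0
  · have hw : ∀ j, w j = 0 := by
      intro j
      have := (sum_eq_zero_iff_of_nonneg (fun j _ => Nat.cast_nonneg (w j))).1 hM j (mem_univ j)
      exact_mod_cast this
    have : Q f w = 0 := by
      unfold Q V
      refine sum_eq_zero fun j _ => sum_eq_zero fun c _ => ?_
      have : (w - e c) j = 0 := by simp [hw j]
      rw [this]
      simp
    rw [this]
  · have hM0 : 0 < ∑ j, (w j : ℝ) :=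
      lt_of_le_of_ne (sum_nonneg fun j _ => Nat.cast_nonneg _) (Ne.symm hM)
    obtain ⟨R, h1, h2, -⟩ := Q_eq f w hM0
    rw [h1]
    exact sum_nonneg fun j _ => h2 j

theorem thm : StmtSOS.{v} := by
  intro κ _ _ f w j a b ha hb
  have hM0 : 0 < ∑ j, (w j : ℝ) := by
    have h1 : (w a : ℝ) ≤ ∑ j, (w j : ℝ) :=
      single_le_sum (fun j _ => Nat.cast_nonneg (w j)) (mem_univ a)
    have h2 : (1 : ℝ) ≤ w a := by exact_mod_cast ha
    linarith
  have hQ0 := q0 κ f w
  by_cases hj : 1 ≤ w j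
  · obtain ⟨R, h1, h2, h3⟩ := Q_eq f w hM0
    have hR : R j ≤ Q f w := by
      rw [h1]
      exact single_le_sum (fun j _ => h2 j) (mem_univ j)
    have hwj : (w j : ℝ) ≤ ∑ j, (w j : ℝ) :=
      single_le_sum (fun j _ => Nat.cast_nonneg (w j)) (mem_univ j)
    have hwj0 : (0 : ℝ) ≤ w j := Nat.cast_nonneg _
    calc _ ≤ 2 * ((w j : ℝ) * R j) := h3 j a b hj ha hb
      _ ≤ 2 * ((∑ i, (w i : ℝ)) * Q f w) := by
          have := mul_le_mul hwj hR (h2 j) hM0.le
          linarith
      _ = _ := by ring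
  · have hz : w j = 0 := by omega
    have h0 : ∀ c, V f j (w - e c) = 0 := by
      intro c
      unfold V
      have : (w - e c) j = 0 := by simp [hz]
      rw [this]
      simp
    rw [h0, h0]
    have : 0 ≤ 2 * (∑ i, (w i : ℝ)) * Q f w := by positivity
    simpa using this

end Vale.P328U.SOS
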