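import Vale.Agent.P328.U.Defs

/-!
# P328, unary margins, module TWOR: the two-row inequality
-/

namespace Vale.P328U
open Finset BigOperators

universe v

lemma TWOR.sum_V {κ : Type v} [Fintype κ] [DecidableEq κ] (f : (κ → ℕ) → ℝ) (w : κ → ℕ) :
    ∑ j, V f j w = 0 := by
  have h1 : ∑ j, V f j w = ∑ j, ∑ l, (w j : ℝ) * ((w l : ℝ) * (f (w - e j) - f (w - e l))) := by
    unfold V
    simp only [Finset.mul_sum]
  have h2 : ∑ j, ∑ l, (w j : ℝ) * ((w l : ℝ) * (f (w - e j) - f (w - e l)))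
      = - ∑ j, ∑ l, (w j : ℝ) * ((w l : ℝ) * (f (w - e j) - f (w - e l))) := by
    conv_lhs => rw [Finset.sum_comm]
    rw [← Finset.sum_neg_distrib]
    apply Finset.sum_congr rfl
    intro j _
    rw [← Finset.sum_neg_distrib]
    apply Finset.sum_congr rfl
    intro l _
    ring
  rw [h1]
  linarith

theorem TWOR.thm (hSOS : StmtSOS.{v}) (hQ : StmtQ0.{v}) (hFR : StmtFR.{v}) : StmtTWOR.{v} := by
  intro κ _ _ s p f hs
  have hne : Nonempty κ := by
    by_contra h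
    rw [not_nonempty_iff] at h
    simp at hs
  obtain ⟨J, _, hJ⟩ := Finset.exists_max_image (univ : Finset κ) s univ_nonempty
  set n : ℝ := (Fintype.card κ : ℝ) with hn
  have hn1 : 1 ≤ n := by
    have : 1 ≤ Fintype.card κ := Fintype.card_pos
    rw [hn]
    exact_mod_cast this
  set SQ : ℝ := ∑ v ∈ B s (p + 2), Q f v with hSQ
  have hSQ0 : 0 ≤ SQ := Finset.sum_nonneg fun v _ => hQ κ f v
  have hP : (0 : ℝ) ≤ ((p : ℝ) + 2) := by positivity
  have hj : ∀ j, j ≠ J → ∑ w ∈ B s (p + 1), V f j w ^ 2 ≤ 6 * n ^ 2 * ((p : ℝ) + 2) ^ 4 * SQ := by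
    intro j hjJ
    have h1 := hFR κ s (p + 1) j J (V f j) (by omega) hjJ (hJ j (mem_univ j)) (by
      intro w hw
      unfold V
      rw [hw]
      simp)
    refine h1.trans ?_
    have h2 : ∀ v ∈ B s (p + 1 + 1), (∑ a, ∑ b, if 1 ≤ v a ∧ 1 ≤ v b then
        (V f j (v - e a) - V f j (v - e b)) ^ 2 else 0) ≤ n ^ 2 * (2 * ((p : ℝ) + 2) * Q f v) := by
      intro v hv
      have hv' : ∑ i, v i = p + 1 + 1 := by
        unfold B at hv
        exact (mem_filter.1 hv).2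
      have hv2 : ∑ i, (v i : ℝ) = (p : ℝ) + 2 := by
        have : ((∑ i, v i : ℕ) : ℝ) = ((p + 1 + 1 : ℕ) : ℝ) := by rw [hv']
        push_cast at this
        linarith
      have h3 : ∀ a b, (if 1 ≤ v a ∧ 1 ≤ v b then
        (V f j (v - e a) - V f j (v - e b)) ^ 2 else 0) ≤ 2 * ((p : ℝ) + 2) * Q f v := by
        intro a b
        split_ifs with h
        · have := hSOS κ f v j a b h.1 h.2
          rw [hv2] at this
          exact this
        · have := hQ κ f v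
          positivity
      calc (∑ a, ∑ b, if 1 ≤ v a ∧ 1 ≤ v b then
            (V f j (v - e a) - V f j (v - e b)) ^ 2 else 0)
          ≤ ∑ a : κ, ∑ b : κ, 2 * ((p : ℝ) + 2) * Q f v :=
            Finset.sum_le_sum fun a _ => Finset.sum_le_sum fun b _ => h3 a b
        _ = n ^ 2 * (2 * ((p : ℝ) + 2) * Q f v) := by
            rw [Finset.sum_const, Finset.sum_const, card_univ, nsmul_eq_mul, nsmul_eq_mul, hn]
            ring
    have h4 : ∑ v ∈ B s (p + 1 + 1), (∑ a, ∑ b, if 1 ≤ v a ∧ 1 ≤ v b then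
        (V f j (v - e a) - V f j (v - e b)) ^ 2 else 0) ≤ n ^ 2 * (2 * ((p : ℝ) + 2) * SQ) := by
      refine (Finset.sum_le_sum h2).trans ?_
      rw [← Finset.mul_sum, ← Finset.mul_sum]
    have h5 : (3 : ℝ) * (((p + 1 : ℕ) : ℝ) + 1) ^ 3 = 3 * ((p : ℝ) + 2) ^ 3 := by
      push_cast
      ring
    rw [h5]
    calc 3 * ((p : ℝ) + 2) ^ 3 * _ ≤ 3 * ((p : ℝ) + 2) ^ 3 * (n ^ 2 * (2 * ((p : ℝ) + 2) * SQ)) :=
          mul_le_mul_of_nonneg_left h4 (by positivity)
      _ = 6 * n ^ 2 * ((p : ℝ) + 2) ^ 4 * SQ := by ring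
  have hcard : (((univ : Finset κ).erase J).card : ℝ) = n - 1 := by
    rw [card_erase_of_mem (mem_univ J), card_univ, Nat.cast_sub Fintype.card_pos, hn]
    simp
  have hw : ∀ w, ∑ j, V f j w ^ 2 ≤ n * ∑ j ∈ univ.erase J, V f j w ^ 2 := by
    intro w
    have h1 : V f J w = - ∑ j ∈ univ.erase J, V f j w := by
      have h2 := TWOR.sum_V f w
      rw [← Finset.add_sum_erase univ (fun j => V f j w) (mem_univ J)] at h2
      linarith
    have h3 : V f J w ^ 2 ≤ (n - 1) * ∑ j ∈ univ.erase J, V f j w ^ 2 := by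
      rw [h1, neg_sq, ← hcard]
      exact sq_sum_le_card_mul_sum_sq
    rw [← Finset.add_sum_erase univ (fun j => V f j w ^ 2) (mem_univ J)]
    linarith
  calc ∑ w ∈ B s (p + 1), ∑ j, V f j w ^ 2
      ≤ ∑ w ∈ B s (p + 1), n * ∑ j ∈ univ.erase J, V f j w ^ 2 :=
        Finset.sum_le_sum fun w _ => hw w
    _ = n * ∑ j ∈ univ.erase J, ∑ w ∈ B s (p + 1), V f j w ^ 2 := by
        rw [← Finset.mul_sum, Finset.sum_comm]
    _ ≤ n * ∑ j ∈ (univ : Finset κ).erase J, 6 * n ^ 2 * ((p : ℝ) + 2) ^ 4 * SQ := by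
        apply mul_le_mul_of_nonneg_left _ (by linarith)
        exact Finset.sum_le_sum fun j hj' => hj j (ne_of_mem_erase hj')
    _ = n * (n - 1) * (6 * n ^ 2 * ((p : ℝ) + 2) ^ 4 * SQ) := by
        rw [Finset.sum_const, nsmul_eq_mul, hcard]
        ring
    _ ≤ n * n * (6 * n ^ 2 * ((p : ℝ) + 2) ^ 4 * SQ) := by
        apply mul_le_mul_of_nonneg_right _ (by positivity)
        nlinarith
    _ = 6 * n ^ 4 * ((p : ℝ) + 2) ^ 4 * SQ := by ring

end Vale.P328U
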