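import Vale.Agent.P328.U.ACC
import Vale.Agent.P328.U.BOC
import Vale.Agent.P328.U.CONN
import Vale.Agent.P328.U.CRS
import Vale.Agent.P328.U.CRY
import Vale.Agent.P328.U.CTR
import Vale.Agent.P328.U.DIR
import Vale.Agent.P328.U.FIN
import Vale.Agent.P328.U.FR
import Vale.Agent.P328.U.MIX
import Vale.Agent.P328.U.POI
import Vale.Agent.P328.U.POP
import Vale.Agent.P328.U.ROW
import Vale.Agent.P328.U.SOS
import Vale.Agent.P328.U.STAR
import Vale.Agent.P328.U.TWOR
import Vale.Agent.P328.U.GEN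

/-!
# P328, unary margins: assembly (helper19)
-/

namespace Vale.P328U.ASM
open Vale.P328U

theorem twor : StmtTWOR.{0} := TWOR.thm SOS.thm SOS.q0 (FR.thm CRY.thm)
theorem row : StmtROW.{0, 0} := ROW.thm twor
theorem boc : StmtBOC.{0, 0} := BOC.thm CRS.thm
theorem poi : StmtPOI.{0, 0} := POI.thm row boc DIR.thm CON.thm
theorem pop : StmtPOP.{0, 0} := POP.thm DIR.thm
theorem ctr : StmtCTR.{0, 0} := CTR.thm pop poi DIR.thm
theorem mix : StmtMIX.{0, 0} := MIX.thm ctr pop DIR.thm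
theorem star : StmtSTAR := STAR.thm mix
theorem fin : StmtFIN := FIN.thm star ACC.thm

end Vale.P328U.ASM
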