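import Vale.Agent.P328.U.Defs

/-! # P328 U, module CRYF: full crystal operator of a product of chains (helper11) -/

namespace Vale.P328U.CRYF

open Finset BigOperators Vale.P328U

universe v

variable {κ : Type v} [Fintype κ] [DecidableEq κ]

theorem add_e_same (w : κ → ℕ) (b : κ) : (w + e b) b = w b + 1 := by simp [e]

theorem add_e_ne (w : κ → ℕ) {b c : κ} (h : c ≠ b) : (w + e b) c = w c := by
  simp [e, Pi.single_eq_of_ne h]

theorem sum_add_e_mem (w : κ → ℕ) {b : κ} {S : Finset κ} (h : b ∈ S) :
    ∑ j ∈ S, (w + e b) j = ∑ j ∈ S, w j + 1 := by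
  rw [← add_sum_erase S _ h, ← add_sum_erase S (fun j => w j) h, add_e_same]
  rw [sum_congr rfl fun c hc => add_e_ne w (mem_erase.1 hc).1]
  ring

/-- full crystal operator with counting functions `D` (unmatched ones) and `Z` (unmatched zeros) -/
theorem full (s : κ → ℕ) (S : Finset κ) : ∃ (D Z : (κ → ℕ) → ℕ) (f : (κ → ℕ) → (κ → ℕ)),
    (∀ w, w ≤ s → D w + ∑ j ∈ S, s j = Z w + 2 * ∑ j ∈ S, w j) ∧
    (∀ w, w ≤ s → 0 < Z w → ∃ c ∈ S, w c < s c ∧ f w = w + e c ∧ D (f w) = D w + 1 ∧
      Z (f w) + 1 = Z w) ∧
    (∀ w w', w ≤ s → w' ≤ s → 0 < Z w → 0 < Z w' → f w = f w' → w = w') ∧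
    (∀ w b, b ∉ S → D (w + e b) = D w ∧ Z (w + e b) = Z w) := by
  classical
  induction S using Finset.induction_on with
  | empty =>
    refine ⟨fun _ => 0, fun _ => 0, id, ?_, ?_, ?_, ?_⟩
    · intro w _
      simp
    · intro w _ h
      exact absurd h (lt_irrefl _)
    · intro w w' _ _ h
      exact absurd h (lt_irrefl _)
    · intro w b _
      simp
  | insert b S hb ih =>
    obtain ⟨D, Z, f, h1, h2, h3, h4⟩ := ih
    refine ⟨fun w => w b + (D w - (s b - w b)), fun w => ((s b - w b) - D w) + Z w,
      fun w => if D w < s b - w b then w + e b else f w, ?_, ?_, ?_, ?_⟩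
    · intro w hw
      have := h1 w hw
      have hwb : w b ≤ s b := hw b
      rw [sum_insert hb, sum_insert hb]
      simp only
      omega
    · intro w hw hZ
      by_cases hD : D w < s b - w b
      · refine ⟨b, mem_insert_self _ _, by omega, by simp only [if_pos hD], ?_, ?_⟩
        · simp only [if_pos hD, add_e_same, (h4 w b hb).1]
          omega
        · simp only [if_pos hD, add_e_same, (h4 w b hb).1, (h4 w b hb).2]
          omega
      · have hZ' : 0 < Z w := by
          simp only at hZ
          omega
        obtain ⟨c, hc, hlt, hf, hDf, hZf⟩ := h2 w hw hZ'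
        have hcb : c ≠ b := fun h => hb (h ▸ hc)
        refine ⟨c, mem_insert_of_mem hc, hlt, by simp only [if_neg hD]; exact hf, ?_, ?_⟩
        · have e1 : (f w) b = w b := by rw [hf]; exact add_e_ne w (Ne.symm hcb)
          simp only [if_neg hD, e1, hDf]
          omega
        · have e1 : (f w) b = w b := by rw [hf]; exact add_e_ne w (Ne.symm hcb)
          simp only [if_neg hD, e1, hDf]
          omega
    · have mixed : ∀ w w', w ≤ s → w' ≤ s → D w < s b - w b → ¬ D w' < s b - w' b → 0 < Z w' →
          w + e b ≠ f w' := by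
        intro w w' hw hw' hD hD' hZ' heq
        obtain ⟨c, hc, hlt, hf, hDf, hZf⟩ := h2 w' hw' hZ'
        have hcb : c ≠ b := fun h => hb (h ▸ hc)
        have e1 : (f w') b = w' b := by rw [hf]; exact add_e_ne w' (Ne.symm hcb)
        have e2 : w b + 1 = w' b := by rw [← e1, ← heq, add_e_same]
        have e3 : D w = D w' + 1 := by rw [← hDf, ← heq, (h4 w b hb).1]
        omega
      intro w w' hw hw' hZ hZ' heq
      simp only at hZ hZ' heq
      by_cases hD : D w < s b - w b
      · by_cases hD' : D w' < s b - w' b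
        · rw [if_pos hD, if_pos hD'] at heq
          exact add_right_cancel heq
        · rw [if_pos hD, if_neg hD'] at heq
          exact absurd heq (mixed w w' hw hw' hD hD' (by omega))
      · by_cases hD' : D w' < s b - w' b
        · rw [if_neg hD, if_pos hD'] at heq
          exact absurd heq.symm (mixed w' w hw' hw hD' hD (by omega))
        · rw [if_neg hD, if_neg hD'] at heq
          exact h3 w w' hw hw' (by omega) (by omega) heq
    · intro w a ha
      have hab : a ≠ b := fun h => ha (h ▸ mem_insert_self _ _)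
      have haS : a ∉ S := fun h => ha (mem_insert_of_mem h)
      simp only [(h4 w a haS).1, (h4 w a haS).2, add_e_ne w (Ne.symm hab)]
      exact ⟨trivial, trivial⟩

end Vale.P328U.CRYF
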