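import Mathlib

/-! # P328 U, module MATCH: antisymmetric matching of numbers that nearly cancel (helper5) -/

namespace Vale.P328U.MATCH

open Finset BigOperators

/-- real numbers `c k` can be matched by an antisymmetric array, up to an error bounded by the
absolute value of their sum -/
theorem match_lemma {ι : Type*} [Fintype ι] (c : ι → ℝ) :
    ∃ ψ : ι → ι → ℝ, (∀ k l, ψ k l = - ψ l k) ∧ (∀ k l, |ψ k l| ≤ |c k|) ∧
      (∀ k l, |ψ k l| ≤ |c l|) ∧ (∀ k, |c k - ∑ l, ψ k l| ≤ |∑ l, c l|) := by
  classical
  set P : ι → ℝ := fun k => max (c k) 0 with hP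
  set N : ι → ℝ := fun k => max (- c k) 0 with hN
  have hPN : ∀ k, c k = P k - N k := by
    intro k
    simp only [hP, hN]
    rcases le_total 0 (c k) with h | h
    · rw [max_eq_left h, max_eq_right (by linarith)]; ring
    · rw [max_eq_right h, max_eq_left (by linarith)]; ring
  have hP0 : ∀ k, 0 ≤ P k := fun k => le_max_right _ _
  have hN0 : ∀ k, 0 ≤ N k := fun k => le_max_right _ _
  have hPa : ∀ k, P k ≤ |c k| := by
    intro k
    exact max_le (le_abs_self _) (abs_nonneg _)
  have hNa : ∀ k, N k ≤ |c k| := by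
    intro k
    exact max_le (neg_le_abs _) (abs_nonneg _)
  have hPNz : ∀ k, P k = 0 ∨ N k = 0 := by
    intro k
    rcases le_total 0 (c k) with h | h
    · right; exact max_eq_right (by linarith)
    · left; exact max_eq_right h
  set Sp := ∑ k, P k with hSp
  set Sn := ∑ k, N k with hSn
  have hSp0 : 0 ≤ Sp := sum_nonneg fun k _ => hP0 k
  have hSn0 : 0 ≤ Sn := sum_nonneg fun k _ => hN0 k
  set M := max Sp Sn with hM
  have hPM : ∀ k, P k ≤ M := fun k =>
    (single_le_sum (f := P) (fun i _ => hP0 i) (mem_univ k)).trans (le_max_left _ _)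
  have hNM : ∀ k, N k ≤ M := fun k =>
    (single_le_sum (f := N) (fun i _ => hN0 i) (mem_univ k)).trans (le_max_right _ _)
  have hM0 : 0 ≤ M := hSp0.trans (le_max_left _ _)
  have hsum : ∑ l, c l = Sp - Sn := by
    rw [hSp, hSn, ← sum_sub_distrib]
    exact sum_congr rfl fun k _ => hPN k
  have key : ∀ k l, |(P k * N l - N k * P l) / M| ≤ |c k| := by
    intro k l
    rcases hM0.eq_or_lt with h0 | hpos
    · rw [← h0]; simp
    · rw [abs_div, abs_of_pos hpos, div_le_iff₀ hpos, abs_le]
      constructor
      · have h1 := mul_le_mul (hNa k) (hPM l) (hP0 l) (abs_nonneg _)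
        have h2 := mul_nonneg (hP0 k) (hN0 l)
        linarith
      · have h1 := mul_le_mul (hPa k) (hNM l) (hN0 l) (abs_nonneg _)
        have h2 := mul_nonneg (hN0 k) (hP0 l)
        linarith
  refine ⟨fun k l => (P k * N l - N k * P l) / M, ?_, key, ?_, ?_⟩
  · intro k l
    show (P k * N l - N k * P l) / M = -((P l * N k - N l * P k) / M)
    rw [← neg_div]
    congr 1
    ring
  · intro k l
    have h := key l k
    have : (P k * N l - N k * P l) / M = -((P l * N k - N l * P k) / M) := by
      rw [← neg_div]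
      congr 1
      ring
    show |(P k * N l - N k * P l) / M| ≤ |c l|
    rw [this, abs_neg]
    exact h
  · intro k
    have hrow : ∑ l, (P k * N l - N k * P l) / M = (P k * Sn - N k * Sp) / M := by
      rw [← sum_div, sum_sub_distrib, ← mul_sum, ← mul_sum]
    show |c k - ∑ l, (P k * N l - N k * P l) / M| ≤ _
    rw [hrow, hsum, hPN k]
    rcases hM0.eq_or_lt with h0 | hpos
    · have h1 : P k = 0 := le_antisymm (h0 ▸ hPM k) (hP0 k)
      have h2 : N k = 0 := le_antisymm (h0 ▸ hNM k) (hN0 k)
      rw [h1, h2]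
      simp
    · have e1 : P k - N k - (P k * Sn - N k * Sp) / M =
          (P k * (M - Sn) - N k * (M - Sp)) / M := by
        field_simp
        ring
      rw [e1, abs_div, abs_of_pos hpos, div_le_iff₀ hpos]
      have a1 : 0 ≤ M - Sn := by linarith [le_max_right Sp Sn]
      have a2 : 0 ≤ M - Sp := by linarith [le_max_left Sp Sn]
      have b1 : M - Sn ≤ |Sp - Sn| := by
        rcases max_choice Sp Sn with h | h
        · rw [hM, h]; exact le_abs_self _
        · rw [hM, h]; simp
      have b2 : M - Sp ≤ |Sp - Sn| := by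
        rcases max_choice Sp Sn with h | h
        · rw [hM, h]; simp
        · rw [hM, h, abs_sub_comm]; exact le_abs_self _
      have c1 : P k * (M - Sn) ≤ |Sp - Sn| * M := by
        calc P k * (M - Sn) ≤ M * |Sp - Sn| := mul_le_mul (hPM k) b1 a1 hM0
          _ = _ := by ring
      have c2 : N k * (M - Sp) ≤ |Sp - Sn| * M := by
        calc N k * (M - Sp) ≤ M * |Sp - Sn| := mul_le_mul (hNM k) b2 a2 hM0
          _ = _ := by ring
      have d1 : 0 ≤ P k * (M - Sn) := mul_nonneg (hP0 k) a1
      have d2 : 0 ≤ N k * (M - Sp) := mul_nonneg (hN0 k) a2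
      rw [abs_le]
      constructor <;> linarith

end Vale.P328U.MATCH
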