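import Vale.Agent.P328.U.SOSW
import Vale.Agent.P328.U.CRYF

/-! # P328 U, module PATHW: the hub-wall flux is controlled by the local forms (helper11) -/

namespace Vale.P328U.PATHW

open Finset BigOperators Vale.P328U Vale.P328U.CRYF

universe v

variable {κ : Type v} [Fintype κ] [DecidableEq κ]

/-- the path data: a step function which is injective for the first `s j - 1` steps -/
theorem path_data (s : κ → ℕ) (p : ℕ) (j : κ) (hs : 2 * p + 1 ≤ ∑ c, s c) (hj : s j ≤ p) :
    ∃ F : (κ → ℕ) → (κ → ℕ),
      (∀ u, u ≤ s → u j = s j → ∑ c, u c < ∑ c, s c → ∃ c, c ≠ j ∧ u c < s c ∧ F u = u + e c) ∧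
      (∀ v ∈ B s (p + 1), ∀ v' ∈ B s (p + 1), v j = s j → v' j = s j → ∀ i, i + 1 ≤ s j →
        F^[i] v = F^[i] v' → v = v') := by
  classical
  obtain ⟨D, Z, f, h1, h2, h3, -⟩ := full s (univ.erase j)
  let F : (κ → ℕ) → (κ → ℕ) := fun u => if 0 < Z u then f u else
    if h : ∃ c, c ≠ j ∧ u c < s c then u + e h.choose else u
  have hF : ∀ u, u ≤ s → u j = s j → ∑ c, u c < ∑ c, s c →
      ∃ c, c ≠ j ∧ u c < s c ∧ F u = u + e c := by
    intro u hu huj hlt
    by_cases hZ : 0 < Z u
    · obtain ⟨c, hc, hlt', hf, -, -⟩ := h2 u hu hZ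
      exact ⟨c, (mem_erase.1 hc).1, hlt', by simp only [F, if_pos hZ]; exact hf⟩
    · have hex : ∃ c, c ≠ j ∧ u c < s c := by
        by_contra hne
        push Not at hne
        have : ∑ c, s c ≤ ∑ c, u c := by
          refine sum_le_sum fun c _ => ?_
          by_cases hcj : c = j
          · rw [hcj, huj]
          · exact hne c hcj
        omega
      refine ⟨hex.choose, hex.choose_spec.1, hex.choose_spec.2, ?_⟩
      simp only [F, if_neg hZ, dif_pos hex]
  refine ⟨F, hF, ?_⟩
  -- invariants of the iteration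
  have inv : ∀ v ∈ B s (p + 1), v j = s j → ∀ i, i ≤ s j →
      F^[i] v ≤ s ∧ (F^[i] v) j = s j ∧ ∑ c, (F^[i] v) c = p + 1 + i := by
    intro v hv hvj i
    induction i with
    | zero =>
      intro _
      simp only [B, mem_filter, Fintype.mem_piFinset, mem_range] at hv
      exact ⟨fun c => by have := hv.1 c; simp only [Function.iterate_zero, id]; omega, hvj, hv.2⟩
    | succ i ih =>
      intro hi
      obtain ⟨a1, a2, a3⟩ := ih (by omega)
      obtain ⟨c, hcj, hlt, hFe⟩ := hF _ a1 a2 (by omega)
      rw [Function.iterate_succ_apply', hFe]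
      refine ⟨?_, ?_, ?_⟩
      · intro l
        by_cases hl : l = c
        · subst hl
          rw [add_e_same]
          exact hlt
        · rw [add_e_ne _ hl]
          exact a1 l
      · rw [add_e_ne _ (Ne.symm hcj)]
        exact a2
      · rw [sum_add_e_mem _ (mem_univ c), a3]
        ring
  have Zinv : ∀ v ∈ B s (p + 1), v j = s j → ∀ i, i + 1 ≤ s j →
      s j ≤ Z (F^[i] v) + 1 + i := by
    intro v hv hvj i
    induction i with
    | zero =>
      intro hi
      obtain ⟨a1, a2, a3⟩ := inv v hv hvj 0 (by omega)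
      simp only [Function.iterate_zero, id] at a1 a2 a3 ⊢
      have b1 := h1 v a1
      have b2 : ∑ c ∈ univ.erase j, s c + s j = ∑ c, s c := by
        rw [add_comm]; exact add_sum_erase univ s (mem_univ j)
      have b3 : ∑ c ∈ univ.erase j, v c + v j = ∑ c, v c := by
        rw [add_comm]; exact add_sum_erase univ v (mem_univ j)
      omega
    | succ i ih =>
      intro hi
      have hz := ih (by omega)
      obtain ⟨a1, a2, a3⟩ := inv v hv hvj i (by omega)
      have hZpos : 0 < Z (F^[i] v) := by omega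
      obtain ⟨c, hc, hlt', hf, -, hZf⟩ := h2 _ a1 hZpos
      rw [Function.iterate_succ_apply']
      have : F (F^[i] v) = f (F^[i] v) := by simp only [F, if_pos hZpos]
      rw [this]
      omega
  intro v hv v' hv' hvj hvj' i
  induction i with
  | zero =>
    intro _ h
    exact h
  | succ i ih =>
    intro hi h
    rw [Function.iterate_succ_apply', Function.iterate_succ_apply'] at h
    have z1 := Zinv v hv hvj i (by omega)
    have z2 := Zinv v' hv' hvj' i (by omega)
    have hZ1 : 0 < Z (F^[i] v) := by omega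
    have hZ2 : 0 < Z (F^[i] v') := by omega
    have e1 : F (F^[i] v) = f (F^[i] v) := by simp only [F, if_pos hZ1]
    have e2 : F (F^[i] v') = f (F^[i] v') := by simp only [F, if_pos hZ2]
    rw [e1, e2] at h
    exact ih (by omega) (h3 _ _ (inv v hv hvj i (by omega)).1 (inv v' hv' hvj' i (by omega)).1
      hZ1 hZ2 h)

/-- harmonic sum -/
theorem harm (N : ℕ) : ∑ t ∈ Icc 1 N, (1 / (t : ℝ)) ≤ 1 + Real.log N := by
  have h := harmonic_le_one_add_log N
  have e1 : ((harmonic N : ℚ) : ℝ) = ∑ t ∈ Icc 1 N, (1 / (t : ℝ)) := by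
    rw [harmonic_eq_sum_Icc]
    push_cast
    exact sum_congr rfl fun t _ => by rw [one_div]
  rw [← e1]
  exact h

theorem thm (κ : Type v) [Fintype κ] [DecidableEq κ] (f : (κ → ℕ) → ℝ) (s : κ → ℕ) (p : ℕ)
    (j : κ) (hs : 2 * p + 1 ≤ ∑ c, s c) (hj1 : 1 ≤ s j) (hj : s j ≤ p) :
    ∑ v ∈ (B s (p + 1)).filter (fun v => v j = s j), (V f j v) ^ 2 ≤
      2 * (s j : ℝ) * (1 + (Fintype.card κ : ℝ) * (1 + Real.log ((p : ℝ) + 2))) *
        (Fintype.card κ : ℝ) * ∑ w ∈ B s (p + 2), Q f w := by
  classical
  obtain ⟨F, hF, hinj⟩ := path_data s p j hs hj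
  set T := (B s (p + 1)).filter (fun v => v j = s j) with hT
  -- invariants
  have inv : ∀ v ∈ T, ∀ i, i ≤ s j →
      F^[i] v ≤ s ∧ (F^[i] v) j = s j ∧ ∑ c, (F^[i] v) c = p + 1 + i := by
    intro v hv i
    rw [hT, mem_filter] at hv
    obtain ⟨hv, hvj⟩ := hv
    induction i with
    | zero =>
      intro _
      simp only [B, mem_filter, Fintype.mem_piFinset, mem_range] at hv
      exact ⟨fun c => by have := hv.1 c; simp only [Function.iterate_zero, id]; omega, hvj, hv.2⟩
    | succ i ih =>
      intro hi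
      obtain ⟨a1, a2, a3⟩ := ih (by omega)
      obtain ⟨c, hcj, hlt, hFe⟩ := hF _ a1 a2 (by omega)
      rw [Function.iterate_succ_apply', hFe]
      refine ⟨?_, ?_, ?_⟩
      · intro l
        by_cases hl : l = c
        · subst hl
          rw [add_e_same]
          exact hlt
        · rw [add_e_ne _ hl]
          exact a1 l
      · rw [add_e_ne _ (Ne.symm hcj)]
        exact a2
      · rw [sum_add_e_mem _ (mem_univ c), a3]
        ring
  let C : (κ → ℕ) → κ := fun u => if h : ∃ c, c ≠ j ∧ u c < s c ∧ F u = u + e c then h.choose else j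
  have hC : ∀ v ∈ T, ∀ i, i < s j → C (F^[i] v) ≠ j ∧
      F^[i + 1] v = F^[i] v + e (C (F^[i] v)) := by
    intro v hv i hi
    obtain ⟨a1, a2, a3⟩ := inv v hv i hi.le
    have hex := hF _ a1 a2 (by omega)
    have e1 : C (F^[i] v) = hex.choose := by simp only [C, dif_pos hex]
    rw [e1, Function.iterate_succ_apply']
    exact ⟨hex.choose_spec.1, hex.choose_spec.2.2⟩
  -- the points
  let vi : (κ → ℕ) → ℕ → (κ → ℕ) := fun v i l => (F^[i] v) l - if l = j then i else 0
  let wi : (κ → ℕ) → ℕ → (κ → ℕ) := fun v i l => (F^[i + 1] v) l - if l = j then i else 0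
  have hwc : ∀ v ∈ T, ∀ i, i < s j → wi v i - e (C (F^[i] v)) = vi v i := by
    intro v hv i hi
    obtain ⟨hc, hs1⟩ := hC v hv i hi
    funext l
    simp only [wi, vi, hs1, Pi.sub_apply]
    by_cases hl : l = C (F^[i] v)
    · rw [hl, add_e_same, if_neg hc, e, Pi.single_eq_same]
      omega
    · rw [add_e_ne _ hl, e, Pi.single_eq_of_ne hl]
      omega
  have hwj : ∀ v ∈ T, ∀ i, i < s j → wi v i - e j = vi v (i + 1) := by
    intro v hv i hi
    funext l
    simp only [wi, vi, Pi.sub_apply]
    by_cases hl : l = j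
    · subst hl
      simp only [if_true, e, Pi.single_eq_same]
      omega
    · rw [if_neg hl, if_neg hl, e, Pi.single_eq_of_ne hl]
      omega
  have hwjv : ∀ v ∈ T, ∀ i, i < s j → wi v i j = s j - i := by
    intro v hv i hi
    simp only [wi, if_true]
    rw [(inv v hv (i + 1) (by omega)).2.1]
  have hwcv : ∀ v ∈ T, ∀ i, i < s j →
      wi v i (C (F^[i] v)) = (F^[i] v) (C (F^[i] v)) + 1 := by
    intro v hv i hi
    obtain ⟨hc, hs1⟩ := hC v hv i hi
    simp only [wi, hs1, if_neg hc, add_e_same]
    omega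
  have hwB : ∀ v ∈ T, ∀ i, i < s j → wi v i ∈ B s (p + 2) := by
    intro v hv i hi
    obtain ⟨a1, a2, a3⟩ := inv v hv (i + 1) (by omega)
    simp only [B, mem_filter, Fintype.mem_piFinset, mem_range]
    refine ⟨fun l => ?_, ?_⟩
    · have h8 : (F^[i + 1] v) l ≤ s l := a1 l
      have h9 : wi v i l ≤ (F^[i + 1] v) l := Nat.sub_le _ _
      omega
    · have e1 : ∑ l, wi v i l + i = ∑ l, (F^[i + 1] v) l := by
        rw [← add_sum_erase univ (wi v i) (mem_univ j),
          ← add_sum_erase univ (F^[i + 1] v) (mem_univ j), hwjv v hv i hi, a2]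
        have : ∑ l ∈ univ.erase j, wi v i l = ∑ l ∈ univ.erase j, (F^[i + 1] v) l := by
          refine sum_congr rfl fun l hl => ?_
          simp only [wi, if_neg (mem_erase.1 hl).1]
          omega
        rw [this]
        omega
      omega
  -- pointwise bound
  set H := ∑ t ∈ Icc 1 (p + 2), (1 / (t : ℝ)) with hH
  have hH0 : 0 ≤ H := sum_nonneg fun t _ => by positivity
  have hpt : ∀ v ∈ T, (V f j v) ^ 2 ≤ ((s j : ℝ) * (1 + (Fintype.card κ : ℝ) * H)) *
      ∑ i ∈ range (s j), 2 * Q f (wi v i) := by
    intro v hv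
    have t0 : V f j (vi v (s j)) = 0 := by
      have : vi v (s j) j = 0 := by
        simp only [vi, if_true]
        rw [(inv v hv (s j) le_rfl).2.1]
        omega
      unfold V
      rw [this]
      simp
    have t1 : vi v 0 = v := by
      funext l
      simp [vi]
    have t2 : V f j v = - ∑ i ∈ range (s j), (V f j (vi v (i + 1)) - V f j (vi v i)) := by
      rw [sum_range_sub (fun i => V f j (vi v i)), t0, t1]
      ring
    have t3 : (V f j v) ^ 2 = (∑ i ∈ range (s j), (V f j (vi v (i + 1)) - V f j (vi v i))) ^ 2 := by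
      rw [t2]
      ring
    rw [t3]
    have t4 := sum_sq_le_sum_mul_sum_of_sq_le_mul (range (s j))
      (r := fun i => V f j (vi v (i + 1)) - V f j (vi v i))
      (f := fun i => 1 + ((wi v i j : ℕ) : ℝ) / (wi v i (C (F^[i] v)) : ℕ))
      (g := fun i => 2 * Q f (wi v i))
      (fun i _ => by positivity) (fun i _ => by
        have := SOSW.q0 κ f (wi v i)
        positivity) (fun i hi => by
        have hi' := mem_range.1 hi
        have hwj1 : 1 ≤ wi v i j := by rw [hwjv v hv i hi']; omega
        have hwc1 : 1 ≤ wi v i (C (F^[i] v)) := by rw [hwcv v hv i hi']; omega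
        have h := SOSW.thm κ f (wi v i) j j (C (F^[i] v)) hwj1 hwc1
        rw [hwj v hv i hi', hwc v hv i hi'] at h
        have hne : ((wi v i j : ℕ) : ℝ) ≠ 0 := by
          have : (1 : ℝ) ≤ ((wi v i j : ℕ) : ℝ) := by exact_mod_cast hwj1
          linarith
        rw [div_self hne] at h
        calc _ ≤ _ := h
          _ = _ := by ring)
    refine t4.trans (mul_le_mul_of_nonneg_right ?_ (sum_nonneg fun i _ => by
      have := SOSW.q0 κ f (wi v i)
      positivity))
    -- sum of the weights
    have w1 : ∑ i ∈ range (s j), (1 + ((wi v i j : ℕ) : ℝ) / (wi v i (C (F^[i] v)) : ℕ)) ≤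
        ∑ i ∈ range (s j), (1 + (s j : ℝ) * (1 / ((wi v i (C (F^[i] v)) : ℕ) : ℝ))) := by
      refine sum_le_sum fun i hi => ?_
      have hi' := mem_range.1 hi
      have : ((wi v i j : ℕ) : ℝ) ≤ s j := by
        exact_mod_cast (show wi v i j ≤ s j by rw [hwjv v hv i hi']; omega)
      have h0 : (0 : ℝ) ≤ 1 / ((wi v i (C (F^[i] v)) : ℕ) : ℝ) := by positivity
      have := mul_le_mul_of_nonneg_right this h0
      rw [div_eq_mul_one_div]
      linarith
    refine w1.trans ?_
    rw [sum_add_distrib, ← mul_sum, sum_const, card_range, nsmul_eq_mul, mul_one]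
    have mono : ∀ i i', i ≤ i' → i' ≤ s j → ∀ l, (F^[i] v) l ≤ (F^[i'] v) l := by
      intro i i' hii
      induction i', hii using Nat.le_induction with
      | base => intro _ l; exact le_rfl
      | succ i' hii ih =>
        intro hi' l
        have h5 := ih (by omega) l
        rw [(hC v hv i' (by omega)).2]
        refine h5.trans ?_
        simp only [Pi.add_apply]
        omega
    have w2 : ∑ i ∈ range (s j), (1 / ((wi v i (C (F^[i] v)) : ℕ) : ℝ)) ≤
        (Fintype.card κ : ℝ) * H := by
      rw [← sum_fiberwise_of_maps_to (g := fun i => C (F^[i] v)) (t := univ)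
        (fun i _ => mem_univ _)]
      calc _ ≤ ∑ _c : κ, H := by
            refine sum_le_sum fun c _ => ?_
            have himg : ∑ i ∈ (range (s j)).filter (fun i => C (F^[i] v) = c),
                (1 / ((wi v i (C (F^[i] v)) : ℕ) : ℝ)) =
                ∑ t ∈ ((range (s j)).filter (fun i => C (F^[i] v) = c)).image
                  (fun i => wi v i (C (F^[i] v))), (1 / (t : ℝ)) := by
              rw [sum_image]
              intro i hi i' hi' heq
              simp only [coe_filter, Set.mem_ofPred_eq, mem_range] at hi hi'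
              by_contra hne
              rcases lt_or_gt_of_ne hne with hlt | hlt
              · have e1 := hwcv v hv i hi.1
                have e2 := hwcv v hv i' hi'.1
                have e3 := mono (i + 1) i' (by omega) (by omega) c
                have e4 := (hC v hv i hi.1).2
                rw [e4, hi.2, add_e_same] at e3
                rw [hi.2] at e1
                rw [hi'.2] at e2
                simp only [hi.2, hi'.2] at heq
                omega
              · have e1 := hwcv v hv i hi.1
                have e2 := hwcv v hv i' hi'.1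
                have e3 := mono (i' + 1) i (by omega) (by omega) c
                have e4 := (hC v hv i' hi'.1).2
                rw [e4, hi'.2, add_e_same] at e3
                rw [hi.2] at e1
                rw [hi'.2] at e2
                simp only [hi.2, hi'.2] at heq
                omega
            rw [himg]
            refine sum_le_sum_of_subset_of_nonneg ?_ (fun t _ _ => by positivity)
            intro t ht
            rw [mem_image] at ht
            obtain ⟨i, hi, rfl⟩ := ht
            rw [mem_filter, mem_range] at hi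
            rw [mem_Icc]
            refine ⟨by rw [hwcv v hv i hi.1]; omega, ?_⟩
            have hB := hwB v hv i hi.1
            simp only [B, mem_filter] at hB
            rw [← hB.2]
            exact single_le_sum (f := fun l => wi v i l) (fun l _ => Nat.zero_le _) (mem_univ _)
        _ = _ := by rw [sum_const, card_univ, nsmul_eq_mul]
    have hsj0 : (0 : ℝ) ≤ s j := Nat.cast_nonneg _
    have := mul_le_mul_of_nonneg_left w2 hsj0
    linarith
  -- sum over the wall
  have hsum : ∑ v ∈ T, ∑ i ∈ range (s j), Q f (wi v i) ≤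
      (Fintype.card κ : ℝ) * ∑ w ∈ B s (p + 2), Q f w := by
    rw [← sum_product']
    have e1 : (Fintype.card κ : ℝ) * ∑ w ∈ B s (p + 2), Q f w =
        ∑ x ∈ B s (p + 2) ×ˢ (univ : Finset κ), Q f x.1 := by
      rw [sum_product]
      simp only [sum_const, card_univ, nsmul_eq_mul]
      rw [mul_sum]
    rw [e1]
    have himg : ∑ x ∈ T ×ˢ range (s j), Q f (wi x.1 x.2) =
        ∑ y ∈ (T ×ˢ range (s j)).image (fun x => (wi x.1 x.2, C (F^[x.2] x.1))), Q f y.1 := by
      rw [sum_image]
      rintro ⟨v, i⟩ hx ⟨v', i'⟩ hx' heq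
      simp only [coe_product, Set.mem_prod, mem_coe, mem_range] at hx hx'
      simp only [Prod.mk.injEq] at heq
      obtain ⟨hw, hc⟩ := heq
      have hii : i = i' := by
        have h1 := hwjv v hx.1 i hx.2
        have h2 := hwjv v' hx'.1 i' hx'.2
        rw [hw] at h1
        omega
      subst hii
      have h3 : vi v i = vi v' i := by
        rw [← hwc v hx.1 i hx.2, ← hwc v' hx'.1 i hx.2, hw, hc]
      have h4 : F^[i] v = F^[i] v' := by
        funext l
        by_cases hl : l = j
        · rw [hl, (inv v hx.1 i hx.2.le).2.1, (inv v' hx'.1 i hx.2.le).2.1]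
        · have := congrFun h3 l
          simp only [vi, if_neg hl] at this
          omega
      have hv := mem_filter.1 hx.1
      have hv' := mem_filter.1 hx'.1
      rw [hinj v hv.1 v' hv'.1 hv.2 hv'.2 i (by omega) h4]
    rw [himg]
    refine sum_le_sum_of_subset_of_nonneg ?_ (fun y _ _ => SOSW.q0 κ f y.1)
    intro y hy
    rw [mem_image] at hy
    obtain ⟨⟨v, i⟩, hx, rfl⟩ := hy
    rw [mem_product, mem_range] at hx
    exact mem_product.2 ⟨hwB v hx.1 i hx.2, mem_univ _⟩
  have hQs : 0 ≤ ∑ w ∈ B s (p + 2), Q f w := sum_nonneg fun w _ => SOSW.q0 κ f w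
  have hHle : H ≤ 1 + Real.log ((p : ℝ) + 2) := by
    have := harm (p + 2)
    push_cast at this
    exact this
  have hn0 : (0 : ℝ) ≤ (Fintype.card κ : ℝ) := Nat.cast_nonneg _
  have hsj0 : (0 : ℝ) ≤ s j := Nat.cast_nonneg _
  calc ∑ v ∈ T, (V f j v) ^ 2
      ≤ ∑ v ∈ T, ((s j : ℝ) * (1 + (Fintype.card κ : ℝ) * H)) *
        ∑ i ∈ range (s j), 2 * Q f (wi v i) := sum_le_sum hpt
    _ = ((s j : ℝ) * (1 + (Fintype.card κ : ℝ) * H)) * (2 * ∑ v ∈ T, ∑ i ∈ range (s j),
        Q f (wi v i)) := by
        simp only [← mul_sum]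
    _ ≤ ((s j : ℝ) * (1 + (Fintype.card κ : ℝ) * H)) * (2 * ((Fintype.card κ : ℝ) *
        ∑ w ∈ B s (p + 2), Q f w)) := by gcongr
    _ ≤ ((s j : ℝ) * (1 + (Fintype.card κ : ℝ) * (1 + Real.log ((p : ℝ) + 2)))) *
        (2 * ((Fintype.card κ : ℝ) * ∑ w ∈ B s (p + 2), Q f w)) := by gcongr
    _ = _ := by ring

end Vale.P328U.PATHW
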